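import Vale.Agent.Lib.P037.Sym

/-!
The three base cases: the diagonal pattern, the pattern `[[1,1],[0,0]]`, the zero pattern.
-/

namespace Vale.Agent.Lib.P037

open Finset

variable {n : ℕ}

/-- A far matrix contains a copy. -/
lemma far_one_le (h : Bool × Bool × Bool × Bool) (A : Mat n) (hn : 1 ≤ n) (ε : ℝ) (hε : 0 < ε)
    (hfar : ∀ B : Mat n, FreeH h B → ε * (n : ℝ) ^ 2 ≤ ham A B) : 1 ≤ NH h A := by
  by_contra hlt
  have h0 : NH h A = 0 := by omega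
  have hfree : FreeH h A := by
    intro r1 r2 c1 c2 hr hc hq
    unfold NH at h0
    rw [Finset.sum_eq_zero_iff] at h0
    have h1 := h0 (r1, r2) (by simp [ipairs, hr])
    rw [Finset.sum_eq_zero_iff] at h1
    have h2 := h1 (c1, c2) (by simp [ipairs, hc])
    simp only [hq, if_true] at h2
    exact one_ne_zero h2
  have h1 := hfar A hfree
  rw [ham_self] at h1
  have hnR : (0 : ℝ) < n := by exact_mod_cast hn
  have : 0 < ε * (n : ℝ) ^ 2 := by positivity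
  simp only [Nat.cast_zero] at h1
  linarith

/-- The diagonal pattern as four booleans. -/
def hDiag : Bool × Bool × Bool × Bool := (true, false, false, true)

lemma NH_diag (A : Mat n) : NH hDiag A = Nq A := by
  unfold NH Nq
  refine Finset.sum_congr rfl fun r _ => Finset.sum_congr rfl fun c _ => ?_
  exact if_congr Iff.rfl rfl rfl

theorem RemH_diag : RemH hDiag := by
  refine ⟨1 / (408 ^ 4 * 332928 ^ 8 * 2 ^ 40), 40, by positivity, by norm_num, ?_⟩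
  intro n hn ε hε hε1 A hfar
  have hpow : ε ^ (40 : ℝ) = ε ^ 40 := by
    have := Real.rpow_natCast ε 40
    norm_num at this ⊢
  rw [hpow]
  have hN1 := far_one_le hDiag A hn ε hε hfar
  have hN1R : (1 : ℝ) ≤ NH hDiag A := by exact_mod_cast hN1
  rw [NH_diag] at hN1 hN1R ⊢
  set K := ⌈1 / ε⌉₊ with hKdef
  have hK0 : 0 < K := Nat.ceil_pos.mpr (by positivity)
  have hK1 : 1 ≤ K := hK0
  have hK1R : (1 : ℝ) ≤ K := by exact_mod_cast hK1
  have hge : 1 / ε ≤ K := Nat.le_ceil _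
  have hlt : (K : ℝ) < 1 / ε + 1 := Nat.ceil_lt_add_one (by positivity)
  have hεK1 : 1 ≤ ε * K := by
    have := mul_le_mul_of_nonneg_left hge hε.le
    rwa [mul_one_div_cancel hε.ne'] at this
  have hεK2 : ε * K ≤ 2 := by
    have := mul_lt_mul_of_pos_left hlt hε
    rw [mul_add, mul_one_div_cancel hε.ne'] at this
    linarith
  have hεK0 : 0 ≤ ε * K := by positivity
  have hnR : (0 : ℝ) < n := by exact_mod_cast hn
  by_cases hnN : n < parN0 K
  · -- small `n`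
    have h1 : (n : ℝ) ≤ parN0 K := by exact_mod_cast hnN.le
    have h2 : (parN0 K : ℝ) = 408 * 332928 ^ 2 * (K : ℝ) ^ 10 := by
      unfold parN0 parP parQ
      push_cast
      ring
    have h3 : (n : ℝ) ^ 4 ≤ (408 * 332928 ^ 2 * (K : ℝ) ^ 10) ^ 4 := by
      rw [← h2]
      gcongr
    have h4 : ε ^ 40 * (n : ℝ) ^ 4 ≤ 408 ^ 4 * 332928 ^ 8 * 2 ^ 40 := by
      calc ε ^ 40 * (n : ℝ) ^ 4 ≤ ε ^ 40 * (408 * 332928 ^ 2 * (K : ℝ) ^ 10) ^ 4 := by gcongr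
        _ = 408 ^ 4 * 332928 ^ 8 * (ε * K) ^ 40 := by ring
        _ ≤ 408 ^ 4 * 332928 ^ 8 * 2 ^ 40 := by gcongr
    calc 1 / (408 ^ 4 * 332928 ^ 8 * 2 ^ 40) * ε ^ 40 * (n : ℝ) ^ 4
        = (ε ^ 40 * (n : ℝ) ^ 4) / (408 ^ 4 * 332928 ^ 8 * 2 ^ 40) := by ring
      _ ≤ 1 := by
        rw [div_le_one (by positivity)]
        exact h4
      _ ≤ _ := hN1R
  · have hnge : parN0 K ≤ n := not_lt.mp hnN
    have hD : n ^ 4 ≤ parD K * Nq A := by
      by_contra hcon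
      have hcon' : parD K * Nq A < n ^ 4 := not_le.mp hcon
      obtain ⟨B, hB, hB2⟩ := exists_free K hK1 A hnge hcon'
      have h1 := hfar B (by
        intro r1 r2 c1 c2 hr hc hq
        exact hB r1 r2 c1 c2 hr hc hq)
      rw [ham_comm] at h1
      have h2 : (0 : ℝ) < (n : ℝ) ^ 2 := by positivity
      have h3 : (n : ℝ) ^ 2 ≤ (ham B A : ℝ) * K := by
        calc (n : ℝ) ^ 2 = 1 * (n : ℝ) ^ 2 := by ring
          _ ≤ (ε * K) * (n : ℝ) ^ 2 := by gcongr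
          _ = (ε * (n : ℝ) ^ 2) * K := by ring
          _ ≤ _ := by gcongr
      linarith
    have hDR : (parD K : ℝ) = 2048 * 408 ^ 2 * 332928 ^ 8 * (K : ℝ) ^ 38 := by
      unfold parD parg pargp parP parQ
      push_cast
      ring
    have h1 : (n : ℝ) ^ 4 ≤ 2048 * 408 ^ 2 * 332928 ^ 8 * (K : ℝ) ^ 38 * (Nq A : ℝ) := by
      rw [← hDR]
      exact_mod_cast hD
    have hNn : (0 : ℝ) ≤ Nq A := by positivity
    have hε2 : ε ^ 2 ≤ 1 := pow_le_one₀ hε.le hε1.le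
    have h4 : ε ^ 40 * (n : ℝ) ^ 4 ≤ 408 ^ 4 * 332928 ^ 8 * 2 ^ 40 * (Nq A : ℝ) := by
      calc ε ^ 40 * (n : ℝ) ^ 4
          ≤ ε ^ 40 * (2048 * 408 ^ 2 * 332928 ^ 8 * (K : ℝ) ^ 38 * (Nq A : ℝ)) := by gcongr
        _ = 2048 * 408 ^ 2 * 332928 ^ 8 * (ε * K) ^ 38 * ε ^ 2 * (Nq A : ℝ) := by ring
        _ ≤ 2048 * 408 ^ 2 * 332928 ^ 8 * 2 ^ 38 * 1 * (Nq A : ℝ) := by gcongr
        _ ≤ _ := mul_le_mul_of_nonneg_right (by norm_num) hNn
    calc 1 / (408 ^ 4 * 332928 ^ 8 * 2 ^ 40) * ε ^ 40 * (n : ℝ) ^ 4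
        = (ε ^ 40 * (n : ℝ) ^ 4) / (408 ^ 4 * 332928 ^ 8 * 2 ^ 40) := by ring
      _ ≤ (Nq A : ℝ) := by
        rw [div_le_iff₀ (by positivity)]
        linarith

end Vale.Agent.Lib.P037
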