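import Vale.Agent.Lib.P037.Base

/-!
The base cases `[[1,1],[0,0]]` and the zero pattern.
-/

namespace Vale.Agent.Lib.P037

open Finset

variable {n : ℕ}

/-- Increasing pairs inside a set. -/
def pairsIn (D : Finset (Fin n)) : ℕ := ((ipairs n).filter fun p => p.1 ∈ D ∧ p.2 ∈ D).card

lemma sq_le_pairs (D : Finset (Fin n)) : (D.card : ℝ) ^ 2 ≤ 2 * pairsIn D + D.card := by
  classical
  let f : Fin n → ℝ := fun a => if a ∈ D then 1 else 0
  have hcard : (D.card : ℝ) = ∑ a, f a := by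
    simp only [f]
    rw [Finset.sum_boole]
    simp
  have h := sum_sum_split (fun a b : Fin n => f a * f b)
  have h1 : (D.card : ℝ) ^ 2 = ∑ a, ∑ b, f a * f b := by
    rw [hcard, sq, Finset.sum_mul_sum]
  have h2 : ∑ a, f a * f a = (D.card : ℝ) := by
    rw [hcard]
    refine Finset.sum_congr rfl fun a _ => ?_
    simp only [f]
    split_ifs <;> simp
  have h3 : ∑ w ∈ ipairs n, (f w.1 * f w.2 + f w.2 * f w.1) = 2 * (pairsIn D : ℝ) := by
    unfold pairsIn
    rw [Finset.card_filter]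
    push_cast
    rw [Finset.mul_sum]
    refine Finset.sum_congr rfl fun w _ => ?_
    simp only [f]
    by_cases h1 : w.1 ∈ D <;> by_cases h2 : w.2 ∈ D <;> simp [h1, h2]; norm_num
  rw [h1, h, h2, h3]
  linarith

/-- The Cauchy-Schwarz step. -/
lemma S_lemma (Dm : Fin n × Fin n → Finset (Fin n)) :
    ((∑ r ∈ ipairs n, (Dm r).card : ℕ) : ℝ) ^ 2
      ≤ (n : ℝ) ^ 2 * (2 * ((∑ r ∈ ipairs n, pairsIn (Dm r) : ℕ) : ℝ)
        + ((∑ r ∈ ipairs n, (Dm r).card : ℕ) : ℝ)) := by
  push_cast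
  have h1 := sq_sum_le_card_mul_sum_sq (s := ipairs n) (f := fun r => ((Dm r).card : ℝ))
  refine h1.trans ?_
  have h2 : ∑ r ∈ ipairs n, ((Dm r).card : ℝ) ^ 2
      ≤ 2 * ∑ r ∈ ipairs n, (pairsIn (Dm r) : ℝ) + ∑ r ∈ ipairs n, ((Dm r).card : ℝ) := by
    rw [Finset.mul_sum, ← Finset.sum_add_distrib]
    exact Finset.sum_le_sum fun r _ => sq_le_pairs _
  have h3 : ((ipairs n).card : ℝ) ≤ (n : ℝ) ^ 2 := card_ipairs_le
  have h0 : 0 ≤ ∑ r ∈ ipairs n, ((Dm r).card : ℝ) ^ 2 := by positivity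
  calc _ ≤ (n : ℝ) ^ 2 * ∑ r ∈ ipairs n, ((Dm r).card : ℝ) ^ 2 := by gcongr
    _ ≤ _ := by gcongr

/-- The numerical end of both arguments. -/
lemma S_end {S N : ℝ} {m : ℝ} (h : S ^ 2 ≤ m ^ 2 * (2 * N + S)) (hS : 2 * m ^ 2 ≤ S) :
    S ^ 2 ≤ 4 * m ^ 2 * N := by
  have h1 : 0 ≤ S := le_trans (by positivity) hS
  nlinarith [mul_le_mul_of_nonneg_right hS h1]

/-! ### The pattern `[[1,1],[0,0]]` -/

/-- The pattern `[[1,1],[0,0]]` as four booleans. -/
def hTop : Bool × Bool × Bool × Bool := (true, true, false, false)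

/-- Number of ones of column `c` in the rows up to `r`. -/
def upc (A : Mat n) (r c : Fin n) : ℕ := (univ.filter fun r' => r' ≤ r ∧ A r' c = true).card

/-- The chain matrix. -/
def chainM (A : Mat n) (τ : ℕ) : Mat n := fun r c => decide (τ ≤ upc A r c)

lemma upc_mono (A : Mat n) {r r' : Fin n} (h : r ≤ r') (c : Fin n) : upc A r c ≤ upc A r' c := by
  unfold upc
  apply Finset.card_le_card
  intro x hx
  simp only [mem_filter, mem_univ, true_and] at hx ⊢
  exact ⟨hx.1.trans h, hx.2⟩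

lemma chainM_free (A : Mat n) (τ : ℕ) : FreeH hTop (chainM A τ) := by
  intro r1 r2 c1 c2 hr _ hq
  simp only [QPat, hTop, chainM, decide_eq_true_eq, decide_eq_false_iff_not, not_le] at hq
  have := upc_mono A hr.le c1
  omega

lemma upc_strict (A : Mat n) {r r' : Fin n} (h : r < r') (c : Fin n) (hr' : A r' c = true) :
    upc A r c < upc A r' c := by
  unfold upc
  apply Finset.card_lt_card
  refine ⟨?_, ?_⟩
  · intro x hx
    simp only [mem_filter, mem_univ, true_and] at hx ⊢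
    exact ⟨hx.1.trans h.le, hx.2⟩
  · intro hsub
    have : r' ∈ univ.filter fun r'' => r'' ≤ r ∧ A r'' c = true := hsub (by simp [hr'])
    simp only [mem_filter, mem_univ, true_and] at this
    exact absurd this.1 (not_le.mpr h)

/-- Few ones of a column precede the level. -/
lemma first_ones (A : Mat n) (τ : ℕ) (c : Fin n) :
    (univ.filter fun i => A i c = true ∧ upc A i c < τ).card ≤ τ := by
  have := Finset.card_le_card_of_injOn (s := univ.filter fun i => A i c = true ∧ upc A i c < τ)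
    (t := Finset.range τ) (fun i => upc A i c) ?_ ?_
  · simpa using this
  · intro i hi
    simp only [coe_filter, mem_univ, true_and, Set.mem_ofPred_eq] at hi
    simpa using hi.2
  · intro i hi j hj hij
    simp only [coe_filter, mem_univ, true_and, Set.mem_ofPred_eq] at hi hj
    simp only at hij
    rcases lt_trichotomy i j with hl | he | hg
    · have := upc_strict A hl c hj.1
      omega
    · exact he
    · have := upc_strict A hg c hi.1
      omega

/-- The pairs of rows in which column `c` drops. -/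
def drops (A : Mat n) (c : Fin n) : ℕ :=
  ((ipairs n).filter fun r => A r.1 c = true ∧ A r.2 c = false).card

lemma late_zeros (A : Mat n) (τ : ℕ) (c : Fin n) :
    τ * (univ.filter fun i => A i c = false ∧ τ ≤ upc A i c).card ≤ drops A c := by
  classical
  have h1 : τ * (univ.filter fun i => A i c = false ∧ τ ≤ upc A i c).card
      ≤ ∑ i ∈ univ.filter (fun i => A i c = false ∧ τ ≤ upc A i c), upc A i c := by
    rw [mul_comm, ← smul_eq_mul]
    apply Finset.card_nsmul_le_sum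
    intro i hi
    simp only [mem_filter, mem_univ, true_and] at hi
    exact hi.2
  refine h1.trans ?_
  have h2 : ∑ i ∈ univ.filter (fun i => A i c = false ∧ τ ≤ upc A i c), upc A i c
      ≤ ∑ i ∈ univ.filter (fun i => A i c = false),
          (univ.filter fun r' => r' < i ∧ A r' c = true).card := by
    refine (Finset.sum_le_sum_of_subset ?_).trans (Finset.sum_le_sum fun i hi => ?_)
    · intro i hi
      simp only [mem_filter, mem_univ, true_and] at hi ⊢
      exact hi.1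
    · simp only [mem_filter, mem_univ, true_and] at hi
      unfold upc
      apply Finset.card_le_card
      intro x hx
      simp only [mem_filter, mem_univ, true_and] at hx ⊢
      refine ⟨lt_of_le_of_ne hx.1 ?_, hx.2⟩
      rintro rfl
      rw [hi] at hx
      simp at hx
  refine h2.trans ?_
  rw [← Finset.card_sigma]
  unfold drops ipairs
  refine Finset.card_le_card_of_injOn (fun x => (x.2, x.1)) ?_ ?_
  · rintro ⟨i, r'⟩ hx
    simp only [coe_sigma, coe_filter, mem_univ, true_and, Set.mem_sigma_iff,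
      Set.mem_ofPred_eq] at hx
    simp only [coe_filter, mem_filter, mem_univ, true_and, Set.mem_ofPred_eq]
    exact ⟨hx.2.1, hx.2.2, hx.1⟩
  · rintro ⟨i, r'⟩ _ ⟨j, r''⟩ _ hij
    simp only [Prod.mk.injEq] at hij
    obtain ⟨h3, h4⟩ := hij
    subst h3
    subst h4
    rfl

lemma ham_eq_cols (A B : Mat n) :
    ham A B = ∑ c, (univ.filter fun i => A i c ≠ B i c).card := by
  unfold ham
  simp only [Finset.card_filter]
  rw [Finset.sum_comm]

/-- The error of the chain matrix. -/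
lemma chainM_err (A : Mat n) (τ : ℕ) :
    τ * ham A (chainM A τ) ≤ τ ^ 2 * n + ∑ c, drops A c := by
  classical
  rw [ham_eq_cols, Finset.mul_sum]
  have h1 : ∀ c : Fin n, τ * (univ.filter fun i => A i c ≠ chainM A τ i c).card
      ≤ τ ^ 2 + drops A c := by
    intro c
    have hsub : (univ.filter fun i => A i c ≠ chainM A τ i c)
        ⊆ (univ.filter fun i => A i c = true ∧ upc A i c < τ)
          ∪ (univ.filter fun i => A i c = false ∧ τ ≤ upc A i c) := by
      intro i hi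
      have hi' : A i c ≠ decide (τ ≤ upc A i c) := (Finset.mem_filter.mp hi).2
      simp only [mem_filter, mem_univ, true_and, mem_union]
      cases hA : A i c
      · right
        rw [hA] at hi'
        refine ⟨rfl, ?_⟩
        by_contra hcon
        exact hi' (by simp [hcon])
      · left
        rw [hA] at hi'
        refine ⟨rfl, ?_⟩
        by_contra hcon
        exact hi' (by simpa using hcon)
    have h2 := Finset.card_le_card hsub
    have h3 := Finset.card_union_le (univ.filter fun i => A i c = true ∧ upc A i c < τ)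
      (univ.filter fun i => A i c = false ∧ τ ≤ upc A i c)
    have h4 := first_ones A τ c
    have h5 := late_zeros A τ c
    calc τ * (univ.filter fun i => A i c ≠ chainM A τ i c).card
        ≤ τ * ((univ.filter fun i => A i c = true ∧ upc A i c < τ).card
          + (univ.filter fun i => A i c = false ∧ τ ≤ upc A i c).card) :=
          Nat.mul_le_mul_left _ (h2.trans h3)
      _ = τ * (univ.filter fun i => A i c = true ∧ upc A i c < τ).card
          + τ * (univ.filter fun i => A i c = false ∧ τ ≤ upc A i c).card := by ring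
      _ ≤ τ * τ + drops A c := Nat.add_le_add (Nat.mul_le_mul_left _ h4) h5
      _ = _ := by ring
  calc _ ≤ ∑ c : Fin n, (τ ^ 2 + drops A c) := Finset.sum_le_sum fun c _ => h1 c
    _ = _ := by
      rw [Finset.sum_add_distrib]
      simp [mul_comm]

/-- The sets of dropped columns for a pair of rows. -/
def Dtop (A : Mat n) (r : Fin n × Fin n) : Finset (Fin n) :=
  univ.filter fun c => A r.1 c = true ∧ A r.2 c = false

lemma sum_drops (A : Mat n) : ∑ c, drops A c = ∑ r ∈ ipairs n, (Dtop A r).card := by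
  unfold drops Dtop
  simp only [Finset.card_filter]
  rw [Finset.sum_comm]

lemma NH_top (A : Mat n) : NH hTop A = ∑ r ∈ ipairs n, pairsIn (Dtop A r) := by
  unfold NH
  refine Finset.sum_congr rfl fun r _ => ?_
  unfold pairsIn
  rw [Finset.card_filter]
  refine Finset.sum_congr rfl fun c _ => ?_
  refine if_congr ?_ rfl rfl
  simp only [QPat, hTop, Dtop, mem_filter, mem_univ, true_and]
  tauto

theorem RemH_top : RemH hTop := by
  refine ⟨1 / 65536, 8, by norm_num, by norm_num, ?_⟩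
  intro n hn ε hε hε1 A hfar
  have hpow : ε ^ (8 : ℝ) = ε ^ 8 := by
    have := Real.rpow_natCast ε 8
    norm_num at this ⊢
  rw [hpow]
  have hN1 := far_one_le hTop A hn ε hε hfar
  have hN1R : (1 : ℝ) ≤ NH hTop A := by exact_mod_cast hN1
  have hnR : (0 : ℝ) < n := by exact_mod_cast hn
  have hε8 : 0 < ε ^ 8 := by positivity
  by_cases hsmall : ε ^ 2 * n < 16
  · -- small `n`
    have h0 : 0 ≤ ε ^ 2 * (n : ℝ) := by positivity
    have h1 : (ε ^ 2 * (n : ℝ)) ^ 4 ≤ 16 ^ 4 := by gcongr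
    calc 1 / 65536 * ε ^ 8 * (n : ℝ) ^ 4 = (ε ^ 2 * (n : ℝ)) ^ 4 / 65536 := by ring
      _ ≤ 1 := by
        rw [div_le_one (by norm_num)]
        norm_num at h1 ⊢
        exact h1
      _ ≤ _ := hN1R
  · have hlarge : 16 ≤ ε ^ 2 * n := not_lt.mp hsmall
    have hεn : 16 ≤ ε * n := by
      have : ε ^ 2 * n ≤ ε * n := by
        have : ε ^ 2 ≤ ε := by nlinarith
        gcongr
      linarith
    set τ := ⌈ε * n / 4⌉₊ with hτdef
    have hτ1 : ε * n / 4 ≤ τ := Nat.le_ceil _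
    have hτ2 : (τ : ℝ) ≤ ε * n / 2 := by
      have := (Nat.ceil_lt_add_one (a := ε * n / 4) (by positivity)).le
      linarith
    have hτ0 : (0 : ℝ) < τ := by
      have : 0 < ε * n / 4 := by positivity
      linarith
    have h1 := hfar (chainM A τ) (chainM_free A τ)
    have h2 : ((τ * ham A (chainM A τ) : ℕ) : ℝ) ≤ ((τ ^ 2 * n + ∑ c, drops A c : ℕ) : ℝ) := by
      exact_mod_cast chainM_err A τ
    rw [sum_drops] at h2
    have h2' : (τ : ℝ) * (ham A (chainM A τ) : ℝ)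
        ≤ (τ : ℝ) ^ 2 * n + ((∑ r ∈ ipairs n, (Dtop A r).card : ℕ) : ℝ) := by
      push_cast at h2 ⊢
      exact h2
    have hS := S_lemma (Dtop A)
    rw [← NH_top] at hS
    set S : ℝ := ((∑ r ∈ ipairs n, (Dtop A r).card : ℕ) : ℝ) with hSdef
    set N : ℝ := (NH hTop A : ℝ) with hNdef
    have h3 : (τ : ℝ) * (ε * (n : ℝ) ^ 2) ≤ (τ : ℝ) ^ 2 * n + S := by
      have : (τ : ℝ) * (ε * (n : ℝ) ^ 2) ≤ (τ : ℝ) * (ham A (chainM A τ) : ℝ) := by gcongr
      exact this.trans h2'
    have h4 : ε ^ 2 * (n : ℝ) ^ 3 / 8 ≤ S := by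
      have h5 : (τ : ℝ) * (n : ℝ) * (ε * n / 2) ≤ S := by
        have : (τ : ℝ) ^ 2 * n ≤ (τ : ℝ) * n * (ε * n / 2) := by
          calc (τ : ℝ) ^ 2 * n = (τ : ℝ) * n * τ := by ring
            _ ≤ _ := by gcongr
        nlinarith
      have h6 : (ε * n / 4) * (n : ℝ) * (ε * n / 2) ≤ (τ : ℝ) * (n : ℝ) * (ε * n / 2) := by gcongr
      nlinarith
    have h7 : 2 * (n : ℝ) ^ 2 ≤ S := by
      have : 2 * (n : ℝ) ^ 2 ≤ ε ^ 2 * (n : ℝ) ^ 3 / 8 := by
        have h8 : (n : ℝ) ^ 2 * 16 ≤ (n : ℝ) ^ 2 * (ε ^ 2 * n) := by gcongr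
        nlinarith
      linarith
    have h9 := S_end hS h7
    have h10 : (ε ^ 2 * (n : ℝ) ^ 3 / 8) ^ 2 ≤ S ^ 2 := by
      have : 0 ≤ ε ^ 2 * (n : ℝ) ^ 3 / 8 := by positivity
      gcongr
    have h11 : (n : ℝ) ^ 2 * (ε ^ 4 * (n : ℝ) ^ 4 / 256) ≤ (n : ℝ) ^ 2 * N := by nlinarith
    have h12 : ε ^ 4 * (n : ℝ) ^ 4 / 256 ≤ N :=
      le_of_mul_le_mul_left h11 (by positivity)
    have h13 : ε ^ 8 ≤ ε ^ 4 := pow_le_pow_of_le_one hε.le hε1.le (by norm_num)
    have hn4 : 0 ≤ (n : ℝ) ^ 4 := by positivity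
    calc 1 / 65536 * ε ^ 8 * (n : ℝ) ^ 4 ≤ 1 / 65536 * ε ^ 4 * (n : ℝ) ^ 4 := by gcongr
      _ ≤ ε ^ 4 * (n : ℝ) ^ 4 / 256 := by
        have : 0 ≤ ε ^ 4 * (n : ℝ) ^ 4 := by positivity
        nlinarith
      _ ≤ N := h12

/-! ### The zero pattern -/

/-- The zero pattern as four booleans. -/
def hZero : Bool × Bool × Bool × Bool := (false, false, false, false)

/-- The matrix of ones. -/
def allOnes : Mat n := fun _ _ => true

lemma allOnes_free : FreeH hZero (allOnes : Mat n) := by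
  intro r1 r2 c1 c2 _ _ hq
  simp [QPat, hZero, allOnes] at hq

/-- The zeros of a column. -/
def Zc (A : Mat n) (c : Fin n) : Finset (Fin n) := univ.filter fun i => A i c = false

/-- The common zeros of a pair of rows. -/
def Dzero (A : Mat n) (r : Fin n × Fin n) : Finset (Fin n) :=
  univ.filter fun c => A r.1 c = false ∧ A r.2 c = false

lemma NH_zero (A : Mat n) : NH hZero A = ∑ r ∈ ipairs n, pairsIn (Dzero A r) := by
  unfold NH
  refine Finset.sum_congr rfl fun r _ => ?_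
  unfold pairsIn
  rw [Finset.card_filter]
  refine Finset.sum_congr rfl fun c _ => ?_
  refine if_congr ?_ rfl rfl
  simp only [QPat, hZero, Dzero, mem_filter, mem_univ, true_and]
  tauto

lemma sum_Dzero (A : Mat n) :
    ∑ r ∈ ipairs n, (Dzero A r).card = ∑ c, pairsIn (Zc A c) := by
  unfold Dzero pairsIn Zc
  simp only [Finset.card_filter, mem_filter, mem_univ, true_and]
  rw [Finset.sum_comm]

lemma ham_allOnes (A : Mat n) : ham A allOnes = ∑ c, (Zc A c).card := by
  rw [ham_eq_cols]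
  refine Finset.sum_congr rfl fun c _ => ?_
  unfold Zc allOnes
  congr 1
  ext i
  simp

lemma zero_numeric {n ε z S N : ℝ} (hnR : 0 < n) (hε : 0 < ε) (hε1 : ε < 1)
    (hlarge : 8 ≤ ε ^ 2 * n) (h1 : ε * n ^ 2 ≤ z) (hS0 : 0 ≤ S)
    (hz2 : z ^ 2 ≤ n * (2 * S + z)) (hS : S ^ 2 ≤ n ^ 2 * (2 * N + S)) :
    ε ^ 4 * n ^ 4 / 64 ≤ N := by
  have hεn : 8 ≤ ε * n := by
    have : ε ^ 2 * n ≤ ε * n := by
      have : ε ^ 2 ≤ ε := by nlinarith
      gcongr
    linarith
  have hz0 : 0 ≤ z := le_trans (by positivity) h1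
  have hz3 : 2 * n ≤ z := by
    have : 2 * n ≤ ε * n ^ 2 := by nlinarith
    linarith
  have hz4 : z ^ 2 ≤ 4 * n * S := by nlinarith [mul_le_mul_of_nonneg_right hz3 hz0]
  have hz5 : (ε * n ^ 2) ^ 2 ≤ z ^ 2 := by
    have : 0 ≤ ε * n ^ 2 := by positivity
    gcongr
  have h4 : ε ^ 2 * n ^ 3 / 4 ≤ S := by
    have h5 : n * (ε ^ 2 * n ^ 3) ≤ n * (4 * S) := by nlinarith
    have := le_of_mul_le_mul_left h5 hnR
    linarith
  have h7 : 2 * n ^ 2 ≤ S := by
    have : 2 * n ^ 2 ≤ ε ^ 2 * n ^ 3 / 4 := by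
      have h8 : n ^ 2 * 8 ≤ n ^ 2 * (ε ^ 2 * n) := by gcongr
      nlinarith
    linarith
  have h9 := S_end hS h7
  have h10 : (ε ^ 2 * n ^ 3 / 4) ^ 2 ≤ S ^ 2 := by
    have : 0 ≤ ε ^ 2 * n ^ 3 / 4 := by positivity
    gcongr
  have h11 : n ^ 2 * (ε ^ 4 * n ^ 4 / 64) ≤ n ^ 2 * N := by nlinarith
  exact le_of_mul_le_mul_left h11 (by positivity)

lemma zero_sq (A : Mat n) :
    ((∑ c, (Zc A c).card : ℕ) : ℝ) ^ 2 ≤ (n : ℝ) * (2 *
        ((∑ r ∈ ipairs n, (Dzero A r).card : ℕ) : ℝ) + ((∑ c, (Zc A c).card : ℕ) : ℝ)) := by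
  push_cast
  have h2 := sq_sum_le_card_mul_sum_sq (s := (univ : Finset (Fin n)))
    (f := fun c => ((Zc A c).card : ℝ))
  simp only [card_univ, Fintype.card_fin] at h2
  refine h2.trans ?_
  gcongr
  have h3 : ∑ c, ((Zc A c).card : ℝ) ^ 2
      ≤ ∑ c, (2 * (pairsIn (Zc A c) : ℝ) + ((Zc A c).card : ℝ)) :=
    Finset.sum_le_sum fun c _ => sq_le_pairs _
  refine h3.trans (le_of_eq ?_)
  rw [Finset.sum_add_distrib, ← Finset.mul_sum]
  have h4 := sum_Dzero A
  have h5 : ∑ r ∈ ipairs n, ((Dzero A r).card : ℝ) = ∑ c, (pairsIn (Zc A c) : ℝ) := by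
    exact_mod_cast h4
  rw [h5]

theorem RemH_zero : RemH hZero := by
  refine ⟨1 / 4096, 8, by norm_num, by norm_num, ?_⟩
  intro n hn ε hε hε1 A hfar
  have hpow : ε ^ (8 : ℝ) = ε ^ 8 := by
    have := Real.rpow_natCast ε 8
    norm_num at this ⊢
  rw [hpow]
  have hN1 := far_one_le hZero A hn ε hε hfar
  have hN1R : (1 : ℝ) ≤ NH hZero A := by exact_mod_cast hN1
  have hnR : (0 : ℝ) < n := by exact_mod_cast hn
  have hε8 : 0 < ε ^ 8 := by positivity
  by_cases hsmall : ε ^ 2 * n < 8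
  · have h0 : 0 ≤ ε ^ 2 * (n : ℝ) := by positivity
    have h1 : (ε ^ 2 * (n : ℝ)) ^ 4 ≤ 8 ^ 4 := by gcongr
    calc 1 / 4096 * ε ^ 8 * (n : ℝ) ^ 4 = (ε ^ 2 * (n : ℝ)) ^ 4 / 4096 := by ring
      _ ≤ 1 := by
        rw [div_le_one (by norm_num)]
        norm_num at h1 ⊢
        exact h1
      _ ≤ _ := hN1R
  · have hlarge : 8 ≤ ε ^ 2 * n := not_lt.mp hsmall
    have h1 := hfar allOnes allOnes_free
    rw [ham_allOnes] at h1
    have hS := S_lemma (Dzero A)
    rw [← NH_zero] at hS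
    have h12 := zero_numeric hnR hε hε1 hlarge h1 (by positivity) (zero_sq A) hS
    have h13 : ε ^ 8 ≤ ε ^ 4 := pow_le_pow_of_le_one hε.le hε1.le (by norm_num)
    have hn4 : 0 ≤ (n : ℝ) ^ 4 := by positivity
    calc 1 / 4096 * ε ^ 8 * (n : ℝ) ^ 4 ≤ 1 / 4096 * ε ^ 4 * (n : ℝ) ^ 4 := by gcongr
      _ ≤ ε ^ 4 * (n : ℝ) ^ 4 / 64 := by
        have : 0 ≤ ε ^ 4 * (n : ℝ) ^ 4 := by positivity
        nlinarith
      _ ≤ _ := h12

end Vale.Agent.Lib.P037
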