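import Mathlib

/-!
Jensen steps and a pivot lemma for blow-ups of matrix patterns.
-/

open Finset

namespace P037Blow

lemma rot {A B C D : Type*} [Fintype A] [Fintype B] [Fintype C] [Fintype D]
    (F : A → B → C → D → ℝ) :
    ∑ a, ∑ b, ∑ c, ∑ d, F a b c d = ∑ b, ∑ c, ∑ d, ∑ a, F a b c d := by
  calc ∑ a, ∑ b, ∑ c, ∑ d, F a b c d = ∑ b, ∑ a, ∑ c, ∑ d, F a b c d := Finset.sum_comm
    _ = ∑ b, ∑ c, ∑ a, ∑ d, F a b c d := sum_congr rfl (fun b _ => Finset.sum_comm)
    _ = ∑ b, ∑ c, ∑ d, ∑ a, F a b c d :=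
        sum_congr rfl (fun b _ => sum_congr rfl (fun c _ => Finset.sum_comm))

theorem stage {A B C D : Type*} [Fintype A] [Fintype B] [Fintype C] [Fintype D] (m : ℕ)
    (F : A → B → C → D → ℝ) (hF : ∀ a b c d, 0 ≤ F a b c d) :
    (∑ a, ∑ b, ∑ c, ∑ d, F a b c d) ^ (m + 1) ≤
      ((Fintype.card B * Fintype.card C * Fintype.card D : ℕ) : ℝ) ^ m *
        ∑ R : Fin (m + 1) → A, ∑ b, ∑ c, ∑ d, ∏ i, F (R i) b c d := by
  classical
  set G : B × C × D → ℝ := fun y => ∑ a, F a y.1 y.2.1 y.2.2 with hG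
  have h1 : ∑ a, ∑ b, ∑ c, ∑ d, F a b c d = ∑ y, G y := by
    rw [rot]
    simp only [hG, Fintype.sum_prod_type]
  have hG0 : ∀ y ∈ (univ : Finset (B × C × D)), 0 ≤ G y := fun y _ =>
    sum_nonneg (fun a _ => hF _ _ _ _)
  have h2 : ∀ y, (G y) ^ (m + 1) = ∑ R : Fin (m + 1) → A, ∏ i, F (R i) y.1 y.2.1 y.2.2 := by
    intro y
    have := Finset.prod_univ_sum (fun _ : Fin (m + 1) => (univ : Finset A))
      (fun _ a => F a y.1 y.2.1 y.2.2)
    simp only [Fintype.piFinset_univ, prod_const, card_univ, Fintype.card_fin] at this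
    exact this
  have h3 : (∑ y, G y) ^ (m + 1) ≤
      ((Fintype.card (B × C × D) : ℕ) : ℝ) ^ m * ∑ y, (G y) ^ (m + 1) := by
    have h4 := pow_sum_div_card_le_sum_pow (s := (univ : Finset (B × C × D))) (f := G) hG0 m
    rw [card_univ] at h4
    by_cases hc : Fintype.card (B × C × D) = 0
    · have hemp : IsEmpty (B × C × D) := Fintype.card_eq_zero_iff.mp hc
      simp
    · have hpos : (0 : ℝ) < ((Fintype.card (B × C × D) : ℕ) : ℝ) ^ m := by
        have : 0 < Fintype.card (B × C × D) := Nat.pos_of_ne_zero hc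
        positivity
      rw [div_le_iff₀ hpos] at h4
      linarith [h4]
  rw [h1]
  refine h3.trans (le_of_eq ?_)
  congr 2
  · simp [Fintype.card_prod, mul_assoc]
  · simp only [h2]
    rw [Finset.sum_comm]
    refine sum_congr rfl (fun R _ => ?_)
    simp only [Fintype.sum_prod_type]

lemma num_step {S S' θ N : ℝ} (hθ : 0 < θ) (hN : 0 < N) {e m : ℕ} (hS : θ * N ^ (1 + e) ≤ S)
    (h : S ^ (m + 1) ≤ (N ^ e) ^ m * S') : θ ^ (m + 1) * N ^ (m + 1 + e) ≤ S' := by
  have h1 : (θ * N ^ (1 + e)) ^ (m + 1) ≤ S ^ (m + 1) :=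
    pow_le_pow_left₀ (by positivity) hS _
  have h2 : (θ * N ^ (1 + e)) ^ (m + 1) = (N ^ e) ^ m * (θ ^ (m + 1) * N ^ (m + 1 + e)) := by
    rw [mul_pow, ← pow_mul, ← pow_mul]
    have : N ^ ((1 + e) * (m + 1)) = N ^ (e * m) * N ^ (m + 1 + e) := by
      rw [← pow_add]; congr 1; ring
    rw [this]; ring
  have hp : 0 < (N ^ e) ^ m := by positivity
  exact le_of_mul_le_mul_left (by rw [← h2]; exact h1.trans h) hp

/-- The pivot lemma: many pairs with large weight are separated by one point. -/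
lemma pivot {n : ℕ} (hn : 0 < n) (W : Fin n → Fin n → ℝ) {M δ : ℝ} (hM : 0 ≤ M)
    (h0 : ∀ p q, 0 ≤ W p q) (hle : ∀ p q, W p q ≤ M) (hsupp : ∀ p q, ¬ p < q → W p q = 0)
    (hδ : 0 < δ) (hsum : δ * (n : ℝ) ^ 2 * M ≤ ∑ p, ∑ q, W p q) :
    ∃ x : Fin n, δ ^ 2 / 4 * (n : ℝ) ^ 2 * M ≤
      ∑ p, ∑ q, if p ≤ x ∧ x < q then W p q else 0 := by
  classical
  have hnR : (0 : ℝ) < n := by exact_mod_cast hn
  set g : ℝ := δ * n / 2 with hg
  have hg0 : 0 < g := by positivity
  -- counting pivots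
  have hcount : ∀ p q : Fin n, p < q →
      ∑ x : Fin n, (if p ≤ x ∧ x < q then (1 : ℝ) else 0) = (q.val : ℝ) - p.val := by
    intro p q hpq
    rw [Finset.sum_boole]
    have hset : (univ.filter fun x : Fin n => p ≤ x ∧ x < q).card = q.val - p.val := by
      have : (univ.filter fun x : Fin n => p ≤ x ∧ x < q) = Finset.Ico p q := by
        ext x; simp [Finset.mem_Ico]
      rw [this, Fin.card_Ico]
    rw [hset, Nat.cast_sub (le_of_lt hpq)]
  have hsw : ∑ x : Fin n, ∑ p, ∑ q, (if p ≤ x ∧ x < q then W p q else 0) =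
      ∑ p, ∑ q, ∑ x : Fin n, (if p ≤ x ∧ x < q then W p q else 0) := by
    rw [Finset.sum_comm]
    refine sum_congr rfl (fun p _ => ?_)
    rw [Finset.sum_comm]
  -- pointwise bound
  have hpt : ∀ p q : Fin n, g * W p q - g * M *
      (if p < q ∧ (q.val : ℝ) - p.val < g then 1 else 0) ≤
      ∑ x : Fin n, (if p ≤ x ∧ x < q then W p q else 0) := by
    intro p q
    by_cases hpq : p < q
    · have h1 : ∑ x : Fin n, (if p ≤ x ∧ x < q then W p q else 0) =
          W p q * ((q.val : ℝ) - p.val) := by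
        rw [← hcount p q hpq, Finset.mul_sum]
        refine sum_congr rfl (fun x _ => ?_)
        split_ifs <;> simp
      rw [h1]
      by_cases hgap : (q.val : ℝ) - p.val < g
      · rw [if_pos ⟨hpq, hgap⟩]
        have h2 : 0 ≤ W p q * ((q.val : ℝ) - p.val) := by
          apply mul_nonneg (h0 p q)
          have : (p.val : ℝ) < q.val := by exact_mod_cast hpq
          linarith
        have h3 : g * W p q ≤ g * M := mul_le_mul_of_nonneg_left (hle p q) hg0.le
        linarith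
      · rw [if_neg (fun h => hgap h.2)]
        have h2 : W p q * g ≤ W p q * ((q.val : ℝ) - p.val) :=
          mul_le_mul_of_nonneg_left (not_lt.mp hgap) (h0 p q)
        linarith
    · rw [hsupp p q hpq]
      simp [hpq]
  -- counting close pairs
  have hclose : ∀ p : Fin n, ∑ q : Fin n,
      (if p < q ∧ (q.val : ℝ) - p.val < g then (1 : ℝ) else 0) ≤ g := by
    intro p
    rw [Finset.sum_boole]
    set G : ℕ := ⌈g⌉₊ with hG
    have hmap : (univ.filter fun q : Fin n => p < q ∧ (q.val : ℝ) - p.val < g).card ≤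
        (Finset.Ioo p.val (p.val + G)).card := by
      apply Finset.card_le_card_of_injOn (fun q => q.val)
      · intro q hq
        have hq' := (Finset.mem_filter.mp hq).2
        have h1 : p.val < q.val := hq'.1
        have h2 : (q.val : ℝ) < p.val + G := by
          have := Nat.le_ceil g
          have h3 := hq'.2
          linarith
        simp only [Finset.coe_Ioo, Set.mem_Ioo]
        exact ⟨h1, by exact_mod_cast h2⟩
      · intro a _ b _ hab
        exact Fin.ext hab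
    have hcard : (Finset.Ioo p.val (p.val + G)).card = G - 1 := by
      rw [Nat.card_Ioo]; omega
    rw [hcard] at hmap
    have h1 : ((G - 1 : ℕ) : ℝ) ≤ g := by
      have h2 : (G : ℝ) < g + 1 := Nat.ceil_lt_add_one hg0.le
      have hGpos : 1 ≤ G := Nat.one_le_ceil_iff.mpr hg0
      rw [Nat.cast_sub hGpos]
      push_cast
      linarith
    calc _ ≤ ((G - 1 : ℕ) : ℝ) := by exact_mod_cast hmap
      _ ≤ g := h1
  have htotal : (δ ^ 2 / 4 * (n : ℝ) ^ 2 * M) * n ≤
      ∑ x : Fin n, ∑ p, ∑ q, (if p ≤ x ∧ x < q then W p q else 0) := by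
    rw [hsw]
    have h1 : ∑ p, ∑ q, (g * W p q - g * M *
        (if p < q ∧ (q.val : ℝ) - p.val < g then 1 else 0)) ≤
        ∑ p, ∑ q, ∑ x : Fin n, (if p ≤ x ∧ x < q then W p q else 0) :=
      sum_le_sum (fun p _ => sum_le_sum (fun q _ => hpt p q))
    refine le_trans ?_ h1
    have h2 : ∑ p : Fin n, ∑ q : Fin n, (g * W p q - g * M *
        (if p < q ∧ (q.val : ℝ) - p.val < g then 1 else 0)) =
        g * ∑ p, ∑ q, W p q - g * M * ∑ p : Fin n, ∑ q : Fin n,
          (if p < q ∧ (q.val : ℝ) - p.val < g then (1 : ℝ) else 0) := by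
      simp only [Finset.sum_sub_distrib, Finset.mul_sum]
    rw [h2]
    have h3 : ∑ p : Fin n, ∑ q : Fin n,
        (if p < q ∧ (q.val : ℝ) - p.val < g then (1 : ℝ) else 0) ≤ n * g := by
      calc _ ≤ ∑ p : Fin n, g := sum_le_sum (fun p _ => hclose p)
        _ = n * g := by simp
    have h4 : g * (δ * (n : ℝ) ^ 2 * M) ≤ g * ∑ p, ∑ q, W p q :=
      mul_le_mul_of_nonneg_left hsum hg0.le
    have h5 : g * M * ∑ p : Fin n, ∑ q : Fin n,
        (if p < q ∧ (q.val : ℝ) - p.val < g then (1 : ℝ) else 0) ≤ g * M * (n * g) :=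
      mul_le_mul_of_nonneg_left h3 (by positivity)
    have h6 : (δ ^ 2 / 4 * (n : ℝ) ^ 2 * M) * n = g * (δ * (n : ℝ) ^ 2 * M) - g * M * (n * g) := by
      rw [hg]; ring
    rw [h6]
    linarith
  by_contra hno
  push Not at hno
  have hlt : ∑ x : Fin n, ∑ p, ∑ q, (if p ≤ x ∧ x < q then W p q else 0) <
      ∑ _x : Fin n, δ ^ 2 / 4 * (n : ℝ) ^ 2 * M := by
    apply Finset.sum_lt_sum_of_nonempty
    · exact ⟨⟨0, hn⟩, mem_univ _⟩
    · intro x _
      exact hno x
  simp only [sum_const, card_univ, Fintype.card_fin, nsmul_eq_mul] at hlt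
  nlinarith

end P037Blow
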