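import Vale.Agent.Lib.P037.BlowA

/-!
Injective tuples and gluing of sorted tuples.
-/

open Finset

namespace P037Blow

/-- Few tuples are not injective. -/
lemma pow_le_desc (n m : ℕ) :
    (n : ℝ) ^ (m + 1) ≤ (n.descFactorial (m + 1) : ℝ) + ((m : ℝ) + 1) ^ 2 * (n : ℝ) ^ m := by
  induction m with
  | zero => simp [Nat.descFactorial_succ]
  | succ m ih =>
    have hd : (n.descFactorial (m + 1) : ℝ) ≤ (n : ℝ) ^ (m + 1) := by
      exact_mod_cast Nat.descFactorial_le_pow n (m + 1)
    have hnp : (0 : ℝ) ≤ (n : ℝ) ^ (m + 1) := by positivity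
    have hn0 : (0 : ℝ) ≤ (n : ℝ) := by positivity
    have hm0 : (0 : ℝ) ≤ (m : ℝ) := by positivity
    rw [Nat.descFactorial_succ n (m + 1)]
    by_cases hmn : m + 1 ≤ n
    · have hc : ((n - (m + 1) : ℕ) : ℝ) = (n : ℝ) - ((m : ℝ) + 1) := by
        rw [Nat.cast_sub hmn]; push_cast; ring
      rw [Nat.cast_mul, hc]
      have h1 : (n : ℝ) ^ (m + 1 + 1) = n * (n : ℝ) ^ (m + 1) := by ring
      have h2 : (n : ℝ) * (n : ℝ) ^ (m + 1) ≤
          n * ((n.descFactorial (m + 1) : ℝ) + ((m : ℝ) + 1) ^ 2 * (n : ℝ) ^ m) :=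
        mul_le_mul_of_nonneg_left ih hn0
      have h3 : (n : ℝ) * (((m : ℝ) + 1) ^ 2 * (n : ℝ) ^ m) = ((m : ℝ) + 1) ^ 2 * (n : ℝ) ^ (m + 1) := by
        ring
      have h4 : ((m : ℝ) + 1) * (n.descFactorial (m + 1) : ℝ) ≤ ((m : ℝ) + 1) * (n : ℝ) ^ (m + 1) :=
        mul_le_mul_of_nonneg_left hd (by positivity)
      push_cast
      nlinarith [mul_nonneg hm0 hnp, mul_nonneg (sq_nonneg (m : ℝ)) hnp]
    · have hlt : (n : ℝ) ≤ (m : ℝ) + 1 := by
        have : n ≤ m + 1 := by omega
        exact_mod_cast this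
      have h1 : (n : ℝ) ^ (m + 1 + 1) = n * (n : ℝ) ^ (m + 1) := by ring
      have h2 : (n : ℝ) * (n : ℝ) ^ (m + 1) ≤ ((m : ℝ) + 1) * (n : ℝ) ^ (m + 1) :=
        mul_le_mul_of_nonneg_right hlt hnp
      have h5 : (0 : ℝ) ≤ (((n - (m + 1)) * n.descFactorial (m + 1) : ℕ) : ℝ) := by positivity
      push_cast at h5 ⊢
      nlinarith [mul_nonneg hm0 hnp, mul_nonneg (sq_nonneg (m : ℝ)) hnp]

/-- The number of non injective tuples. -/
lemma card_nonInj (n m : ℕ) :
    (((univ : Finset (Fin (m + 1) → Fin n)).filter (fun f => ¬ Function.Injective f)).card : ℝ) ≤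
      ((m : ℝ) + 1) ^ 2 * (n : ℝ) ^ m := by
  classical
  have h1 : ((univ : Finset (Fin (m + 1) → Fin n)).filter (fun f => Function.Injective f)).card =
      n.descFactorial (m + 1) := by
    have h2 := Fintype.card_subtype (fun f : Fin (m + 1) → Fin n => Function.Injective f)
    rw [← h2, Fintype.card_congr (Equiv.subtypeInjectiveEquivEmbedding (Fin (m + 1)) (Fin n)),
      Fintype.card_embedding_eq]
    simp
  have h3 := Finset.card_filter_add_card_filter_not (s := (univ : Finset (Fin (m + 1) → Fin n)))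
    (fun f => Function.Injective f)
  rw [h1] at h3
  have h4 : (univ : Finset (Fin (m + 1) → Fin n)).card = n ^ (m + 1) := by simp
  rw [h4] at h3
  have h5 : ((n.descFactorial (m + 1) : ℝ)) +
      (((univ : Finset (Fin (m + 1) → Fin n)).filter (fun f => ¬ Function.Injective f)).card : ℝ) =
      (n : ℝ) ^ (m + 1) := by exact_mod_cast h3
  have := pow_le_desc n m
  linarith

/-- Gluing two tuples along a split of the index set. -/
def glue {k a a' n : ℕ} (h : a + a' = k) (P : Fin a → Fin n) (Q : Fin a' → Fin n) (i : Fin k) :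
    Fin n :=
  if hi : i.val < a then P ⟨i.val, hi⟩ else Q ⟨i.val - a, by have := i.isLt; omega⟩

lemma glue_left {k a a' n : ℕ} (h : a + a' = k) (P : Fin a → Fin n) (Q : Fin a' → Fin n)
    (s : Fin a) : glue h P Q ⟨s.val, by have := s.isLt; omega⟩ = P s := by
  simp [glue]

lemma glue_right {k a a' n : ℕ} (h : a + a' = k) (P : Fin a → Fin n) (Q : Fin a' → Fin n)
    (s : Fin a') : glue h P Q ⟨a + s.val, by have := s.isLt; omega⟩ = Q s := by
  simp [glue]

lemma glue_strictMono {k a a' n : ℕ} (h : a + a' = k) {P : Fin a → Fin n} {Q : Fin a' → Fin n}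
    (hP : StrictMono P) (hQ : StrictMono Q) {x : Fin n} (hx : ∀ s, P s ≤ x) (hx' : ∀ s, x < Q s) :
    StrictMono (glue h P Q) := by
  intro i j hij
  have hij' : i.val < j.val := hij
  unfold glue
  by_cases hi : i.val < a
  · by_cases hj : j.val < a
    · rw [dif_pos hi, dif_pos hj]
      exact hP hij
    · rw [dif_pos hi, dif_neg hj]
      exact lt_of_le_of_lt (hx _) (hx' _)
  · have hj : ¬ j.val < a := by omega
    rw [dif_neg hi, dif_neg hj]
    apply hQ
    show i.val - a < j.val - a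
    omega

end P037Blow
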