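import Vale.Agent.Lib.P037.BlowB

/-!
From many separated copies of a 2 x 2 pattern to many copies of its blow-ups.
-/

open Finset

namespace P037Blow

theorem blow_sum {n : ℕ} (hn : 0 < n) (F₀ : Fin n → Fin n → Fin n → Fin n → ℝ)
    (h0 : ∀ a b c d, 0 ≤ F₀ a b c d) {θ : ℝ} (hθ : 0 < θ)
    (hS : θ * (n : ℝ) ^ 4 ≤ ∑ a, ∑ b, ∑ c, ∑ d, F₀ a b c d) (m₁ m₂ m₃ m₄ : ℕ) :
    θ ^ ((m₁ + 1) * (m₂ + 1) * (m₃ + 1) * (m₄ + 1)) *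
        (n : ℝ) ^ (m₁ + 1 + (m₂ + 1) + (m₃ + 1) + (m₄ + 1)) ≤
      ∑ C' : Fin (m₄ + 1) → Fin n, ∑ R : Fin (m₁ + 1) → Fin n, ∑ R' : Fin (m₂ + 1) → Fin n,
        ∑ C : Fin (m₃ + 1) → Fin n,
          ∏ u', ∏ u, ∏ s', ∏ s, F₀ (R s) (R' s') (C u) (C' u') := by
  have hN : (0 : ℝ) < n := by exact_mod_cast hn
  -- stage one
  have h1 := stage m₁ F₀ h0
  have c1 : ((Fintype.card (Fin n) * Fintype.card (Fin n) * Fintype.card (Fin n) : ℕ) : ℝ) =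
      (n : ℝ) ^ 3 := by simp; ring
  rw [c1] at h1
  have n1 : θ ^ (m₁ + 1) * (n : ℝ) ^ (m₁ + 1 + 3) ≤ _ := num_step (e := 3) hθ hN
    (by simpa using hS) h1
  -- stage two
  let F1 : Fin n → Fin n → Fin n → (Fin (m₁ + 1) → Fin n) → ℝ :=
    fun x₂ x₃ x₄ R => ∏ s, F₀ (R s) x₂ x₃ x₄
  have hF1 : ∀ a b c d, 0 ≤ F1 a b c d := fun a b c d => prod_nonneg (fun _ _ => h0 _ _ _ _)
  have e1 : ∑ R : Fin (m₁ + 1) → Fin n, ∑ x₂, ∑ x₃, ∑ x₄, ∏ s, F₀ (R s) x₂ x₃ x₄ =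
      ∑ x₂, ∑ x₃, ∑ x₄, ∑ R, F1 x₂ x₃ x₄ R := rot _
  rw [e1] at n1
  have h2 := stage m₂ F1 hF1
  have c2 : ((Fintype.card (Fin n) * Fintype.card (Fin n) *
      Fintype.card (Fin (m₁ + 1) → Fin n) : ℕ) : ℝ) = (n : ℝ) ^ (2 + (m₁ + 1)) := by
    simp; ring
  rw [c2] at h2
  have n2 := num_step (e := 2 + (m₁ + 1)) (pow_pos hθ _) hN
    (by rw [show 1 + (2 + (m₁ + 1)) = m₁ + 1 + 3 by omega]; exact n1) h2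
  -- stage three
  let F2 : Fin n → Fin n → (Fin (m₁ + 1) → Fin n) → (Fin (m₂ + 1) → Fin n) → ℝ :=
    fun x₃ x₄ R R' => ∏ s', F1 (R' s') x₃ x₄ R
  have hF2 : ∀ a b c d, 0 ≤ F2 a b c d := fun a b c d => prod_nonneg (fun _ _ => hF1 _ _ _ _)
  have e2 : ∑ R' : Fin (m₂ + 1) → Fin n, ∑ x₃, ∑ x₄, ∑ R, ∏ s', F1 (R' s') x₃ x₄ R =
      ∑ x₃, ∑ x₄, ∑ R, ∑ R', F2 x₃ x₄ R R' := rot _
  rw [e2] at n2
  have h3 := stage m₃ F2 hF2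
  have c3 : ((Fintype.card (Fin n) * Fintype.card (Fin (m₁ + 1) → Fin n) *
      Fintype.card (Fin (m₂ + 1) → Fin n) : ℕ) : ℝ) = (n : ℝ) ^ (1 + (m₁ + 1) + (m₂ + 1)) := by
    simp; ring
  rw [c3] at h3
  have n3 := num_step (e := 1 + (m₁ + 1) + (m₂ + 1)) (pow_pos (pow_pos hθ _) _) hN
    (by
      rw [show 1 + (1 + (m₁ + 1) + (m₂ + 1)) = m₂ + 1 + (2 + (m₁ + 1)) by omega]
      exact n2) h3
  -- stage four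
  let F3 : Fin n → (Fin (m₁ + 1) → Fin n) → (Fin (m₂ + 1) → Fin n) → (Fin (m₃ + 1) → Fin n) → ℝ :=
    fun x₄ R R' C => ∏ u, F2 (C u) x₄ R R'
  have hF3 : ∀ a b c d, 0 ≤ F3 a b c d := fun a b c d => prod_nonneg (fun _ _ => hF2 _ _ _ _)
  have e3 : ∑ C : Fin (m₃ + 1) → Fin n, ∑ x₄, ∑ R, ∑ R', ∏ u, F2 (C u) x₄ R R' =
      ∑ x₄, ∑ R, ∑ R', ∑ C, F3 x₄ R R' C := rot _
  rw [e3] at n3
  have h4 := stage m₄ F3 hF3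
  have c4 : ((Fintype.card (Fin (m₁ + 1) → Fin n) * Fintype.card (Fin (m₂ + 1) → Fin n) *
      Fintype.card (Fin (m₃ + 1) → Fin n) : ℕ) : ℝ) =
      (n : ℝ) ^ ((m₁ + 1) + (m₂ + 1) + (m₃ + 1)) := by
    simp; ring
  rw [c4] at h4
  have n4 := num_step (e := (m₁ + 1) + (m₂ + 1) + (m₃ + 1)) (pow_pos (pow_pos (pow_pos hθ _) _) _) hN
    (by
      rw [show 1 + ((m₁ + 1) + (m₂ + 1) + (m₃ + 1)) = m₃ + 1 + (1 + (m₁ + 1) + (m₂ + 1)) by omega]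
      exact n3) h4
  have e5 : θ ^ ((m₁ + 1) * (m₂ + 1) * (m₃ + 1) * (m₄ + 1)) *
        (n : ℝ) ^ (m₁ + 1 + (m₂ + 1) + (m₃ + 1) + (m₄ + 1)) =
      (((θ ^ (m₁ + 1)) ^ (m₂ + 1)) ^ (m₃ + 1)) ^ (m₄ + 1) *
        (n : ℝ) ^ (m₄ + 1 + ((m₁ + 1) + (m₂ + 1) + (m₃ + 1))) := by
    rw [show m₁ + 1 + (m₂ + 1) + (m₃ + 1) + (m₄ + 1) = m₄ + 1 + ((m₁ + 1) + (m₂ + 1) + (m₃ + 1)) by
      omega, ← pow_mul, ← pow_mul, ← pow_mul]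
    congr 2
    ring
  rw [e5]
  exact n4

/-- The condition that a quadruple of indices is a copy separated by `x` and `y`. -/
def Good {n : ℕ} (A : Fin n → Fin n → Bool) (h : Fin 2 → Fin 2 → Bool) (x y r₁ r₂ c₁ c₂ : Fin n) :
    Prop :=
  r₁ ≤ x ∧ x < r₂ ∧ c₁ ≤ y ∧ y < c₂ ∧ A r₁ c₁ = h 0 0 ∧ A r₁ c₂ = h 0 1 ∧ A r₂ c₁ = h 1 0 ∧
    A r₂ c₂ = h 1 1

/-- Tuples of rows and columns. -/
abbrev Tup (n m₁ m₂ m₃ m₄ : ℕ) : Type :=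
  (Fin (m₄ + 1) → Fin n) × (Fin (m₁ + 1) → Fin n) × (Fin (m₂ + 1) → Fin n) × (Fin (m₃ + 1) → Fin n)

/-- All quadruples from the tuples are good. -/
def AG {n m₁ m₂ m₃ m₄ : ℕ} (A : Fin n → Fin n → Bool) (h : Fin 2 → Fin 2 → Bool) (x y : Fin n)
    (t : Tup n m₁ m₂ m₃ m₄) : Prop :=
  ∀ s s' u u', Good A h x y (t.2.1 s) (t.2.2.1 s') (t.2.2.2 u) (t.1 u')

/-- All four tuples are injective. -/
def Inj {n m₁ m₂ m₃ m₄ : ℕ} (t : Tup n m₁ m₂ m₃ m₄) : Prop :=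
  Function.Injective t.1 ∧ Function.Injective t.2.1 ∧ Function.Injective t.2.2.1 ∧
    Function.Injective t.2.2.2

open scoped Classical in
lemma sum_le_card_AG {n m₁ m₂ m₃ m₄ : ℕ} (A : Fin n → Fin n → Bool) (h : Fin 2 → Fin 2 → Bool)
    (x y : Fin n) :
    ∑ C' : Fin (m₄ + 1) → Fin n, ∑ R : Fin (m₁ + 1) → Fin n, ∑ R' : Fin (m₂ + 1) → Fin n,
        ∑ C : Fin (m₃ + 1) → Fin n, ∏ u', ∏ u, ∏ s', ∏ s,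
          (if Good A h x y (R s) (R' s') (C u) (C' u') then (1 : ℝ) else 0) ≤
      (((univ : Finset (Tup n m₁ m₂ m₃ m₄)).filter (AG A h x y)).card : ℝ) := by
  have e : (((univ : Finset (Tup n m₁ m₂ m₃ m₄)).filter (AG A h x y)).card : ℝ) =
      ∑ t : Tup n m₁ m₂ m₃ m₄, if AG A h x y t then (1 : ℝ) else 0 := by
    rw [Finset.sum_boole]
  rw [e]
  simp only [Fintype.sum_prod_type]
  refine sum_le_sum (fun C' _ => sum_le_sum (fun R _ => sum_le_sum (fun R' _ =>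
    sum_le_sum (fun C _ => ?_))))
  by_cases hG : AG A h x y (C', R, R', C)
  · rw [if_pos hG]
    apply le_of_eq
    refine prod_eq_one (fun u' _ => prod_eq_one (fun u _ => prod_eq_one (fun s' _ =>
      prod_eq_one (fun s _ => ?_))))
    exact if_pos (hG s s' u u')
  · rw [if_neg hG]
    unfold AG at hG
    push Not at hG
    obtain ⟨s, s', u, u', hbad⟩ := hG
    apply le_of_eq
    refine prod_eq_zero (mem_univ u') (prod_eq_zero (mem_univ u) (prod_eq_zero (mem_univ s')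
      (prod_eq_zero (mem_univ s) ?_)))
    exact if_neg hbad

open scoped Classical in
lemma card_not_inj (n m₁ m₂ m₃ m₄ : ℕ) :
    (((univ : Finset (Tup n m₁ m₂ m₃ m₄)).filter (fun t => ¬ Inj t)).card : ℝ) ≤
      (((m₄ : ℝ) + 1) ^ 2 + ((m₁ : ℝ) + 1) ^ 2 + ((m₂ : ℝ) + 1) ^ 2 + ((m₃ : ℝ) + 1) ^ 2) *
        (n : ℝ) ^ (m₁ + m₂ + m₃ + m₄ + 3) := by
  let NI : ∀ m : ℕ, Finset (Fin (m + 1) → Fin n) := fun m => univ.filter (fun f => ¬ Function.Injective f)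
  have hNI : ∀ m, ((NI m).card : ℝ) ≤ ((m : ℝ) + 1) ^ 2 * (n : ℝ) ^ m := fun m => card_nonInj n m
  let U : ∀ m : ℕ, Finset (Fin (m + 1) → Fin n) := fun m => univ
  have hU : ∀ m, (U m).card = n ^ (m + 1) := fun m => by simp [U]
  let A1 : Finset (Tup n m₁ m₂ m₃ m₄) := NI m₄ ×ˢ (U m₁ ×ˢ (U m₂ ×ˢ U m₃))
  let A2 : Finset (Tup n m₁ m₂ m₃ m₄) := U m₄ ×ˢ (NI m₁ ×ˢ (U m₂ ×ˢ U m₃))
  let A3 : Finset (Tup n m₁ m₂ m₃ m₄) := U m₄ ×ˢ (U m₁ ×ˢ (NI m₂ ×ˢ U m₃))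
  let A4 : Finset (Tup n m₁ m₂ m₃ m₄) := U m₄ ×ˢ (U m₁ ×ˢ (U m₂ ×ˢ NI m₃))
  have hsub : (univ : Finset (Tup n m₁ m₂ m₃ m₄)).filter (fun t => ¬ Inj t) ⊆
      A1 ∪ (A2 ∪ (A3 ∪ A4)) := by
    intro t ht
    have hnot := (mem_filter.mp ht).2
    unfold Inj at hnot
    simp only [A1, A2, A3, A4, U, NI, mem_union, mem_product, mem_univ, true_and, and_true,
      mem_filter]
    tauto
  have h1 := (card_le_card hsub)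
  have h2 : (((univ : Finset (Tup n m₁ m₂ m₃ m₄)).filter (fun t => ¬ Inj t)).card : ℝ) ≤
      ((NI m₄).card : ℝ) * ((n : ℝ) ^ (m₁ + 1) * ((n : ℝ) ^ (m₂ + 1) * (n : ℝ) ^ (m₃ + 1))) +
      ((n : ℝ) ^ (m₄ + 1) * (((NI m₁).card : ℝ) * ((n : ℝ) ^ (m₂ + 1) * (n : ℝ) ^ (m₃ + 1))) +
      ((n : ℝ) ^ (m₄ + 1) * ((n : ℝ) ^ (m₁ + 1) * (((NI m₂).card : ℝ) * (n : ℝ) ^ (m₃ + 1))) +
      (n : ℝ) ^ (m₄ + 1) * ((n : ℝ) ^ (m₁ + 1) * ((n : ℝ) ^ (m₂ + 1) * ((NI m₃).card : ℝ))))) := by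
    have h3 := h1.trans (card_union_le _ _)
    have h4 := Nat.add_le_add_left (card_union_le A2 (A3 ∪ A4)) A1.card
    have h5 := Nat.add_le_add_left (Nat.add_le_add_left (card_union_le A3 A4) A2.card) A1.card
    have h6 := h3.trans (h4.trans h5)
    have h7 : (((univ : Finset (Tup n m₁ m₂ m₃ m₄)).filter (fun t => ¬ Inj t)).card : ℝ) ≤
        ((A1.card + (A2.card + (A3.card + A4.card)) : ℕ) : ℝ) := by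
      exact_mod_cast h6
    refine h7.trans (le_of_eq ?_)
    simp only [A1, A2, A3, A4, card_product, hU]
    push_cast
    ring
  have hp : (0 : ℝ) ≤ n := by positivity
  have e1 := mul_le_mul_of_nonneg_right (hNI m₄) (by positivity :
    (0 : ℝ) ≤ (n : ℝ) ^ (m₁ + 1) * ((n : ℝ) ^ (m₂ + 1) * (n : ℝ) ^ (m₃ + 1)))
  have e2 := mul_le_mul_of_nonneg_right (hNI m₁) (by positivity :
    (0 : ℝ) ≤ (n : ℝ) ^ (m₄ + 1) * ((n : ℝ) ^ (m₂ + 1) * (n : ℝ) ^ (m₃ + 1)))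
  have e3 := mul_le_mul_of_nonneg_right (hNI m₂) (by positivity :
    (0 : ℝ) ≤ (n : ℝ) ^ (m₄ + 1) * ((n : ℝ) ^ (m₁ + 1) * (n : ℝ) ^ (m₃ + 1)))
  have e4 := mul_le_mul_of_nonneg_right (hNI m₃) (by positivity :
    (0 : ℝ) ≤ (n : ℝ) ^ (m₄ + 1) * ((n : ℝ) ^ (m₁ + 1) * (n : ℝ) ^ (m₂ + 1)))
  refine h2.trans ?_
  have f1 : ((m₄ : ℝ) + 1) ^ 2 * (n : ℝ) ^ m₄ *
      ((n : ℝ) ^ (m₁ + 1) * ((n : ℝ) ^ (m₂ + 1) * (n : ℝ) ^ (m₃ + 1))) =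
      ((m₄ : ℝ) + 1) ^ 2 * (n : ℝ) ^ (m₁ + m₂ + m₃ + m₄ + 3) := by ring
  have f2 : ((m₁ : ℝ) + 1) ^ 2 * (n : ℝ) ^ m₁ *
      ((n : ℝ) ^ (m₄ + 1) * ((n : ℝ) ^ (m₂ + 1) * (n : ℝ) ^ (m₃ + 1))) =
      ((m₁ : ℝ) + 1) ^ 2 * (n : ℝ) ^ (m₁ + m₂ + m₃ + m₄ + 3) := by ring
  have f3 : ((m₂ : ℝ) + 1) ^ 2 * (n : ℝ) ^ m₂ *
      ((n : ℝ) ^ (m₄ + 1) * ((n : ℝ) ^ (m₁ + 1) * (n : ℝ) ^ (m₃ + 1))) =
      ((m₂ : ℝ) + 1) ^ 2 * (n : ℝ) ^ (m₁ + m₂ + m₃ + m₄ + 3) := by ring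
  have f4 : ((m₃ : ℝ) + 1) ^ 2 * (n : ℝ) ^ m₃ *
      ((n : ℝ) ^ (m₄ + 1) * ((n : ℝ) ^ (m₁ + 1) * (n : ℝ) ^ (m₂ + 1))) =
      ((m₃ : ℝ) + 1) ^ 2 * (n : ℝ) ^ (m₁ + m₂ + m₃ + m₄ + 3) := by ring
  rw [f1] at e1
  rw [f2] at e2
  rw [f3] at e3
  rw [f4] at e4
  have g2 : (n : ℝ) ^ (m₄ + 1) * (((NI m₁).card : ℝ) * ((n : ℝ) ^ (m₂ + 1) * (n : ℝ) ^ (m₃ + 1))) =
      ((NI m₁).card : ℝ) * ((n : ℝ) ^ (m₄ + 1) * ((n : ℝ) ^ (m₂ + 1) * (n : ℝ) ^ (m₃ + 1))) := by ring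
  have g3 : (n : ℝ) ^ (m₄ + 1) * ((n : ℝ) ^ (m₁ + 1) * (((NI m₂).card : ℝ) * (n : ℝ) ^ (m₃ + 1))) =
      ((NI m₂).card : ℝ) * ((n : ℝ) ^ (m₄ + 1) * ((n : ℝ) ^ (m₁ + 1) * (n : ℝ) ^ (m₃ + 1))) := by ring
  have g4 : (n : ℝ) ^ (m₄ + 1) * ((n : ℝ) ^ (m₁ + 1) * ((n : ℝ) ^ (m₂ + 1) * ((NI m₃).card : ℝ))) =
      ((NI m₃).card : ℝ) * ((n : ℝ) ^ (m₄ + 1) * ((n : ℝ) ^ (m₁ + 1) * (n : ℝ) ^ (m₂ + 1))) := by ring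
  rw [g2, g3, g4]
  nlinarith [e1, e2, e3, e4]

end P037Blow
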