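import Vale.Agent.Lib.P037.BlowC

/-!
Polynomial removal for blow-ups of 2 x 2 patterns, from the 2 x 2 bound.
-/

open Finset

namespace P037Blow

open scoped Classical in
/-- The number of ordered copies of a pattern. -/
noncomputable def copies {k n : ℕ} (H : Fin k → Fin k → Bool) (A : Fin n → Fin n → Bool) : ℕ :=
  ((univ : Finset ((Fin k → Fin n) × (Fin k → Fin n))).filter (fun p =>
    StrictMono p.1 ∧ StrictMono p.2 ∧ ∀ i j, A (p.1 i) (p.2 j) = H i j)).card

open scoped Classical in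
/-- The number of positions where two matrices differ. -/
noncomputable def entryDiff {n : ℕ} (A B : Fin n → Fin n → Bool) : ℕ :=
  ((univ : Finset (Fin n × Fin n)).filter (fun e => A e.1 e.2 ≠ B e.1 e.2)).card

/-- The block pattern: rows before `a` and columns before `b` select the entry of `h`. -/
def blow (k a b : ℕ) (h : Fin 2 → Fin 2 → Bool) (i j : Fin k) : Bool :=
  h (if i.val < a then 0 else 1) (if j.val < b then 0 else 1)

lemma sorted_strictMono {m n : ℕ} {f : Fin m → Fin n} (hf : Function.Injective f) :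
    StrictMono (f ∘ Tuple.sort f) :=
  (Tuple.monotone_sort f).strictMono_of_injective (hf.comp (Tuple.sort f).injective)

lemma recover {m n : ℕ} {f g : Fin m → Fin n} (hσ : Tuple.sort f = Tuple.sort g)
    (h : ∀ s, f (Tuple.sort f s) = g (Tuple.sort g s)) : f = g := by
  funext v
  have := h ((Tuple.sort f).symm v)
  rw [Equiv.apply_symm_apply, ← hσ, Equiv.apply_symm_apply] at this
  exact this

open scoped Classical in
theorem card_inj_le {n k m₁ m₂ m₃ m₄ : ℕ} (h₁ : m₁ + 1 + (m₂ + 1) = k) (h₂ : m₃ + 1 + (m₄ + 1) = k)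
    (A : Fin n → Fin n → Bool) (h : Fin 2 → Fin 2 → Bool) (x y : Fin n) :
    ((univ : Finset (Tup n m₁ m₂ m₃ m₄)).filter (fun t => AG A h x y t ∧ Inj t)).card ≤
      copies (blow k (m₁ + 1) (m₃ + 1) h) A *
        ((m₄ + 1).factorial * ((m₁ + 1).factorial * ((m₂ + 1).factorial * (m₃ + 1).factorial))) := by
  let Φ : Tup n m₁ m₂ m₃ m₄ → ((Fin k → Fin n) × (Fin k → Fin n)) ×
      (Equiv.Perm (Fin (m₄ + 1)) × Equiv.Perm (Fin (m₁ + 1)) × Equiv.Perm (Fin (m₂ + 1)) ×
        Equiv.Perm (Fin (m₃ + 1))) := fun t =>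
    ((glue h₁ (t.2.1 ∘ Tuple.sort t.2.1) (t.2.2.1 ∘ Tuple.sort t.2.2.1),
      glue h₂ (t.2.2.2 ∘ Tuple.sort t.2.2.2) (t.1 ∘ Tuple.sort t.1)),
      (Tuple.sort t.1, Tuple.sort t.2.1, Tuple.sort t.2.2.1, Tuple.sort t.2.2.2))
  let S := ((univ : Finset ((Fin k → Fin n) × (Fin k → Fin n))).filter (fun p =>
    StrictMono p.1 ∧ StrictMono p.2 ∧
      ∀ i j, A (p.1 i) (p.2 j) = blow k (m₁ + 1) (m₃ + 1) h i j)) ×ˢ
    (univ : Finset (Equiv.Perm (Fin (m₄ + 1)) × Equiv.Perm (Fin (m₁ + 1)) ×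
      Equiv.Perm (Fin (m₂ + 1)) × Equiv.Perm (Fin (m₃ + 1))))
  have hS : S.card = copies (blow k (m₁ + 1) (m₃ + 1) h) A *
      ((m₄ + 1).factorial * ((m₁ + 1).factorial * ((m₂ + 1).factorial * (m₃ + 1).factorial))) := by
    simp only [S, card_product, card_univ, Fintype.card_prod, Fintype.card_perm, Fintype.card_fin,
      copies]
  rw [← hS]
  apply Finset.card_le_card_of_injOn Φ
  · rintro ⟨C', R, R', C⟩ ht
    obtain ⟨hAG, hInj⟩ := (mem_filter.mp (mem_coe.mp ht)).2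
    obtain ⟨iC', iR, iR', iC⟩ := hInj
    simp only [Inj] at iC' iR iR' iC
    have hAG' : ∀ s s' u u', Good A h x y (R s) (R' s') (C u) (C' u') := hAG
    simp only [coe_product, Set.mem_prod, mem_coe, mem_filter, mem_univ, true_and, S, Φ]
    refine ⟨⟨?_, ?_, ?_⟩, trivial⟩
    · exact glue_strictMono h₁ (sorted_strictMono iR) (sorted_strictMono iR')
        (x := x) (fun s => (hAG' _ 0 0 0).1) (fun s => (hAG' 0 _ 0 0).2.1)
    · exact glue_strictMono h₂ (sorted_strictMono iC) (sorted_strictMono iC')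
        (x := y) (fun s => (hAG' 0 0 _ 0).2.2.1) (fun s => (hAG' 0 0 0 _).2.2.2.1)
    · intro i j
      unfold blow glue
      by_cases hi : i.val < m₁ + 1 <;> by_cases hj : j.val < m₃ + 1
      · simp only [dif_pos hi, dif_pos hj, if_pos hi, if_pos hj, Function.comp]
        exact (hAG' _ 0 _ 0).2.2.2.2.1
      · simp only [dif_pos hi, dif_neg hj, if_pos hi, if_neg hj, Function.comp]
        exact (hAG' _ 0 0 _).2.2.2.2.2.1
      · simp only [dif_neg hi, dif_pos hj, if_neg hi, if_pos hj, Function.comp]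
        exact (hAG' 0 _ _ 0).2.2.2.2.2.2.1
      · simp only [dif_neg hi, dif_neg hj, if_neg hi, if_neg hj, Function.comp]
        exact (hAG' 0 _ 0 _).2.2.2.2.2.2.2
  · rintro ⟨C₁', R₁, R₁', C₁⟩ _ ⟨C₂', R₂, R₂', C₂⟩ _ he
    simp only [Φ, Prod.mk.injEq] at he
    obtain ⟨⟨hg1, hg2⟩, hs1, hs2, hs3, hs4⟩ := he
    have e1 : R₁ = R₂ := recover hs2 (fun s => by
      have := congrFun hg1 ⟨s.val, by have := s.isLt; omega⟩
      rw [glue_left, glue_left] at this
      exact this)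
    have e2 : R₁' = R₂' := recover hs3 (fun s => by
      have := congrFun hg1 ⟨m₁ + 1 + s.val, by have := s.isLt; omega⟩
      rw [glue_right, glue_right] at this
      exact this)
    have e3 : C₁ = C₂ := recover hs4 (fun s => by
      have := congrFun hg2 ⟨s.val, by have := s.isLt; omega⟩
      rw [glue_left, glue_left] at this
      exact this)
    have e4 : C₁' = C₂' := recover hs1 (fun s => by
      have := congrFun hg2 ⟨m₃ + 1 + s.val, by have := s.isLt; omega⟩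
      rw [glue_right, glue_right] at this
      exact this)
    rw [e1, e2, e3, e4]

open scoped Classical in
/-- The copies of a blow-up in terms of separated copies of the pattern. -/
theorem count_bound {n k m₁ m₂ m₃ m₄ : ℕ} (hn : 0 < n) (h₁ : m₁ + 1 + (m₂ + 1) = k)
    (h₂ : m₃ + 1 + (m₄ + 1) = k) (A : Fin n → Fin n → Bool) (h : Fin 2 → Fin 2 → Bool) (x y : Fin n)
    {θ : ℝ} (hθ : 0 < θ)
    (hS : θ * (n : ℝ) ^ 4 ≤ ∑ a, ∑ b, ∑ c, ∑ d,
      (if Good A h x y a b c d then (1 : ℝ) else 0)) :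
    θ ^ ((m₁ + 1) * (m₂ + 1) * (m₃ + 1) * (m₄ + 1)) * (n : ℝ) ^ (2 * k) ≤
      (copies (blow k (m₁ + 1) (m₃ + 1) h) A : ℝ) *
        (((m₄ + 1).factorial * ((m₁ + 1).factorial * ((m₂ + 1).factorial * (m₃ + 1).factorial)) : ℕ) : ℝ) +
      (((m₄ : ℝ) + 1) ^ 2 + ((m₁ : ℝ) + 1) ^ 2 + ((m₂ : ℝ) + 1) ^ 2 + ((m₃ : ℝ) + 1) ^ 2) *
        (n : ℝ) ^ (m₁ + m₂ + m₃ + m₄ + 3) := by
  have h1 := blow_sum hn (fun a b c d => if Good A h x y a b c d then (1 : ℝ) else 0)
    (fun a b c d => by positivity) hθ hS m₁ m₂ m₃ m₄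
  have h2 := sum_le_card_AG (m₁ := m₁) (m₂ := m₂) (m₃ := m₃) (m₄ := m₄) A h x y
  have h3 : (((univ : Finset (Tup n m₁ m₂ m₃ m₄)).filter (AG A h x y)).card : ℝ) ≤
      (((univ : Finset (Tup n m₁ m₂ m₃ m₄)).filter (fun t => AG A h x y t ∧ Inj t)).card : ℝ) +
      (((univ : Finset (Tup n m₁ m₂ m₃ m₄)).filter (fun t => ¬ Inj t)).card : ℝ) := by
    have h4 : (univ : Finset (Tup n m₁ m₂ m₃ m₄)).filter (AG A h x y) ⊆
        ((univ : Finset (Tup n m₁ m₂ m₃ m₄)).filter (fun t => AG A h x y t ∧ Inj t)) ∪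
        ((univ : Finset (Tup n m₁ m₂ m₃ m₄)).filter (fun t => ¬ Inj t)) := by
      intro t ht
      have := (mem_filter.mp ht).2
      simp only [mem_union, mem_filter, mem_univ, true_and]
      tauto
    have h5 := (card_le_card h4).trans (card_union_le _ _)
    exact_mod_cast h5
  have h6 := card_not_inj n m₁ m₂ m₃ m₄
  have h7 : (((univ : Finset (Tup n m₁ m₂ m₃ m₄)).filter (fun t => AG A h x y t ∧ Inj t)).card : ℝ) ≤
      ((copies (blow k (m₁ + 1) (m₃ + 1) h) A *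
        ((m₄ + 1).factorial * ((m₁ + 1).factorial * ((m₂ + 1).factorial * (m₃ + 1).factorial))) : ℕ) : ℝ) := by
    exact_mod_cast card_inj_le h₁ h₂ A h x y
  rw [Nat.cast_mul] at h7
  rw [show 2 * k = m₁ + 1 + (m₂ + 1) + (m₃ + 1) + (m₄ + 1) by omega]
  linarith

end P037Blow
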