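import Vale.Agent.Lib.P037.BlowD

/-!
Pivots and the final bound for blow-ups of 2 x 2 patterns.
-/

open Finset

namespace P037Blow

open scoped Classical in
/-- The indicator of a copy of a 2 x 2 pattern. -/
noncomputable def EE {n : ℕ} (A : Fin n → Fin n → Bool) (h : Fin 2 → Fin 2 → Bool)
    (r₁ r₂ c₁ c₂ : Fin n) : ℝ :=
  if r₁ < r₂ ∧ c₁ < c₂ ∧ A r₁ c₁ = h 0 0 ∧ A r₁ c₂ = h 0 1 ∧ A r₂ c₁ = h 1 0 ∧ A r₂ c₂ = h 1 1
  then 1 else 0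

lemma EE_nonneg {n : ℕ} (A : Fin n → Fin n → Bool) (h : Fin 2 → Fin 2 → Bool)
    (r₁ r₂ c₁ c₂ : Fin n) : 0 ≤ EE A h r₁ r₂ c₁ c₂ := by
  unfold EE; split_ifs <;> norm_num

lemma EE_le_one {n : ℕ} (A : Fin n → Fin n → Bool) (h : Fin 2 → Fin 2 → Bool)
    (r₁ r₂ c₁ c₂ : Fin n) : EE A h r₁ r₂ c₁ c₂ ≤ 1 := by
  unfold EE; split_ifs <;> norm_num

open scoped Classical in
lemma copies_le_sum {n : ℕ} (A : Fin n → Fin n → Bool) (h : Fin 2 → Fin 2 → Bool) :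
    (copies h A : ℝ) ≤ ∑ r₁, ∑ r₂, ∑ c₁, ∑ c₂, EE A h r₁ r₂ c₁ c₂ := by
  have e : ∑ r₁, ∑ r₂, ∑ c₁, ∑ c₂, EE A h r₁ r₂ c₁ c₂ =
      (((univ : Finset (Fin n × Fin n × Fin n × Fin n)).filter (fun w =>
        w.1 < w.2.1 ∧ w.2.2.1 < w.2.2.2 ∧ A w.1 w.2.2.1 = h 0 0 ∧ A w.1 w.2.2.2 = h 0 1 ∧
          A w.2.1 w.2.2.1 = h 1 0 ∧ A w.2.1 w.2.2.2 = h 1 1)).card : ℝ) := by
    rw [← Finset.sum_boole]
    simp only [Fintype.sum_prod_type]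
    rfl
  rw [e]
  have hle : copies h A ≤ ((univ : Finset (Fin n × Fin n × Fin n × Fin n)).filter (fun w =>
        w.1 < w.2.1 ∧ w.2.2.1 < w.2.2.2 ∧ A w.1 w.2.2.1 = h 0 0 ∧ A w.1 w.2.2.2 = h 0 1 ∧
          A w.2.1 w.2.2.1 = h 1 0 ∧ A w.2.1 w.2.2.2 = h 1 1)).card := by
    unfold copies
    apply Finset.card_le_card_of_injOn (fun p => (p.1 0, p.1 1, p.2 0, p.2 1))
    · intro p hp
      obtain ⟨h1, h2, h3⟩ := (mem_filter.mp (mem_coe.mp hp)).2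
      have l : (0 : Fin 2) < 1 := by decide
      simp only [coe_filter, mem_univ, true_and, Set.mem_ofPred_eq]
      exact ⟨h1 l, h2 l, h3 0 0, h3 0 1, h3 1 0, h3 1 1⟩
    · intro p _ q _ hpq
      simp only [Prod.mk.injEq] at hpq
      obtain ⟨e1, e2, e3, e4⟩ := hpq
      refine Prod.ext ?_ ?_
      · funext i
        fin_cases i
        · exact e1
        · exact e2
      · funext i
        fin_cases i
        · exact e3
        · exact e4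
  exact_mod_cast hle

open scoped Classical in
theorem exists_pivots {n : ℕ} (hn : 0 < n) (A : Fin n → Fin n → Bool) (h : Fin 2 → Fin 2 → Bool)
    {δ : ℝ} (hδ : 0 < δ) (hN : δ * (n : ℝ) ^ 4 ≤ (copies h A : ℝ)) :
    ∃ x y : Fin n, (δ ^ 2 / 4) ^ 2 / 4 * (n : ℝ) ^ 4 ≤ ∑ a, ∑ b, ∑ c, ∑ d,
      (if Good A h x y a b c d then (1 : ℝ) else 0) := by
  have hn0 : (0 : ℝ) ≤ (n : ℝ) ^ 2 := by positivity
  have hcount : ∀ f : Fin n → Fin n → ℝ, (∀ p q, f p q ≤ 1) → ∑ p, ∑ q, f p q ≤ (n : ℝ) ^ 2 := by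
    intro f hf
    calc ∑ p, ∑ q, f p q ≤ ∑ _p : Fin n, ∑ _q : Fin n, (1 : ℝ) :=
          sum_le_sum (fun p _ => sum_le_sum (fun q _ => hf p q))
      _ = (n : ℝ) ^ 2 := by simp; ring
  let W₁ : Fin n → Fin n → ℝ := fun r₁ r₂ => ∑ c₁, ∑ c₂, EE A h r₁ r₂ c₁ c₂
  obtain ⟨x, hx⟩ := pivot hn W₁ hn0
    (fun p q => sum_nonneg (fun _ _ => sum_nonneg (fun _ _ => EE_nonneg _ _ _ _ _ _)))
    (fun p q => hcount _ (fun _ _ => EE_le_one _ _ _ _ _ _))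
    (fun p q hpq => sum_eq_zero (fun c₁ _ => sum_eq_zero (fun c₂ _ => by simp [EE, hpq])))
    hδ (by
      have := copies_le_sum A h
      have e : δ * (n : ℝ) ^ 2 * (n : ℝ) ^ 2 = δ * (n : ℝ) ^ 4 := by ring
      rw [e]
      exact hN.trans this)
  let W₂ : Fin n → Fin n → ℝ := fun c₁ c₂ => ∑ r₁, ∑ r₂,
    if r₁ ≤ x ∧ x < r₂ then EE A h r₁ r₂ c₁ c₂ else 0
  have hδ₁ : 0 < δ ^ 2 / 4 := by positivity
  have hite : ∀ p q : Fin n, 0 ≤ (if p ≤ x ∧ x < q then W₁ p q else 0) := by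
    intro p q
    split_ifs
    · exact sum_nonneg (fun _ _ => sum_nonneg (fun _ _ => EE_nonneg _ _ _ _ _ _))
    · exact le_rfl
  obtain ⟨y, hy⟩ := pivot hn W₂ hn0
    (fun p q => sum_nonneg (fun _ _ => sum_nonneg (fun _ _ => by
      split_ifs
      · exact EE_nonneg _ _ _ _ _ _
      · exact le_rfl)))
    (fun p q => hcount _ (fun _ _ => by
      split_ifs
      · exact EE_le_one _ _ _ _ _ _
      · norm_num))
    (fun p q hpq => sum_eq_zero (fun c₁ _ => sum_eq_zero (fun c₂ _ => by simp [EE, hpq])))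
    hδ₁ (by
      have e1 : ∑ p, ∑ q, (if p ≤ x ∧ x < q then W₁ p q else 0) =
          ∑ r₁, ∑ r₂, ∑ c₁, ∑ c₂, if r₁ ≤ x ∧ x < r₂ then EE A h r₁ r₂ c₁ c₂ else 0 := by
        refine sum_congr rfl (fun p _ => sum_congr rfl (fun q _ => ?_))
        split_ifs
        · rfl
        · simp
      have e2 : ∑ c₁, ∑ c₂, W₂ c₁ c₂ =
          ∑ r₁, ∑ r₂, ∑ c₁, ∑ c₂, if r₁ ≤ x ∧ x < r₂ then EE A h r₁ r₂ c₁ c₂ else 0 := by
        show ∑ c₁, ∑ c₂, ∑ r₁, ∑ r₂, _ = _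
        rw [rot, rot]
      rw [e2, ← e1]
      exact hx)
  refine ⟨x, y, ?_⟩
  have e : (δ ^ 2 / 4) ^ 2 / 4 * (n : ℝ) ^ 4 = (δ ^ 2 / 4) ^ 2 / 4 * (n : ℝ) ^ 2 * (n : ℝ) ^ 2 := by
    ring
  rw [e]
  refine hy.trans ?_
  have e3 : ∑ a, ∑ b, ∑ c, ∑ d, (if Good A h x y a b c d then (1 : ℝ) else 0) =
      ∑ c, ∑ d, ∑ a, ∑ b, (if Good A h x y a b c d then (1 : ℝ) else 0) := by
    rw [rot, rot]
  rw [e3]
  refine sum_le_sum (fun c₁ _ => sum_le_sum (fun c₂ _ => ?_))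
  split_ifs with hc
  · refine sum_le_sum (fun r₁ _ => sum_le_sum (fun r₂ _ => ?_))
    split_ifs with hr hq hq
    · exact EE_le_one _ _ _ _ _ _
    · unfold EE
      rw [if_neg]
      rintro ⟨_, _, a1, a2, a3, a4⟩
      exact hq ⟨hr.1, hr.2, hc.1, hc.2, a1, a2, a3, a4⟩
    · norm_num
    · exact le_rfl
  · refine sum_nonneg (fun _ _ => sum_nonneg (fun _ _ => ?_))
    split_ifs <;> norm_num

lemma strictMono_two {n : ℕ} {u v : Fin n} (huv : u < v) : StrictMono ![u, v] := by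
  intro i j hij
  fin_cases i <;> fin_cases j
  · exact absurd hij (by decide)
  · exact huv
  · exact absurd hij (by decide)
  · exact absurd hij (by decide)

open scoped Classical in
lemma copies_blow_zero {k a b n : ℕ} (ha : 0 < a) (ha' : a < k) (hb : 0 < b) (hb' : b < k)
    (h : Fin 2 → Fin 2 → Bool) (B : Fin n → Fin n → Bool) (h0 : copies h B = 0) :
    copies (blow k a b h) B = 0 := by
  by_contra hne
  obtain ⟨p, hp⟩ := card_pos.mp (Nat.pos_of_ne_zero hne)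
  obtain ⟨hr, hc, he⟩ := (mem_filter.mp hp).2
  have hk : 0 < k := by omega
  have hlt1 : (⟨0, hk⟩ : Fin k) < ⟨a, ha'⟩ := ha
  have hlt2 : (⟨0, hk⟩ : Fin k) < ⟨b, hb'⟩ := hb
  have hpos : 0 < copies h B := by
    apply card_pos.mpr
    refine ⟨(![p.1 ⟨0, hk⟩, p.1 ⟨a, ha'⟩], ![p.2 ⟨0, hk⟩, p.2 ⟨b, hb'⟩]), ?_⟩
    refine mem_filter.mpr ⟨mem_univ _, strictMono_two (hr hlt1), strictMono_two (hc hlt2), ?_⟩
    intro i j
    fin_cases i <;> fin_cases j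
    · simpa [blow, ha, hb] using he ⟨0, hk⟩ ⟨0, hk⟩
    · simpa [blow, ha, hb] using he ⟨0, hk⟩ ⟨b, hb'⟩
    · simpa [blow, ha, hb] using he ⟨a, ha'⟩ ⟨0, hk⟩
    · simpa [blow, ha, hb] using he ⟨a, ha'⟩ ⟨b, hb'⟩
  omega

lemma final_num {Θ L K cp n Q Berr : ℝ} {e : ℕ} (he : 0 < e) (hΘ0 : 0 < Θ) (hΘ1 : Θ ≤ 1)
    (hL1 : 1 ≤ L) (hK1 : 1 ≤ K) (hcp1 : 1 ≤ cp) (hn : 0 < n) (hQ : 0 < Q) (hP : n ^ e = Q * n)
    (hcb : Θ * n ^ e ≤ cp * K + Berr) (herr : Berr ≤ L / 2 * Q) :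
    Θ ^ e * n ^ e ≤ cp * (L ^ e * (2 * K)) := by
  have hLp : 1 ≤ L ^ e := one_le_pow₀ hL1
  have hK0 : 0 ≤ 2 * K := by linarith
  have hcp0 : 0 ≤ cp := by linarith
  by_cases hcase : L ≤ n * Θ
  · have h5 : L / 2 * Q ≤ Θ / 2 * n ^ e := by
      rw [hP]
      have h6 : L / 2 ≤ Θ / 2 * n := by linarith
      have h7 := mul_le_mul_of_nonneg_right h6 hQ.le
      calc _ ≤ Θ / 2 * n * Q := h7
        _ = _ := by ring
    have h6 : Θ * n ^ e ≤ cp * (2 * K) := by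
      have : cp * (2 * K) = 2 * (cp * K) := by ring
      rw [this]
      linarith
    have h7 : Θ ^ e ≤ Θ := pow_le_of_le_one hΘ0.le hΘ1 (by omega)
    have h8 : Θ ^ e * n ^ e ≤ Θ * n ^ e := mul_le_mul_of_nonneg_right h7 (by positivity)
    have h9 : cp * (2 * K) ≤ cp * (L ^ e * (2 * K)) :=
      mul_le_mul_of_nonneg_left (le_mul_of_one_le_left hK0 hLp) hcp0
    linarith
  · have hlt : n * Θ < L := not_le.mp hcase
    have h5 : (n * Θ) ^ e ≤ L ^ e := pow_le_pow_left₀ (by positivity) hlt.le _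
    rw [mul_pow] at h5
    have hL0 : 0 ≤ L ^ e := by linarith
    have h6 : L ^ e ≤ L ^ e * (2 * K) := le_mul_of_one_le_right hL0 (by linarith)
    have h7 : L ^ e * (2 * K) ≤ cp * (L ^ e * (2 * K)) :=
      le_mul_of_one_le_left (by positivity) hcp1
    calc Θ ^ e * n ^ e = n ^ e * Θ ^ e := by ring
      _ ≤ L ^ e := h5
      _ ≤ L ^ e * (2 * K) := h6
      _ ≤ _ := h7

open scoped Classical in
lemma one_le_copies {k n : ℕ} (H : Fin k → Fin k → Bool) (A : Fin n → Fin n → Bool) {ε : ℝ}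
    (hε0 : 0 < ε) (hn : 0 < n)
    (hfar : ∀ B : Fin n → Fin n → Bool, copies H B = 0 → ε * (n : ℝ) ^ 2 ≤ (entryDiff A B : ℝ)) :
    (1 : ℝ) ≤ (copies H A : ℝ) := by
  have h0 : copies H A ≠ 0 := by
    intro h0
    have h3 := hfar A h0
    have h4 : entryDiff A A = 0 := by simp [entryDiff]
    rw [h4] at h3
    have hnR : (0 : ℝ) < n := by exact_mod_cast hn
    have h5 : 0 < ε * (n : ℝ) ^ 2 := by positivity
    simp at h3
    linarith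
  have : 1 ≤ copies H A := Nat.one_le_iff_ne_zero.mpr h0
  exact_mod_cast this

lemma err_bound {k m₁ m₂ m₃ m₄ : ℕ} (h₁ : m₁ + 1 + (m₂ + 1) = k) (h₂ : m₃ + 1 + (m₄ + 1) = k) :
    ((m₄ : ℝ) + 1) ^ 2 + ((m₁ : ℝ) + 1) ^ 2 + ((m₂ : ℝ) + 1) ^ 2 + ((m₃ : ℝ) + 1) ^ 2 ≤
      8 * (k : ℝ) ^ 2 / 2 := by
  have hm : ∀ m : ℕ, m + 1 ≤ k → ((m : ℝ) + 1) ^ 2 ≤ (k : ℝ) ^ 2 := by
    intro m hm
    have : (m : ℝ) + 1 ≤ k := by exact_mod_cast hm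
    exact pow_le_pow_left₀ (by positivity) this 2
  have h4 := hm m₄ (by omega)
  have h1' := hm m₁ (by omega)
  have h2' := hm m₂ (by omega)
  have h3' := hm m₃ (by omega)
  linarith

/-- The constant in the final bound. -/
noncomputable def kap : ℝ := 1 / (64 * 10 ^ 124)

theorem main_bound (k m₁ m₂ m₃ m₄ : ℕ) (h₁ : m₁ + 1 + (m₂ + 1) = k) (h₂ : m₃ + 1 + (m₄ + 1) = k)
    (h : Fin 2 → Fin 2 → Bool)
    (H2 : ∀ (n : ℕ) (A : Fin n → Fin n → Bool) (ε : ℝ), 0 < ε → ε < 1 →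
      (∀ B : Fin n → Fin n → Bool, copies h B = 0 → ε * (n : ℝ) ^ 2 ≤ (entryDiff A B : ℝ)) →
      ε ^ 28 * (n : ℝ) ^ 4 / 10 ^ 31 ≤ (copies h A : ℝ)) :
    ∃ (c : ℝ) (C : ℕ), 0 < c ∧ 0 < C ∧ ∀ (n : ℕ) (A : Fin n → Fin n → Bool) (ε : ℝ), 0 < ε → ε < 1 →
      (∀ B : Fin n → Fin n → Bool, copies (blow k (m₁ + 1) (m₃ + 1) h) B = 0 →
        ε * (n : ℝ) ^ 2 ≤ (entryDiff A B : ℝ)) →
      c * ε ^ C * (n : ℝ) ^ (2 * k) ≤ (copies (blow k (m₁ + 1) (m₃ + 1) h) A : ℝ) := by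
  classical
  set T : ℕ := (m₁ + 1) * (m₂ + 1) * (m₃ + 1) * (m₄ + 1) with hT
  set K : ℕ := (m₄ + 1).factorial * ((m₁ + 1).factorial * ((m₂ + 1).factorial * (m₃ + 1).factorial))
    with hK
  have hKpos : (0 : ℝ) < (K : ℝ) := by
    rw [hK]; positivity
  have hK1 : (1 : ℝ) ≤ (K : ℝ) := by
    have : 1 ≤ K := Nat.one_le_iff_ne_zero.mpr (by rw [hK]; positivity)
    exact_mod_cast this
  set L : ℝ := 8 * (k : ℝ) ^ 2 with hL
  have hk1 : (1 : ℝ) ≤ (k : ℝ) := by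
    have : 1 ≤ k := by omega
    exact_mod_cast this
  have hL1 : 1 ≤ L := by rw [hL]; nlinarith
  have hkapp : 0 < kap := by unfold kap; positivity
  have hkap1 : kap ≤ 1 := by unfold kap; norm_num
  refine ⟨(kap ^ T) ^ (2 * k) / (L ^ (2 * k) * (2 * K)), 112 * T * (2 * k), by positivity, ?_, ?_⟩
  · have hTpos : 0 < T := by rw [hT]; positivity
    have hkpos : 0 < k := by omega
    positivity
  intro n A ε hε0 hε1 hfar
  by_cases hn0 : n = 0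
  · subst hn0
    have hk2 : 2 * k ≠ 0 := by omega
    simp [hk2]
  have hn : 0 < n := Nat.pos_of_ne_zero hn0
  have hnR : (0 : ℝ) < n := by exact_mod_cast hn
  have ha : 0 < m₁ + 1 := by omega
  have ha' : m₁ + 1 < k := by omega
  have hb : 0 < m₃ + 1 := by omega
  have hb' : m₃ + 1 < k := by omega
  -- the 2 x 2 bound
  have hfar2 : ∀ B : Fin n → Fin n → Bool, copies h B = 0 → ε * (n : ℝ) ^ 2 ≤ (entryDiff A B : ℝ) :=
    fun B hB => hfar B (copies_blow_zero ha ha' hb hb' h B hB)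
  have hN := H2 n A ε hε0 hε1 hfar2
  set δ : ℝ := ε ^ 28 / 10 ^ 31 with hδ
  have hδ0 : 0 < δ := by positivity
  have hN' : δ * (n : ℝ) ^ 4 ≤ (copies h A : ℝ) := by
    have e : δ * (n : ℝ) ^ 4 = ε ^ 28 * (n : ℝ) ^ 4 / 10 ^ 31 := by rw [hδ]; ring
    rw [e]; exact hN
  obtain ⟨x, y, hxy⟩ := exists_pivots hn A h hδ0 hN'
  set θ : ℝ := (δ ^ 2 / 4) ^ 2 / 4 with hθ
  have hθε : θ = kap * ε ^ 112 := by
    rw [hθ, hδ]; unfold kap; ring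
  have hθ0 : 0 < θ := by rw [hθε]; positivity
  have hθ1 : θ ≤ 1 := by
    rw [hθε]
    have h3 : ε ^ 112 ≤ 1 := pow_le_one₀ hε0.le hε1.le
    have h4 : 0 ≤ ε ^ 112 := by positivity
    nlinarith
  have hcb := count_bound hn h₁ h₂ A h x y hθ0 hxy
  rw [← hT, ← hK] at hcb
  set Θ : ℝ := θ ^ T with hΘ
  have hΘ0 : 0 < Θ := by rw [hΘ]; positivity
  have hΘ1 : Θ ≤ 1 := pow_le_one₀ hθ0.le hθ1
  set cp : ℝ := (copies (blow k (m₁ + 1) (m₃ + 1) h) A : ℝ) with hcp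
  have hcp1 : 1 ≤ cp := one_le_copies _ A hε0 hn hfar
  have hB := err_bound h₁ h₂
  rw [← hL] at hB
  have hexp : 2 * k = (m₁ + m₂ + m₃ + m₄ + 3) + 1 := by omega
  have hpw : (n : ℝ) ^ (2 * k) = (n : ℝ) ^ (m₁ + m₂ + m₃ + m₄ + 3) * n := by
    rw [hexp, pow_succ]
  have hp3 : (0 : ℝ) < (n : ℝ) ^ (m₁ + m₂ + m₃ + m₄ + 3) := by positivity
  have herr : (((m₄ : ℝ) + 1) ^ 2 + ((m₁ : ℝ) + 1) ^ 2 + ((m₂ : ℝ) + 1) ^ 2 + ((m₃ : ℝ) + 1) ^ 2) *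
      (n : ℝ) ^ (m₁ + m₂ + m₃ + m₄ + 3) ≤ L / 2 * (n : ℝ) ^ (m₁ + m₂ + m₃ + m₄ + 3) :=
    mul_le_mul_of_nonneg_right hB hp3.le
  -- the constant
  have hpowΘ : Θ ^ (2 * k) = (kap ^ T) ^ (2 * k) * ε ^ (112 * T * (2 * k)) := by
    have e7 : ((ε ^ 112) ^ T) ^ (2 * k) = ε ^ (112 * T * (2 * k)) := by
      rw [← pow_mul, ← pow_mul, Nat.mul_assoc 112 T]
    rw [hΘ, hθε, mul_pow, mul_pow, e7]
  have hgoal : (kap ^ T) ^ (2 * k) / (L ^ (2 * k) * (2 * K)) * ε ^ (112 * T * (2 * k)) *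
      (n : ℝ) ^ (2 * k) = (Θ ^ (2 * k) * (n : ℝ) ^ (2 * k)) / (L ^ (2 * k) * (2 * K)) := by
    rw [hpowΘ]; ring
  rw [hgoal]
  have hD : 0 < L ^ (2 * k) * (2 * (K : ℝ)) := by positivity
  rw [div_le_iff₀ hD]
  exact final_num (by omega) hΘ0 hΘ1 hL1 hK1 hcp1 hnR hp3 hpw hcb herr

end P037Blow
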