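import Vale.Agent.Lib.P037.MuBound

/-!
The expected number of sample copies across windows.
-/

namespace Vale.Agent.Lib.P037

open Finset

variable {n P W g g' : ℕ}

lemma samp2 {a a' : Fin P} (ha : a ≠ a') (t t' : Fin g) (f : Fin W → Fin W → ℝ) (hW : 0 < W) :
    (W : ℝ) ^ 2 * ∑ ρ : Fin P → Fin g → Fin W, f (ρ a t) (ρ a' t')
      = (Fintype.card (Fin P → Fin g → Fin W) : ℝ) * ∑ x, ∑ x', f x x' := by
  classical
  have hXpos : (0 : ℝ) < Fintype.card (Fin g → Fin W) := by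
    have : 0 < Fintype.card (Fin g → Fin W) := by
      simp only [Fintype.card_fun, Fintype.card_fin]
      positivity
    exact_mod_cast this
  have hm := marg2 (ι := Fin P) (X := Fin g → Fin W) ha (fun u u' => f (u t) (u' t'))
  have hW1 : ∀ x : Fin W, (W : ℝ) * ∑ u' : Fin g → Fin W, f x (u' t')
      = (Fintype.card (Fin g → Fin W) : ℝ) * ∑ x', f x x' := by
    intro x
    have := marg (ι := Fin g) (X := Fin W) t' (f x)
    simpa using this
  have hW2 : (W : ℝ) * ∑ u : Fin g → Fin W, ∑ x', f (u t) x'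
      = (Fintype.card (Fin g → Fin W) : ℝ) * ∑ x, ∑ x', f x x' := by
    have := marg (ι := Fin g) (X := Fin W) t (fun x => ∑ x', f x x')
    simpa using this
  have h3 : (W : ℝ) ^ 2 * ∑ u : Fin g → Fin W, ∑ u' : Fin g → Fin W, f (u t) (u' t')
      = (Fintype.card (Fin g → Fin W) : ℝ) ^ 2 * ∑ x, ∑ x', f x x' := by
    calc (W : ℝ) ^ 2 * ∑ u : Fin g → Fin W, ∑ u' : Fin g → Fin W, f (u t) (u' t')
        = (W : ℝ) * ∑ u : Fin g → Fin W, ((W : ℝ) * ∑ u' : Fin g → Fin W, f (u t) (u' t')) := by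
          rw [← Finset.mul_sum]; ring
      _ = (W : ℝ) * ∑ u : Fin g → Fin W,
            ((Fintype.card (Fin g → Fin W) : ℝ) * ∑ x', f (u t) x') := by
          simp_rw [hW1]
      _ = (Fintype.card (Fin g → Fin W) : ℝ) *
            ((W : ℝ) * ∑ u : Fin g → Fin W, ∑ x', f (u t) x') := by
          rw [← Finset.mul_sum]; ring
      _ = _ := by rw [hW2]; ring
  have hfin : (Fintype.card (Fin g → Fin W) : ℝ) ^ 2 *
        ((W : ℝ) ^ 2 * ∑ ρ : Fin P → Fin g → Fin W, f (ρ a t) (ρ a' t'))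
      = (Fintype.card (Fin g → Fin W) : ℝ) ^ 2 *
        ((Fintype.card (Fin P → Fin g → Fin W) : ℝ) * ∑ x, ∑ x', f x x') := by
    calc _ = (W : ℝ) ^ 2 * ((Fintype.card (Fin g → Fin W) : ℝ) ^ 2 *
          ∑ ρ : Fin P → Fin g → Fin W, f (ρ a t) (ρ a' t')) := by ring
      _ = (W : ℝ) ^ 2 * ((Fintype.card (Fin P → Fin g → Fin W) : ℝ) *
          ∑ u : Fin g → Fin W, ∑ u' : Fin g → Fin W, f (u t) (u' t')) := by rw [hm]
      _ = (Fintype.card (Fin P → Fin g → Fin W) : ℝ) * ((W : ℝ) ^ 2 *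
          ∑ u : Fin g → Fin W, ∑ u' : Fin g → Fin W, f (u t) (u' t')) := by ring
      _ = _ := by rw [h3]; ring
  exact mul_left_cancel₀ (by positivity) hfin

/-- Number of sample copies across windows. -/
noncomputable def cross (A : Mat n) (hPW : P * W ≤ n) (ρ : Fin P → Fin g → Fin W)
    (κ : Fin P → Fin g' → Fin W) : ℝ :=
  ∑ w ∈ ipairs P, ∑ v ∈ ipairs P, ∑ t : Fin g, ∑ t' : Fin g, ∑ s : Fin g', ∑ s' : Fin g',
    if Pat A (sr hPW ρ w.1 t) (sr hPW ρ w.2 t') (sr hPW κ v.1 s) (sr hPW κ v.2 s') then (1 : ℝ) else 0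

lemma cross_nonneg (A : Mat n) (hPW : P * W ≤ n) (ρ : Fin P → Fin g → Fin W)
    (κ : Fin P → Fin g' → Fin W) : 0 ≤ cross A hPW ρ κ := by
  unfold cross
  refine Finset.sum_nonneg fun _ _ => Finset.sum_nonneg fun _ _ => Finset.sum_nonneg fun _ _ =>
    Finset.sum_nonneg fun _ _ => Finset.sum_nonneg fun _ _ => Finset.sum_nonneg fun _ _ => ?_
  split_ifs <;> norm_num

lemma one_le_cross (A : Mat n) (hPW : P * W ≤ n) (ρ : Fin P → Fin g → Fin W)
    (κ : Fin P → Fin g' → Fin W) {a a' b b' : Fin P} (ha : a < a') (hb : b < b')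
    (t t' : Fin g) (s s' : Fin g')
    (h : Pat A (sr hPW ρ a t) (sr hPW ρ a' t') (sr hPW κ b s) (sr hPW κ b' s')) :
    1 ≤ cross A hPW ρ κ := by
  classical
  have hw : (a, a') ∈ ipairs P := by simp [ipairs, ha]
  have hv : (b, b') ∈ ipairs P := by simp [ipairs, hb]
  unfold cross
  have nn : ∀ (w v : Fin P × Fin P) (t t' : Fin g) (s s' : Fin g'), (0 : ℝ) ≤
      if Pat A (sr hPW ρ w.1 t) (sr hPW ρ w.2 t') (sr hPW κ v.1 s) (sr hPW κ v.2 s')
        then (1 : ℝ) else 0 := by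
    intro w v t t' s s'
    split_ifs <;> norm_num
  calc (1 : ℝ) = if Pat A (sr hPW ρ (a, a').1 t) (sr hPW ρ (a, a').2 t')
          (sr hPW κ (b, b').1 s) (sr hPW κ (b, b').2 s') then (1 : ℝ) else 0 := by
        rw [if_pos h]
    _ ≤ ∑ s' : Fin g', if Pat A (sr hPW ρ (a, a').1 t) (sr hPW ρ (a, a').2 t')
          (sr hPW κ (b, b').1 s) (sr hPW κ (b, b').2 s') then (1 : ℝ) else 0 :=
        Finset.single_le_sum (f := fun s' : Fin g' => if Pat A (sr hPW ρ (a, a').1 t)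
          (sr hPW ρ (a, a').2 t') (sr hPW κ (b, b').1 s) (sr hPW κ (b, b').2 s')
            then (1 : ℝ) else 0) (fun i _ => nn _ _ _ _ _ _) (mem_univ s')
    _ ≤ ∑ s : Fin g', ∑ s' : Fin g', if Pat A (sr hPW ρ (a, a').1 t) (sr hPW ρ (a, a').2 t')
          (sr hPW κ (b, b').1 s) (sr hPW κ (b, b').2 s') then (1 : ℝ) else 0 :=
        Finset.single_le_sum (f := fun s : Fin g' => ∑ s' : Fin g', if Pat A (sr hPW ρ (a, a').1 t)
          (sr hPW ρ (a, a').2 t') (sr hPW κ (b, b').1 s) (sr hPW κ (b, b').2 s')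
            then (1 : ℝ) else 0)
          (fun i _ => Finset.sum_nonneg fun _ _ => nn _ _ _ _ _ _) (mem_univ s)
    _ ≤ ∑ t' : Fin g, ∑ s : Fin g', ∑ s' : Fin g', if Pat A (sr hPW ρ (a, a').1 t)
          (sr hPW ρ (a, a').2 t') (sr hPW κ (b, b').1 s) (sr hPW κ (b, b').2 s')
            then (1 : ℝ) else 0 :=
        Finset.single_le_sum (f := fun t' : Fin g => ∑ s : Fin g', ∑ s' : Fin g',
          if Pat A (sr hPW ρ (a, a').1 t)
          (sr hPW ρ (a, a').2 t') (sr hPW κ (b, b').1 s) (sr hPW κ (b, b').2 s')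
            then (1 : ℝ) else 0)
          (fun i _ => Finset.sum_nonneg fun _ _ => Finset.sum_nonneg fun _ _ => nn _ _ _ _ _ _)
          (mem_univ t')
    _ ≤ ∑ t : Fin g, ∑ t' : Fin g, ∑ s : Fin g', ∑ s' : Fin g', if Pat A (sr hPW ρ (a, a').1 t)
          (sr hPW ρ (a, a').2 t') (sr hPW κ (b, b').1 s) (sr hPW κ (b, b').2 s')
            then (1 : ℝ) else 0 :=
        Finset.single_le_sum (f := fun t : Fin g => ∑ t' : Fin g, ∑ s : Fin g', ∑ s' : Fin g',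
          if Pat A (sr hPW ρ (a, a').1 t)
          (sr hPW ρ (a, a').2 t') (sr hPW κ (b, b').1 s) (sr hPW κ (b, b').2 s')
            then (1 : ℝ) else 0)
          (fun i _ => Finset.sum_nonneg fun _ _ => Finset.sum_nonneg fun _ _ =>
            Finset.sum_nonneg fun _ _ => nn _ _ _ _ _ _)
          (mem_univ t)
    _ ≤ ∑ v ∈ ipairs P, ∑ t : Fin g, ∑ t' : Fin g, ∑ s : Fin g', ∑ s' : Fin g',
          if Pat A (sr hPW ρ (a, a').1 t)
          (sr hPW ρ (a, a').2 t') (sr hPW κ v.1 s) (sr hPW κ v.2 s')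
            then (1 : ℝ) else 0 :=
        Finset.single_le_sum (f := fun v : Fin P × Fin P => ∑ t : Fin g, ∑ t' : Fin g,
          ∑ s : Fin g', ∑ s' : Fin g', if Pat A (sr hPW ρ (a, a').1 t)
          (sr hPW ρ (a, a').2 t') (sr hPW κ v.1 s) (sr hPW κ v.2 s')
            then (1 : ℝ) else 0)
          (fun i _ => Finset.sum_nonneg fun _ _ => Finset.sum_nonneg fun _ _ =>
            Finset.sum_nonneg fun _ _ => Finset.sum_nonneg fun _ _ => nn _ _ _ _ _ _)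
          hv
    _ ≤ _ :=
        Finset.single_le_sum (f := fun w : Fin P × Fin P => ∑ v ∈ ipairs P, ∑ t : Fin g,
          ∑ t' : Fin g, ∑ s : Fin g', ∑ s' : Fin g', if Pat A (sr hPW ρ w.1 t)
          (sr hPW ρ w.2 t') (sr hPW κ v.1 s) (sr hPW κ v.2 s')
            then (1 : ℝ) else 0)
          (fun i _ => Finset.sum_nonneg fun _ _ => Finset.sum_nonneg fun _ _ =>
            Finset.sum_nonneg fun _ _ => Finset.sum_nonneg fun _ _ =>
              Finset.sum_nonneg fun _ _ => nn _ _ _ _ _ _)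
          hw

lemma ipairs_ne {m : ℕ} {w : Fin m × Fin m} (hw : w ∈ ipairs m) : w.1 ≠ w.2 := by
  simp only [ipairs, mem_filter, mem_univ, true_and] at hw
  exact hw.ne

/-- One term of the average. -/
lemma one_term (A : Mat n) (hPW : P * W ≤ n) (hW : 0 < W) {w v : Fin P × Fin P}
    (hw : w ∈ ipairs P) (hv : v ∈ ipairs P) (t t' : Fin g) (s s' : Fin g') :
    (W : ℝ) ^ 4 * ∑ ρ : Fin P → Fin g → Fin W, ∑ κ : Fin P → Fin g' → Fin W,
      (if Pat A (sr hPW ρ w.1 t) (sr hPW ρ w.2 t') (sr hPW κ v.1 s) (sr hPW κ v.2 s')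
        then (1 : ℝ) else 0)
    = (Fintype.card (Fin P → Fin g → Fin W) : ℝ) * (Fintype.card (Fin P → Fin g' → Fin W) : ℝ) *
      ∑ x : Fin W, ∑ x' : Fin W, ∑ y : Fin W, ∑ y' : Fin W,
        (if Pat A (rowOf hPW w.1 x) (rowOf hPW w.2 x') (rowOf hPW v.1 y) (rowOf hPW v.2 y')
          then (1 : ℝ) else 0) := by
  classical
  have h1 : ∀ ρ : Fin P → Fin g → Fin W, (W : ℝ) ^ 2 * ∑ κ : Fin P → Fin g' → Fin W,
      (if Pat A (sr hPW ρ w.1 t) (sr hPW ρ w.2 t') (sr hPW κ v.1 s) (sr hPW κ v.2 s')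
        then (1 : ℝ) else 0)
      = (Fintype.card (Fin P → Fin g' → Fin W) : ℝ) * ∑ y : Fin W, ∑ y' : Fin W,
        (if Pat A (sr hPW ρ w.1 t) (sr hPW ρ w.2 t') (rowOf hPW v.1 y) (rowOf hPW v.2 y')
          then (1 : ℝ) else 0) := by
    intro ρ
    exact samp2 (ipairs_ne hv) s s' (fun y y' =>
      if Pat A (sr hPW ρ w.1 t) (sr hPW ρ w.2 t') (rowOf hPW v.1 y) (rowOf hPW v.2 y')
        then (1 : ℝ) else 0) hW
  have h2 := samp2 (P := P) (g := g) (W := W) (ipairs_ne hw) t t' (fun x x' =>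
      ∑ y : Fin W, ∑ y' : Fin W,
      if Pat A (rowOf hPW w.1 x) (rowOf hPW w.2 x') (rowOf hPW v.1 y) (rowOf hPW v.2 y')
        then (1 : ℝ) else 0) hW
  calc (W : ℝ) ^ 4 * ∑ ρ : Fin P → Fin g → Fin W, ∑ κ : Fin P → Fin g' → Fin W,
      (if Pat A (sr hPW ρ w.1 t) (sr hPW ρ w.2 t') (sr hPW κ v.1 s) (sr hPW κ v.2 s')
        then (1 : ℝ) else 0)
      = (W : ℝ) ^ 2 * ∑ ρ : Fin P → Fin g → Fin W, ((W : ℝ) ^ 2 *
          ∑ κ : Fin P → Fin g' → Fin W,
          (if Pat A (sr hPW ρ w.1 t) (sr hPW ρ w.2 t') (sr hPW κ v.1 s) (sr hPW κ v.2 s')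
            then (1 : ℝ) else 0)) := by
        rw [← Finset.mul_sum]; ring
    _ = (W : ℝ) ^ 2 * ∑ ρ : Fin P → Fin g → Fin W,
          ((Fintype.card (Fin P → Fin g' → Fin W) : ℝ) * ∑ y : Fin W, ∑ y' : Fin W,
            (if Pat A (sr hPW ρ w.1 t) (sr hPW ρ w.2 t') (rowOf hPW v.1 y) (rowOf hPW v.2 y')
              then (1 : ℝ) else 0)) := by
        simp_rw [h1]
    _ = (Fintype.card (Fin P → Fin g' → Fin W) : ℝ) * ((W : ℝ) ^ 2 *
          ∑ ρ : Fin P → Fin g → Fin W, ∑ y : Fin W, ∑ y' : Fin W,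
            (if Pat A (rowOf hPW w.1 (ρ w.1 t)) (rowOf hPW w.2 (ρ w.2 t'))
                (rowOf hPW v.1 y) (rowOf hPW v.2 y') then (1 : ℝ) else 0)) := by
        rw [← Finset.mul_sum, mul_left_comm]
        rfl
    _ = _ := by rw [h2]; ring

/-- The sum over windows of the one-term sums is at most the number of copies. -/
lemma total_le (A : Mat n) (hPW : P * W ≤ n) :
    ∑ w ∈ ipairs P, ∑ v ∈ ipairs P, ∑ x : Fin W, ∑ x' : Fin W, ∑ y : Fin W, ∑ y' : Fin W,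
        (if Pat A (rowOf hPW w.1 x) (rowOf hPW w.2 x') (rowOf hPW v.1 y) (rowOf hPW v.2 y')
          then (1 : ℝ) else 0) ≤ Nq A := by
  classical
  have h1 : ∀ r : Fin n × Fin n, ∑ v ∈ ipairs P, ∑ y : Fin W, ∑ y' : Fin W,
      (if Pat A r.1 r.2 (rowOf hPW v.1 y) (rowOf hPW v.2 y') then (1 : ℝ) else 0)
      ≤ ∑ c ∈ ipairs n, (if Pat A r.1 r.2 c.1 c.2 then (1 : ℝ) else 0) := by
    intro r
    exact sum_ipairs_le hPW (fun c : Fin n × Fin n =>
      if Pat A r.1 r.2 c.1 c.2 then (1 : ℝ) else 0) (fun p => by split_ifs <;> norm_num)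
  have h2 := sum_ipairs_le hPW (fun r : Fin n × Fin n => ∑ v ∈ ipairs P, ∑ y : Fin W, ∑ y' : Fin W,
      (if Pat A r.1 r.2 (rowOf hPW v.1 y) (rowOf hPW v.2 y') then (1 : ℝ) else 0))
    (fun p => Finset.sum_nonneg fun _ _ => Finset.sum_nonneg fun _ _ =>
      Finset.sum_nonneg fun _ _ => by split_ifs <;> norm_num)
  calc _ = ∑ w ∈ ipairs P, ∑ x : Fin W, ∑ x' : Fin W, ∑ v ∈ ipairs P, ∑ y : Fin W, ∑ y' : Fin W,
        (if Pat A (rowOf hPW w.1 x) (rowOf hPW w.2 x') (rowOf hPW v.1 y) (rowOf hPW v.2 y')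
          then (1 : ℝ) else 0) := by
        refine Finset.sum_congr rfl fun w _ => ?_
        rw [Finset.sum_comm]
        refine Finset.sum_congr rfl fun x _ => ?_
        rw [Finset.sum_comm]
    _ ≤ ∑ r ∈ ipairs n, ∑ v ∈ ipairs P, ∑ y : Fin W, ∑ y' : Fin W,
        (if Pat A r.1 r.2 (rowOf hPW v.1 y) (rowOf hPW v.2 y') then (1 : ℝ) else 0) := h2
    _ ≤ ∑ r ∈ ipairs n, ∑ c ∈ ipairs n, (if Pat A r.1 r.2 c.1 c.2 then (1 : ℝ) else 0) :=
        Finset.sum_le_sum fun r _ => h1 r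
    _ = _ := by
        unfold Nq
        push_cast
        rfl

/-- The average of the number of sample copies across windows. -/
lemma avg_cross (A : Mat n) (hPW : P * W ≤ n) (hW : 0 < W) :
    (W : ℝ) ^ 4 * ∑ ρ : Fin P → Fin g → Fin W, ∑ κ : Fin P → Fin g' → Fin W, cross A hPW ρ κ
      ≤ (Fintype.card (Fin P → Fin g → Fin W) : ℝ) * (Fintype.card (Fin P → Fin g' → Fin W) : ℝ)
        * ((g : ℝ) ^ 2 * (g' : ℝ) ^ 2 * Nq A) := by
  classical
  have hswap : ∑ ρ : Fin P → Fin g → Fin W, ∑ κ : Fin P → Fin g' → Fin W, cross A hPW ρ κ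
      = ∑ w ∈ ipairs P, ∑ v ∈ ipairs P, ∑ t : Fin g, ∑ t' : Fin g, ∑ s : Fin g', ∑ s' : Fin g',
        ∑ ρ : Fin P → Fin g → Fin W, ∑ κ : Fin P → Fin g' → Fin W,
        (if Pat A (sr hPW ρ w.1 t) (sr hPW ρ w.2 t') (sr hPW κ v.1 s) (sr hPW κ v.2 s')
          then (1 : ℝ) else 0) := by
    unfold cross
    simp only [Finset.sum_comm (s := (univ : Finset (Fin P → Fin g' → Fin W)))]
    simp only [Finset.sum_comm (s := (univ : Finset (Fin P → Fin g → Fin W)))]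
  rw [hswap]
  set CC := (Fintype.card (Fin P → Fin g → Fin W) : ℝ) *
    (Fintype.card (Fin P → Fin g' → Fin W) : ℝ) with hCC
  have hCC0 : 0 ≤ CC := by positivity
  have hterm : ∀ w ∈ ipairs P, ∀ v ∈ ipairs P, (W : ℝ) ^ 4 *
      ∑ t : Fin g, ∑ t' : Fin g, ∑ s : Fin g', ∑ s' : Fin g',
        ∑ ρ : Fin P → Fin g → Fin W, ∑ κ : Fin P → Fin g' → Fin W,
        (if Pat A (sr hPW ρ w.1 t) (sr hPW ρ w.2 t') (sr hPW κ v.1 s) (sr hPW κ v.2 s')
          then (1 : ℝ) else 0)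
      = CC * ((g : ℝ) ^ 2 * (g' : ℝ) ^ 2 * ∑ x : Fin W, ∑ x' : Fin W, ∑ y : Fin W, ∑ y' : Fin W,
        (if Pat A (rowOf hPW w.1 x) (rowOf hPW w.2 x') (rowOf hPW v.1 y) (rowOf hPW v.2 y')
          then (1 : ℝ) else 0)) := by
    intro w hw v hv
    have h5 : ∀ (t t' : Fin g) (s s' : Fin g'), (W : ℝ) ^ 4 *
        ∑ ρ : Fin P → Fin g → Fin W, ∑ κ : Fin P → Fin g' → Fin W,
        (if Pat A (sr hPW ρ w.1 t) (sr hPW ρ w.2 t') (sr hPW κ v.1 s) (sr hPW κ v.2 s')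
          then (1 : ℝ) else 0)
        = CC * ∑ x : Fin W, ∑ x' : Fin W, ∑ y : Fin W, ∑ y' : Fin W,
        (if Pat A (rowOf hPW w.1 x) (rowOf hPW w.2 x') (rowOf hPW v.1 y) (rowOf hPW v.2 y')
          then (1 : ℝ) else 0) := fun t t' s s' => one_term A hPW hW hw hv t t' s s'
    calc _ = ∑ t : Fin g, ∑ t' : Fin g, ∑ s : Fin g', ∑ s' : Fin g', ((W : ℝ) ^ 4 *
          ∑ ρ : Fin P → Fin g → Fin W, ∑ κ : Fin P → Fin g' → Fin W,
          (if Pat A (sr hPW ρ w.1 t) (sr hPW ρ w.2 t') (sr hPW κ v.1 s) (sr hPW κ v.2 s')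
            then (1 : ℝ) else 0)) := by
          rw [Finset.mul_sum]
          refine Finset.sum_congr rfl fun t _ => ?_
          rw [Finset.mul_sum]
          refine Finset.sum_congr rfl fun t' _ => ?_
          rw [Finset.mul_sum]
          refine Finset.sum_congr rfl fun s _ => ?_
          rw [Finset.mul_sum]
      _ = ∑ _t : Fin g, ∑ _t' : Fin g, ∑ _s : Fin g', ∑ _s' : Fin g', (CC *
          ∑ x : Fin W, ∑ x' : Fin W, ∑ y : Fin W, ∑ y' : Fin W,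
          (if Pat A (rowOf hPW w.1 x) (rowOf hPW w.2 x') (rowOf hPW v.1 y) (rowOf hPW v.2 y')
            then (1 : ℝ) else 0)) :=
          Finset.sum_congr rfl fun t _ => Finset.sum_congr rfl fun t' _ =>
            Finset.sum_congr rfl fun s _ => Finset.sum_congr rfl fun s' _ => h5 t t' s s'
      _ = _ := by
          simp only [Finset.sum_const, Finset.card_univ, Fintype.card_fin, nsmul_eq_mul]
          ring
  calc (W : ℝ) ^ 4 * ∑ w ∈ ipairs P, ∑ v ∈ ipairs P, ∑ t : Fin g, ∑ t' : Fin g,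
        ∑ s : Fin g', ∑ s' : Fin g',
        ∑ ρ : Fin P → Fin g → Fin W, ∑ κ : Fin P → Fin g' → Fin W,
        (if Pat A (sr hPW ρ w.1 t) (sr hPW ρ w.2 t') (sr hPW κ v.1 s) (sr hPW κ v.2 s')
          then (1 : ℝ) else 0)
      = ∑ w ∈ ipairs P, ∑ v ∈ ipairs P, ((W : ℝ) ^ 4 *
          ∑ t : Fin g, ∑ t' : Fin g, ∑ s : Fin g', ∑ s' : Fin g',
          ∑ ρ : Fin P → Fin g → Fin W, ∑ κ : Fin P → Fin g' → Fin W,
          (if Pat A (sr hPW ρ w.1 t) (sr hPW ρ w.2 t') (sr hPW κ v.1 s) (sr hPW κ v.2 s')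
            then (1 : ℝ) else 0)) := by
        simp only [Finset.mul_sum]
    _ = ∑ w ∈ ipairs P, ∑ v ∈ ipairs P,
          (CC * ((g : ℝ) ^ 2 * (g' : ℝ) ^ 2 * ∑ x : Fin W, ∑ x' : Fin W, ∑ y : Fin W, ∑ y' : Fin W,
            (if Pat A (rowOf hPW w.1 x) (rowOf hPW w.2 x') (rowOf hPW v.1 y) (rowOf hPW v.2 y')
              then (1 : ℝ) else 0))) :=
        Finset.sum_congr rfl fun w hw => Finset.sum_congr rfl fun v hv => hterm w hw v hv
    _ = CC * ((g : ℝ) ^ 2 * (g' : ℝ) ^ 2 * ∑ w ∈ ipairs P, ∑ v ∈ ipairs P,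
          ∑ x : Fin W, ∑ x' : Fin W, ∑ y : Fin W, ∑ y' : Fin W,
            (if Pat A (rowOf hPW w.1 x) (rowOf hPW w.2 x') (rowOf hPW v.1 y) (rowOf hPW v.2 y')
              then (1 : ℝ) else 0)) := by
        simp only [Finset.mul_sum]
    _ ≤ CC * ((g : ℝ) ^ 2 * (g' : ℝ) ^ 2 * Nq A) := by
        gcongr
        exact total_le A hPW

end Vale.Agent.Lib.P037
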