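import Vale.Agent.Lib.P037.Windows

/-!
The error of the level matrix.
-/

namespace Vale.Agent.Lib.P037

open Finset

variable {n P W g : ℕ}

/-- The level of a row. -/
def lvM (M : Mat n) (win : Fin n → Fin P) (R : Fin P → Fin g → Fin n) (i : Fin n) : ℕ :=
  (univ.filter fun t => sz M i ≤ sz M (R (win i) t)).card

/-- The level matrix. -/
def level (M : Mat n) (win : Fin n → Fin P) (R : Fin P → Fin g → Fin n) : Mat n := fun i c =>
  decide (lvM M win R i ≤ (univ.filter fun t => M (R (win i) t) c = true).card)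

/-- The sample rows attached to offsets. -/
def sr (hPW : P * W ≤ n) (ρ : Fin P → Fin g → Fin W) : Fin P → Fin g → Fin n :=
  fun a t => rowOf hPW a (ρ a t)

/-- The rows of a window as lines. -/
def lineF (M : Mat n) (hPW : P * W ≤ n) (a : Fin P) : Fin W → Fin n → Bool :=
  fun x c => M (rowOf hPW a x) c

/-- The total non-nestedness inside the windows. -/
noncomputable def Mu (M : Mat n) (hPW : P * W ≤ n) : ℝ :=
  ∑ a : Fin P, ∑ x : Fin W, ∑ x' : Fin W, (mu (lineF M hPW a) x x' : ℝ)

lemma err_row (M : Mat n) (hP : 0 < P) (hW : 0 < W) (hPW : P * W ≤ n)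
    (ρ : Fin P → Fin g → Fin W) (a : Fin P) (x : Fin W) :
    (univ.filter fun c => level M (winOf hP W) (sr hPW ρ) (rowOf hPW a x) c
        ≠ M (rowOf hPW a x) c).card
      = errF (lineF M hPW a) x (ρ a) := by
  have h := winOf_rowOf hP hW hPW a x
  unfold errF level lvM lvl cnt sr lineF
  rw [h]
  rfl

lemma windows_le_sum (hPW : P * W ≤ n) (e : Fin n → ℕ) :
    ∑ a : Fin P, ∑ x : Fin W, e (rowOf hPW a x) ≤ ∑ i, e i := by
  classical
  let φ : Fin P × Fin W → Fin n := fun p => rowOf hPW p.1 p.2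
  have hφ : Function.Injective φ := by
    intro p q h
    obtain ⟨h1, h2⟩ := rowOf_inj hPW h
    exact Prod.ext h1 h2
  calc ∑ a : Fin P, ∑ x : Fin W, e (rowOf hPW a x) = ∑ i ∈ univ.image φ, e i := by
        rw [Finset.sum_image (fun p _ q _ h => hφ h), Fintype.sum_prod_type]
    _ ≤ ∑ i, e i := Finset.sum_le_sum_of_subset_of_nonneg (subset_univ _) fun _ _ _ => Nat.zero_le _

lemma card_filter_le_n (p : Fin n → Prop) [DecidablePred p] : (univ.filter p).card ≤ n := by
  calc (univ.filter p).card ≤ (univ : Finset (Fin n)).card := Finset.card_filter_le _ _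
    _ = n := by simp

/-- The main averaged estimate for the level matrix. -/
lemma avg_ham_level (M : Mat n) (hP : 0 < P) (hW : 0 < W) (hPW : P * W ≤ n)
    (hn : n < P * (W + 1)) :
    (∑ ρ : Fin P → Fin g → Fin W, (ham (level M (winOf hP W) (sr hPW ρ)) M : ℝ))
      ≤ (Fintype.card (Fin P → Fin g → Fin W) : ℝ) *
        ((g : ℝ) / W * Mu M hPW + P * W * n / (g + 1) + P * n) := by
  classical
  have hWR : (0 : ℝ) < W := by exact_mod_cast hW
  have hXpos : (0 : ℝ) < Fintype.card (Fin g → Fin W) := by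
    have : 0 < Fintype.card (Fin g → Fin W) := by
      simp only [Fintype.card_fun, Fintype.card_fin]
      positivity
    exact_mod_cast this
  -- pointwise bound
  have h1 : ∀ ρ : Fin P → Fin g → Fin W,
      (ham (level M (winOf hP W) (sr hPW ρ)) M : ℝ)
        ≤ ∑ a : Fin P, ∑ x : Fin W, (errF (lineF M hPW a) x (ρ a) : ℝ) + P * n := by
    intro ρ
    have := sum_le_windows hPW hn
      (fun i => (univ.filter fun c => level M (winOf hP W) (sr hPW ρ) i c ≠ M i c).card)
      (fun i => card_filter_le_n _)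
    simp only [err_row M hP hW hPW ρ] at this
    unfold ham
    exact_mod_cast this
  -- averaged bound in one window
  have h2 : ∀ a : Fin P, (∑ ρ : Fin P → Fin g → Fin W, ∑ x : Fin W,
        (errF (lineF M hPW a) x (ρ a) : ℝ))
      ≤ (Fintype.card (Fin P → Fin g → Fin W) : ℝ) *
        ((g : ℝ) / W * ∑ x : Fin W, ∑ x' : Fin W, (mu (lineF M hPW a) x x' : ℝ)
          + W * n / (g + 1)) := by
    intro a
    have hm := marg (ι := Fin P) (X := Fin g → Fin W) a
      (fun u => ∑ x : Fin W, (errF (lineF M hPW a) x u : ℝ))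
    have hA := avg_err (g := g) (lineF M hPW a) (X := Fin W) (Y := Fin n)
      (by simpa using hW)
    simp only [Fintype.card_fin] at hA
    have h3 : (∑ u : Fin g → Fin W, ∑ x : Fin W, (errF (lineF M hPW a) x u : ℝ))
        ≤ (Fintype.card (Fin g → Fin W) : ℝ) * ((g : ℝ) / W *
          ∑ x : Fin W, ∑ x' : Fin W, (mu (lineF M hPW a) x x' : ℝ) + W * n / (g + 1)) := hA
    have h4 : (Fintype.card (Fin g → Fin W) : ℝ) *
          (∑ ρ : Fin P → Fin g → Fin W, ∑ x : Fin W, (errF (lineF M hPW a) x (ρ a) : ℝ))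
        ≤ (Fintype.card (Fin g → Fin W) : ℝ) * ((Fintype.card (Fin P → Fin g → Fin W) : ℝ) *
          ((g : ℝ) / W * ∑ x : Fin W, ∑ x' : Fin W, (mu (lineF M hPW a) x x' : ℝ)
            + W * n / (g + 1))) := by
      rw [hm]
      calc _ ≤ (Fintype.card (Fin P → Fin g → Fin W) : ℝ) *
            ((Fintype.card (Fin g → Fin W) : ℝ) * ((g : ℝ) / W *
              ∑ x : Fin W, ∑ x' : Fin W, (mu (lineF M hPW a) x x' : ℝ) + W * n / (g + 1))) := by
            gcongr
        _ = _ := by ring
    exact le_of_mul_le_mul_left h4 hXpos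
  -- sum up
  calc (∑ ρ : Fin P → Fin g → Fin W, (ham (level M (winOf hP W) (sr hPW ρ)) M : ℝ))
      ≤ ∑ ρ : Fin P → Fin g → Fin W,
          (∑ a : Fin P, ∑ x : Fin W, (errF (lineF M hPW a) x (ρ a) : ℝ) + P * n) :=
        Finset.sum_le_sum fun ρ _ => h1 ρ
    _ = ∑ a : Fin P, ∑ ρ : Fin P → Fin g → Fin W, ∑ x : Fin W,
          (errF (lineF M hPW a) x (ρ a) : ℝ)
        + (Fintype.card (Fin P → Fin g → Fin W) : ℝ) * (P * n) := by
        rw [Finset.sum_add_distrib, Finset.sum_comm]
        simp
    _ ≤ ∑ a : Fin P, ((Fintype.card (Fin P → Fin g → Fin W) : ℝ) *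
          ((g : ℝ) / W * ∑ x : Fin W, ∑ x' : Fin W, (mu (lineF M hPW a) x x' : ℝ)
            + W * n / (g + 1)))
        + (Fintype.card (Fin P → Fin g → Fin W) : ℝ) * (P * n) := by
        gcongr with a _
        exact h2 a
    _ = _ := by
        rw [← Finset.mul_sum, Finset.sum_add_distrib, ← Finset.mul_sum]
        simp only [Finset.sum_const, Finset.card_univ, Fintype.card_fin, nsmul_eq_mul]
        unfold Mu
        ring

lemma dif_le (F F' : Fin W → Fin n → Bool) (x x' : Fin W) :
    dif F' x x' ≤ dif F x x' + (univ.filter fun c => F' x c ≠ F x c).card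
      + (univ.filter fun c => F' x' c ≠ F x' c).card := by
  classical
  unfold dif
  have : (univ.filter fun y => F' x y = true ∧ F' x' y = false)
      ⊆ (univ.filter fun y => F x y = true ∧ F x' y = false)
        ∪ (univ.filter fun c => F' x c ≠ F x c) ∪ (univ.filter fun c => F' x' c ≠ F x' c) := by
    intro y hy
    simp only [mem_filter, mem_univ, true_and, mem_union] at hy ⊢
    obtain ⟨h1, h2⟩ := hy
    rw [h1, h2]
    cases F x y <;> cases F x' y <;> simp
  calc _ ≤ _ := Finset.card_le_card this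
    _ ≤ _ := Finset.card_union_le _ _
    _ ≤ _ := by
      gcongr
      exact Finset.card_union_le _ _

lemma mu_le (F F' : Fin W → Fin n → Bool) (x x' : Fin W) :
    mu F' x x' ≤ mu F x x' + (univ.filter fun c => F' x c ≠ F x c).card
      + (univ.filter fun c => F' x' c ≠ F x' c).card := by
  have h1 := dif_le F F' x x'
  have h2 := dif_le F F' x' x
  unfold mu
  rcases le_total (dif F x x') (dif F x' x) with h | h
  · rw [min_eq_left h]
    exact (min_le_left _ _).trans h1
  · rw [min_eq_right h]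
    have : dif F' x' x ≤ dif F x' x + (univ.filter fun c => F' x c ≠ F x c).card
      + (univ.filter fun c => F' x' c ≠ F x' c).card := by omega
    exact (min_le_right _ _).trans this

/-- The non-nestedness is Lipschitz in the Hamming distance. -/
lemma Mu_le (M M' : Mat n) (hPW : P * W ≤ n) :
    Mu M' hPW ≤ Mu M hPW + 2 * W * ham M' M := by
  classical
  let d : Fin n → ℕ := fun i => (univ.filter fun c => M' i c ≠ M i c).card
  have h1 : ∀ (a : Fin P) (x x' : Fin W), (mu (lineF M' hPW a) x x' : ℝ)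
      ≤ mu (lineF M hPW a) x x' + d (rowOf hPW a x) + d (rowOf hPW a x') := by
    intro a x x'
    exact_mod_cast mu_le (lineF M hPW a) (lineF M' hPW a) x x'
  have h2 : ∀ a : Fin P, ∑ x : Fin W, ∑ x' : Fin W,
      ((d (rowOf hPW a x) : ℝ) + d (rowOf hPW a x'))
        = 2 * W * ∑ x : Fin W, (d (rowOf hPW a x) : ℝ) := by
    intro a
    simp_rw [Finset.sum_add_distrib]
    simp only [Finset.sum_const, Finset.card_univ, Fintype.card_fin, nsmul_eq_mul]
    rw [← Finset.mul_sum]
    ring
  have h3 : (∑ a : Fin P, ∑ x : Fin W, (d (rowOf hPW a x) : ℝ)) ≤ ham M' M := by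
    have := windows_le_sum hPW d
    unfold ham
    exact_mod_cast this
  have hW0 : (0 : ℝ) ≤ 2 * W := by positivity
  calc Mu M' hPW = ∑ a : Fin P, ∑ x : Fin W, ∑ x' : Fin W, (mu (lineF M' hPW a) x x' : ℝ) := rfl
    _ ≤ ∑ a : Fin P, ∑ x : Fin W, ∑ x' : Fin W,
          ((mu (lineF M hPW a) x x' : ℝ) + (d (rowOf hPW a x) + d (rowOf hPW a x'))) := by
        gcongr with a _ x _ x' _
        have := h1 a x x'
        linarith
    _ = Mu M hPW + ∑ a : Fin P, (2 * W * ∑ x : Fin W, (d (rowOf hPW a x) : ℝ)) := by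
        unfold Mu
        rw [← Finset.sum_add_distrib]
        refine Finset.sum_congr rfl fun a _ => ?_
        rw [← h2 a, ← Finset.sum_add_distrib]
        refine Finset.sum_congr rfl fun x _ => ?_
        rw [← Finset.sum_add_distrib]
    _ ≤ _ := by
        rw [← Finset.mul_sum]
        gcongr

lemma ham_tr (A B : Mat n) : ham (tr A) (tr B) = ham A B := by
  classical
  unfold ham tr
  simp only [Finset.card_filter]
  rw [Finset.sum_comm]

end Vale.Agent.Lib.P037
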