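import Mathlib

/-!
Abstract level lemma: a line is compared with the threshold levels of a sample of lines.
-/

namespace Vale.Agent.Lib.P037

open Finset

section Marginal

variable {ι X : Type*} [Fintype ι] [DecidableEq ι] [Fintype X] [DecidableEq X]

/-- Averaging a function of a single coordinate. -/
lemma marg (t : ι) (f : X → ℝ) :
    (Fintype.card X : ℝ) * ∑ u : ι → X, f (u t) = (Fintype.card (ι → X) : ℝ) * ∑ x, f x := by
  classical
  have e := Equiv.funSplitAt t X
  have h1 : ∑ u : ι → X, f (u t) = ∑ p : X × ({j // j ≠ t} → X), f p.1 := by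
    refine Fintype.sum_equiv (Equiv.funSplitAt t X) _ _ ?_
    intro u
    simp [Equiv.funSplitAt, Equiv.piSplitAt]
  have h2 : Fintype.card (ι → X) = Fintype.card X * Fintype.card ({j // j ≠ t} → X) := by
    rw [Fintype.card_congr (Equiv.funSplitAt t X), Fintype.card_prod]
  rw [h1, Fintype.sum_prod_type]
  simp only [Finset.sum_const, Finset.card_univ, nsmul_eq_mul]
  rw [h2]
  push_cast
  have : ∑ x : X, (Fintype.card ({j // j ≠ t} → X) : ℝ) * f x
      = (Fintype.card ({j // j ≠ t} → X) : ℝ) * ∑ x, f x := by
    rw [Finset.mul_sum]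
  rw [this]
  ring

/-- Averaging a function of two distinct coordinates. -/
lemma marg2 {s t : ι} (hst : s ≠ t) (f : X → X → ℝ) :
    (Fintype.card X : ℝ) ^ 2 * ∑ u : ι → X, f (u s) (u t)
      = (Fintype.card (ι → X) : ℝ) * ∑ x, ∑ y, f x y := by
  classical
  have h1 : ∑ u : ι → X, f (u s) (u t)
      = ∑ p : X × ({j // j ≠ s} → X), f p.1 (p.2 ⟨t, hst.symm⟩) := by
    refine Fintype.sum_equiv (Equiv.funSplitAt s X) _ _ ?_
    intro u
    simp [Equiv.funSplitAt, Equiv.piSplitAt]
  have h2 : Fintype.card (ι → X) = Fintype.card X * Fintype.card ({j // j ≠ s} → X) := by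
    rw [Fintype.card_congr (Equiv.funSplitAt s X), Fintype.card_prod]
  rw [h1, Fintype.sum_prod_type]
  have h3 : ∀ x : X, (Fintype.card X : ℝ) * ∑ w : {j // j ≠ s} → X, f x (w ⟨t, hst.symm⟩)
      = (Fintype.card ({j // j ≠ s} → X) : ℝ) * ∑ y, f x y := fun x =>
    marg (ι := {j // j ≠ s}) ⟨t, hst.symm⟩ (f x)
  calc (Fintype.card X : ℝ) ^ 2 * ∑ x, ∑ w : {j // j ≠ s} → X, f x (w ⟨t, hst.symm⟩)
      = (Fintype.card X : ℝ) * ∑ x, ((Fintype.card X : ℝ)
          * ∑ w : {j // j ≠ s} → X, f x (w ⟨t, hst.symm⟩)) := by
        rw [← Finset.mul_sum]; ring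
    _ = (Fintype.card X : ℝ) * ∑ x, ((Fintype.card ({j // j ≠ s} → X) : ℝ) * ∑ y, f x y) := by
        simp_rw [h3]
    _ = _ := by
        rw [h2, ← Finset.mul_sum]; push_cast; ring

end Marginal

section Level

variable {X Y : Type*} [Fintype X] [DecidableEq X] [Fintype Y] [DecidableEq Y]

/-- Number of ones of a line. -/
def sz (F : X → Y → Bool) (x : X) : ℕ := (univ.filter fun y => F x y = true).card

/-- Ones of `x` that are zeros of `x'`. -/
def dif (F : X → Y → Bool) (x x' : X) : ℕ := (univ.filter fun y => F x y = true ∧ F x' y = false).card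

/-- The non-nestedness of two lines. -/
def mu (F : X → Y → Bool) (x x' : X) : ℕ := min (dif F x x') (dif F x' x)

lemma sz_eq (F : X → Y → Bool) (x x' : X) :
    sz F x = (univ.filter fun y => F x y = true ∧ F x' y = true).card + dif F x x' := by
  unfold sz dif
  rw [← Finset.card_union_of_disjoint]
  · congr 1
    ext y
    simp only [mem_filter, mem_univ, true_and, mem_union]
    cases F x y <;> cases F x' y <;> simp
  · rw [Finset.disjoint_left]
    intro y hy hy'
    simp only [mem_filter, mem_univ, true_and] at hy hy'
    rw [hy.2] at hy'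
    simp at hy'

lemma dif_le_of_sz_le {F : X → Y → Bool} {x x' : X} (h : sz F x ≤ sz F x') :
    dif F x x' ≤ dif F x' x := by
  have h1 := sz_eq F x x'
  have h2 := sz_eq F x' x
  have h3 : (univ.filter fun y => F x y = true ∧ F x' y = true)
      = (univ.filter fun y => F x' y = true ∧ F x y = true) := by
    ext y; simp [and_comm]
  rw [h3] at h1
  omega

variable {g : ℕ}

/-- The level of the line `x` among the sample `u`. -/
def lvl (F : X → Y → Bool) (x : X) (u : Fin g → X) : ℕ :=
  (univ.filter fun t => sz F x ≤ sz F (u t)).card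

/-- Number of sample lines that contain the coordinate `y`. -/
def cnt (F : X → Y → Bool) (u : Fin g → X) (y : Y) : ℕ :=
  (univ.filter fun t => F (u t) y = true).card

/-- The error of the level approximation. -/
def errF (F : X → Y → Bool) (x : X) (u : Fin g → X) : ℕ :=
  (univ.filter fun y => decide (lvl F x u ≤ cnt F u y) ≠ F x y).card

/-- The gap event. -/
def gapSet (F : X → Y → Bool) (x : X) (u : Fin g → X) : Finset Y :=
  univ.filter fun y => F x y = false ∧ ∀ t, sz F x ≤ sz F (u t) → F (u t) y = true

lemma errF_le (F : X → Y → Bool) (x : X) (u : Fin g → X) :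
    errF F x u ≤ ∑ t, mu F x (u t) + (gapSet F x u).card := by
  classical
  -- the set attached to a sample index
  let S : Fin g → Finset Y := fun t =>
    if sz F x ≤ sz F (u t) then univ.filter fun y => F x y = true ∧ F (u t) y = false
    else univ.filter fun y => F (u t) y = true ∧ F x y = false
  have hS : ∀ t, (S t).card = mu F x (u t) := by
    intro t
    simp only [S]
    split_ifs with h
    · have := dif_le_of_sz_le h
      unfold mu
      rw [min_eq_left this]
      rfl
    · have h' : sz F (u t) ≤ sz F x := by omega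
      have := dif_le_of_sz_le h'
      unfold mu
      rw [min_eq_right this]
      rfl
  have hsub : (univ.filter fun y => decide (lvl F x u ≤ cnt F u y) ≠ F x y)
      ⊆ (univ.biUnion S) ∪ gapSet F x u := by
    intro y hy
    simp only [mem_filter, mem_univ, true_and] at hy
    by_cases hxy : F x y = true
    · -- one in x, level says zero
      rw [hxy] at hy
      have hlt : cnt F u y < lvl F x u := by
        by_contra hc
        exact hy (by simpa using (not_lt.mp hc))
      -- some big sample line misses y
      have : ∃ t, sz F x ≤ sz F (u t) ∧ F (u t) y = false := by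
        by_contra hc
        push Not at hc
        have hsub : (univ.filter fun t => sz F x ≤ sz F (u t))
            ⊆ (univ.filter fun t => F (u t) y = true) := by
          intro t ht
          simp only [mem_filter, mem_univ, true_and] at ht ⊢
          have := hc t ht
          cases hv : F (u t) y <;> simp_all
        have := Finset.card_le_card hsub
        unfold cnt lvl at hlt
        omega
      obtain ⟨t, ht, hft⟩ := this
      apply mem_union_left
      refine mem_biUnion.mpr ⟨t, mem_univ _, ?_⟩
      simp only [S, if_pos ht, mem_filter, mem_univ, true_and]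
      exact ⟨hxy, hft⟩
    · have hxy' : F x y = false := by cases hv : F x y <;> simp_all
      rw [hxy'] at hy
      have hle : lvl F x u ≤ cnt F u y := by
        by_contra hc
        exact hy (by simpa using hc)
      by_cases hex : ∃ t, sz F (u t) < sz F x ∧ F (u t) y = true
      · obtain ⟨t, ht, hft⟩ := hex
        apply mem_union_left
        refine mem_biUnion.mpr ⟨t, mem_univ _, ?_⟩
        have : ¬ sz F x ≤ sz F (u t) := by omega
        simp only [S, if_neg this, mem_filter, mem_univ, true_and]
        exact ⟨hft, hxy'⟩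
      · push Not at hex
        apply mem_union_right
        simp only [gapSet, mem_filter, mem_univ, true_and]
        refine ⟨hxy', ?_⟩
        -- the ones of y all lie in U, and the count forces equality
        have hsub : (univ.filter fun t => F (u t) y = true)
            ⊆ (univ.filter fun t => sz F x ≤ sz F (u t)) := by
          intro t ht
          simp only [mem_filter, mem_univ, true_and] at ht ⊢
          by_contra hc
          have := hex t (by omega)
          rw [ht] at this
          simp at this
        have heq := Finset.eq_of_subset_of_card_le hsub (by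
          unfold cnt lvl at hle
          exact hle)
        intro t ht
        have : t ∈ (univ.filter fun t => sz F x ≤ sz F (u t)) := by
          simp only [mem_filter, mem_univ, true_and]; exact ht
        rw [← heq] at this
        simpa using this
  calc errF F x u ≤ ((univ.biUnion S) ∪ gapSet F x u).card := Finset.card_le_card hsub
    _ ≤ (univ.biUnion S).card + (gapSet F x u).card := Finset.card_union_le _ _
    _ ≤ ∑ t, (S t).card + (gapSet F x u).card := by
        gcongr
        exact Finset.card_biUnion_le
    _ = _ := by simp_rw [hS]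

/-- At most one line of a tuple can be in the gap event at a given coordinate. -/
lemma gap_sum_le (F : X → Y → Bool) (z : Fin (g + 1) → X) :
    ∑ a, (gapSet F (z a) (fun t => z (a.succAbove t))).card ≤ Fintype.card Y := by
  classical
  have h1 : ∀ a, (gapSet F (z a) (fun t => z (a.succAbove t))).card
      = ∑ y, if y ∈ gapSet F (z a) (fun t => z (a.succAbove t)) then 1 else 0 := by
    intro a
    rw [Finset.sum_boole]
    simp
  simp_rw [h1]
  rw [Finset.sum_comm]
  have h2 : ∀ y : Y, ∑ a, (if y ∈ gapSet F (z a) (fun t => z (a.succAbove t)) then 1 else 0) ≤ 1 := by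
    intro y
    rw [Finset.sum_boole]
    simp only [Nat.cast_id]
    rw [Finset.card_le_one]
    intro a ha b hb
    simp only [mem_filter, mem_univ, true_and, gapSet] at ha hb
    by_contra hab
    -- one of the two lines is at least as large
    rcases le_total (sz F (z a)) (sz F (z b)) with h | h
    · -- b appears in the sample of a
      obtain ⟨t, ht⟩ := Fin.exists_succAbove_eq (x := b) (y := a) (Ne.symm hab)
      have := ha.2 t (by rw [ht]; exact h)
      rw [ht, hb.1] at this
      simp at this
    · obtain ⟨t, ht⟩ := Fin.exists_succAbove_eq (x := a) (y := b) hab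
      have := hb.2 t (by rw [ht]; exact h)
      rw [ht, ha.1] at this
      simp at this
  calc ∑ y, ∑ a, (if y ∈ gapSet F (z a) (fun t => z (a.succAbove t)) then 1 else 0)
      ≤ ∑ _y : Y, 1 := Finset.sum_le_sum fun y _ => h2 y
    _ = Fintype.card Y := by simp

/-- Exchangeability: the total gap over line and sample. -/
lemma gap_total (F : X → Y → Bool) :
    (g + 1) * ∑ x, ∑ u : Fin g → X, (gapSet F x u).card
      ≤ Fintype.card (Fin (g + 1) → X) * Fintype.card Y := by
  classical
  have h1 : ∀ a : Fin (g + 1),
      ∑ z : Fin (g + 1) → X, (gapSet F (z a) (fun t => z (a.succAbove t))).card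
        = ∑ x, ∑ u : Fin g → X, (gapSet F x u).card := by
    intro a
    rw [← Fintype.sum_prod_type']
    refine (Fintype.sum_equiv (Fin.insertNthEquiv (fun _ => X) a) _ _ ?_).symm
    intro p
    simp [Fin.insertNthEquiv]
  calc (g + 1) * ∑ x, ∑ u : Fin g → X, (gapSet F x u).card
      = ∑ _a : Fin (g + 1), ∑ x, ∑ u : Fin g → X, (gapSet F x u).card := by simp
    _ = ∑ a : Fin (g + 1), ∑ z : Fin (g + 1) → X,
          (gapSet F (z a) (fun t => z (a.succAbove t))).card := by simp_rw [h1]
    _ = ∑ z : Fin (g + 1) → X, ∑ a : Fin (g + 1),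
          (gapSet F (z a) (fun t => z (a.succAbove t))).card := Finset.sum_comm
    _ ≤ ∑ _z : Fin (g + 1) → X, Fintype.card Y := Finset.sum_le_sum fun z _ => gap_sum_le F z
    _ = _ := by simp

/-- The averaged level error. -/
lemma avg_err (F : X → Y → Bool) (hX : 0 < Fintype.card X) :
    (∑ u : Fin g → X, ∑ x, (errF F x u : ℝ))
      ≤ (Fintype.card (Fin g → X) : ℝ) *
        ((g : ℝ) / Fintype.card X * ∑ x, ∑ x', (mu F x x' : ℝ)
          + Fintype.card X * Fintype.card Y / (g + 1)) := by
  classical
  have hX' : (0 : ℝ) < Fintype.card X := by exact_mod_cast hX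
  have hcard : (Fintype.card (Fin (g + 1) → X) : ℝ)
      = (Fintype.card X : ℝ) * Fintype.card (Fin g → X) := by
    simp [Fintype.card_fun, pow_succ]
    ring
  have h1 : ∀ (u : Fin g → X) (x : X), (errF F x u : ℝ)
      ≤ ∑ t, (mu F x (u t) : ℝ) + ((gapSet F x u).card : ℝ) := by
    intro u x
    exact_mod_cast errF_le F x u
  have h2 : ∀ (x : X) (t : Fin g), ∑ u : Fin g → X, (mu F x (u t) : ℝ)
      = (Fintype.card (Fin g → X) : ℝ) / Fintype.card X * ∑ x', (mu F x x' : ℝ) := by
    intro x t
    have := marg (ι := Fin g) (X := X) t (fun x' => (mu F x x' : ℝ))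
    field_simp
    linarith
  have h3 : (∑ x, ∑ u : Fin g → X, ((gapSet F x u).card : ℝ))
      ≤ (Fintype.card (Fin g → X) : ℝ) * (Fintype.card X * Fintype.card Y / (g + 1)) := by
    have := gap_total (g := g) F
    have h' : ((g : ℝ) + 1) * ∑ x, ∑ u : Fin g → X, ((gapSet F x u).card : ℝ)
        ≤ (Fintype.card (Fin (g + 1) → X) : ℝ) * Fintype.card Y := by
      exact_mod_cast this
    rw [hcard] at h'
    have hg : (0 : ℝ) < (g : ℝ) + 1 := by positivity
    rw [mul_div_assoc', le_div_iff₀ hg]
    linarith
  calc (∑ u : Fin g → X, ∑ x, (errF F x u : ℝ))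
      ≤ ∑ u : Fin g → X, ∑ x, (∑ t, (mu F x (u t) : ℝ) + ((gapSet F x u).card : ℝ)) :=
        Finset.sum_le_sum fun u _ => Finset.sum_le_sum fun x _ => h1 u x
    _ = ∑ x, ∑ t, ∑ u : Fin g → X, (mu F x (u t) : ℝ)
        + ∑ x, ∑ u : Fin g → X, ((gapSet F x u).card : ℝ) := by
        simp_rw [Finset.sum_add_distrib]
        congr 1
        · rw [Finset.sum_comm]
          refine Finset.sum_congr rfl fun x _ => ?_
          rw [Finset.sum_comm]
        · rw [Finset.sum_comm]
    _ ≤ ∑ x, ∑ _t : Fin g, (Fintype.card (Fin g → X) : ℝ) / Fintype.card X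
          * ∑ x', (mu F x x' : ℝ)
        + (Fintype.card (Fin g → X) : ℝ) * (Fintype.card X * Fintype.card Y / (g + 1)) := by
        gcongr with x _ t _
        exact (h2 x t).le
    _ = _ := by
        simp only [Finset.sum_const, Finset.card_univ, Fintype.card_fin, nsmul_eq_mul]
        rw [← Finset.mul_sum]
        rw [mul_add]
        congr 1
        rw [← Finset.mul_sum]
        field_simp

end Level

end Vale.Agent.Lib.P037
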