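import Vale.Agent.Lib.P037.Cross

/-!
Assembly: few copies give a nearby free matrix.
-/

namespace Vale.Agent.Lib.P037

open Finset

variable {n P W g g' : ℕ}

lemma Nq_tr (A : Mat n) : Nq (tr A) = Nq A := by
  classical
  unfold Nq
  rw [Finset.sum_comm]
  refine Finset.sum_congr rfl fun r _ => Finset.sum_congr rfl fun c _ => ?_
  have : Pat (tr A) c.1 c.2 r.1 r.2 ↔ Pat A r.1 r.2 c.1 c.2 := by
    simp only [Pat, tr]
    tauto
  exact if_congr this rfl rfl

lemma ham_triangle (A B C : Mat n) : ham A C ≤ ham A B + ham B C := by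
  classical
  unfold ham
  rw [← Finset.sum_add_distrib]
  refine Finset.sum_le_sum fun i _ => ?_
  calc _ ≤ ((univ.filter fun c => A i c ≠ B i c) ∪ (univ.filter fun c => B i c ≠ C i c)).card := by
        apply Finset.card_le_card
        intro c hc
        simp only [mem_filter, mem_univ, true_and, mem_union] at hc ⊢
        by_contra h
        push Not at h
        exact hc (h.1.trans h.2)
    _ ≤ _ := Finset.card_union_le _ _

lemma tr_tr (A : Mat n) : tr (tr A) = A := rfl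

/-- First level matrix. -/
def TT (A : Mat n) (hP : 0 < P) (hPW : P * W ≤ n) (ρ : Fin P → Fin g → Fin W) : Mat n :=
  level A (winOf hP W) (sr hPW ρ)

/-- Second level matrix, transposed back. -/
def BB (A : Mat n) (hP : 0 < P) (hPW : P * W ≤ n) (ρ : Fin P → Fin g → Fin W)
    (κ : Fin P → Fin g' → Fin W) : Mat n :=
  tr (level (tr (TT A hP hPW ρ)) (winOf hP W) (sr hPW κ))

lemma BB_free (A : Mat n) (hP : 0 < P) (hPW : P * W ≤ n) (ρ : Fin P → Fin g → Fin W)
    (κ : Fin P → Fin g' → Fin W) (hc : cross A hPW ρ κ < 1) : Free (BB A hP hPW ρ κ) := by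
  classical
  have hBc : BB A hP hPW ρ κ = coarse A (winOf hP W) (sr hPW ρ) (sr hPW κ)
      (lvM A (winOf hP W) (sr hPW ρ)) (lvM (tr (TT A hP hPW ρ)) (winOf hP W) (sr hPW κ)) := by
    funext i j
    simp only [BB, TT, tr, level, coarse, decide_eq_true_eq]
    congr!
  rw [hBc]
  apply coarse_free A (winOf hP W) (winOf_mono hP W)
  intro a a' b b' t t' s s' ha hb hp
  have := one_le_cross A hPW ρ κ ha hb t t' s s' hp
  linarith

/-- The column step for a fixed row sample. -/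
lemma col_step (A : Mat n) (hP : 0 < P) (hW : 0 < W) (hPW : P * W ≤ n) (hn : n < P * (W + 1))
    (ρ : Fin P → Fin g → Fin W) :
    (∑ κ : Fin P → Fin g' → Fin W, (ham (BB A hP hPW ρ κ) A : ℝ))
      ≤ (Fintype.card (Fin P → Fin g' → Fin W) : ℝ) *
        ((g' : ℝ) / W * Mu (tr A) hPW + (2 * g' + 1) * ham (TT A hP hPW ρ) A
          + P * W * n / (g' + 1) + P * n) := by
  classical
  have hWR : (0 : ℝ) < W := by exact_mod_cast hW
  set T := TT A hP hPW ρ with hT
  have h1 := avg_ham_level (g := g') (tr T) hP hW hPW hn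
  have h2 : Mu (tr T) hPW ≤ Mu (tr A) hPW + 2 * W * ham T A := by
    have := Mu_le (tr A) (tr T) hPW
    rwa [ham_tr] at this
  have h3 : (g' : ℝ) / W * Mu (tr T) hPW ≤ (g' : ℝ) / W * Mu (tr A) hPW + 2 * g' * ham T A := by
    calc (g' : ℝ) / W * Mu (tr T) hPW
        ≤ (g' : ℝ) / W * (Mu (tr A) hPW + 2 * W * ham T A) := by gcongr
      _ = _ := by field_simp
  have h4 : ∀ κ : Fin P → Fin g' → Fin W, (ham (BB A hP hPW ρ κ) A : ℝ)
      ≤ (ham (level (tr T) (winOf hP W) (sr hPW κ)) (tr T) : ℝ) + ham T A := by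
    intro κ
    have e : ham (BB A hP hPW ρ κ) T = ham (level (tr T) (winOf hP W) (sr hPW κ)) (tr T) := by
      have := ham_tr (level (tr T) (winOf hP W) (sr hPW κ)) (tr T)
      rwa [tr_tr] at this
    have := ham_triangle (BB A hP hPW ρ κ) T A
    rw [e] at this
    exact_mod_cast this
  calc (∑ κ : Fin P → Fin g' → Fin W, (ham (BB A hP hPW ρ κ) A : ℝ))
      ≤ ∑ κ : Fin P → Fin g' → Fin W,
          ((ham (level (tr T) (winOf hP W) (sr hPW κ)) (tr T) : ℝ) + ham T A) :=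
        Finset.sum_le_sum fun κ _ => h4 κ
    _ = (∑ κ : Fin P → Fin g' → Fin W, (ham (level (tr T) (winOf hP W) (sr hPW κ)) (tr T) : ℝ))
        + (Fintype.card (Fin P → Fin g' → Fin W) : ℝ) * ham T A := by
        rw [Finset.sum_add_distrib]
        simp
    _ ≤ (Fintype.card (Fin P → Fin g' → Fin W) : ℝ) *
          ((g' : ℝ) / W * Mu (tr T) hPW + P * W * n / (g' + 1) + P * n)
        + (Fintype.card (Fin P → Fin g' → Fin W) : ℝ) * ham T A := by
        gcongr
    _ ≤ (Fintype.card (Fin P → Fin g' → Fin W) : ℝ) *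
          (((g' : ℝ) / W * Mu (tr A) hPW + 2 * g' * ham T A) + P * W * n / (g' + 1) + P * n)
        + (Fintype.card (Fin P → Fin g' → Fin W) : ℝ) * ham T A := by
        gcongr
    _ = _ := by ring

/-- The doubly averaged distance. -/
lemma avg_total (A : Mat n) (hP : 0 < P) (hW : 0 < W) (hPW : P * W ≤ n) (hn : n < P * (W + 1)) :
    (∑ ρ : Fin P → Fin g → Fin W, ∑ κ : Fin P → Fin g' → Fin W, (ham (BB A hP hPW ρ κ) A : ℝ))
      ≤ (Fintype.card (Fin P → Fin g → Fin W) : ℝ) * (Fintype.card (Fin P → Fin g' → Fin W) : ℝ) *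
        ((g' : ℝ) / W * Mu (tr A) hPW
          + (2 * g' + 1) * ((g : ℝ) / W * Mu A hPW + P * W * n / (g + 1) + P * n)
          + P * W * n / (g' + 1) + P * n) := by
  classical
  have hrow : (∑ ρ : Fin P → Fin g → Fin W, (ham (TT A hP hPW ρ) A : ℝ))
      ≤ (Fintype.card (Fin P → Fin g → Fin W) : ℝ) *
        ((g : ℝ) / W * Mu A hPW + P * W * n / (g + 1) + P * n) :=
    avg_ham_level A hP hW hPW hn
  set Cρ := (Fintype.card (Fin P → Fin g → Fin W) : ℝ) with hCρ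
  set Cκ := (Fintype.card (Fin P → Fin g' → Fin W) : ℝ) with hCκ
  set e1 := (g : ℝ) / W * Mu A hPW + P * W * n / (g + 1) + P * n with he1
  set t := (g' : ℝ) / W * Mu (tr A) hPW + P * W * n / (g' + 1) + P * n with ht
  calc _ ≤ ∑ ρ : Fin P → Fin g → Fin W,
        (Cκ * ((g' : ℝ) / W * Mu (tr A) hPW + (2 * g' + 1) * ham (TT A hP hPW ρ) A
          + P * W * n / (g' + 1) + P * n)) :=
        Finset.sum_le_sum fun ρ _ => col_step A hP hW hPW hn ρ
    _ = Cκ * ((2 * (g' : ℝ) + 1) * (∑ ρ : Fin P → Fin g → Fin W, (ham (TT A hP hPW ρ) A : ℝ))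
          + Cρ * t) := by
        rw [← Finset.mul_sum]
        congr 1
        have : ∀ ρ : Fin P → Fin g → Fin W,
            (g' : ℝ) / W * Mu (tr A) hPW + (2 * g' + 1) * (ham (TT A hP hPW ρ) A : ℝ)
              + P * W * n / (g' + 1) + P * n
            = (2 * (g' : ℝ) + 1) * (ham (TT A hP hPW ρ) A : ℝ) + t := fun ρ => by
          rw [ht]; ring
        simp_rw [this]
        rw [Finset.sum_add_distrib, ← Finset.mul_sum]
        simp [hCρ]
    _ ≤ Cκ * ((2 * (g' : ℝ) + 1) * (Cρ * e1) + Cρ * t) := by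
        gcongr
    _ = _ := by rw [ht]; ring

/-- Existence from the two averages. -/
lemma exists_of_avg (A : Mat n) (hP : 0 < P) (hPW : P * W ≤ n) (L tot : ℝ) (hL : 0 ≤ L)
    (htot : (∑ ρ : Fin P → Fin g → Fin W, ∑ κ : Fin P → Fin g' → Fin W,
        (ham (BB A hP hPW ρ κ) A : ℝ))
      ≤ (Fintype.card (Fin P → Fin g → Fin W) : ℝ) * (Fintype.card (Fin P → Fin g' → Fin W) : ℝ)
        * tot)
    (hLt : tot * L ≤ 1 / 2)
    (hcr : (∑ ρ : Fin P → Fin g → Fin W, ∑ κ : Fin P → Fin g' → Fin W, cross A hPW ρ κ)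
      < (Fintype.card (Fin P → Fin g → Fin W) : ℝ) * (Fintype.card (Fin P → Fin g' → Fin W) : ℝ)
        * (1 / 2))
    (hC : 0 < (Fintype.card (Fin P → Fin g → Fin W) : ℝ)
      * (Fintype.card (Fin P → Fin g' → Fin W) : ℝ)) :
    ∃ B : Mat n, Free B ∧ (ham B A : ℝ) * L < 1 := by
  classical
  set Cρ := (Fintype.card (Fin P → Fin g → Fin W) : ℝ) with hCρ
  set Cκ := (Fintype.card (Fin P → Fin g' → Fin W) : ℝ) with hCκ
  have hsum : (∑ ρ : Fin P → Fin g → Fin W, ∑ κ : Fin P → Fin g' → Fin W,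
      ((ham (BB A hP hPW ρ κ) A : ℝ) * L + cross A hPW ρ κ)) < Cρ * Cκ := by
    simp_rw [Finset.sum_add_distrib]
    have h1 : (∑ ρ : Fin P → Fin g → Fin W, ∑ κ : Fin P → Fin g' → Fin W,
        (ham (BB A hP hPW ρ κ) A : ℝ) * L) ≤ Cρ * Cκ * (tot * L) := by
      simp_rw [← Finset.sum_mul]
      calc _ ≤ (Cρ * Cκ * tot) * L := by gcongr
        _ = _ := by ring
    have h5 : Cρ * Cκ * (tot * L) ≤ Cρ * Cκ * (1 / 2) := by gcongr
    linarith
  have hex : ∃ (ρ : Fin P → Fin g → Fin W) (κ : Fin P → Fin g' → Fin W),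
      (ham (BB A hP hPW ρ κ) A : ℝ) * L + cross A hPW ρ κ < 1 := by
    by_contra hc
    push Not at hc
    have : Cρ * Cκ ≤ ∑ ρ : Fin P → Fin g → Fin W, ∑ κ : Fin P → Fin g' → Fin W,
        ((ham (BB A hP hPW ρ κ) A : ℝ) * L + cross A hPW ρ κ) := by
      calc Cρ * Cκ = ∑ _ρ : Fin P → Fin g → Fin W, ∑ _κ : Fin P → Fin g' → Fin W, (1 : ℝ) := by
            simp [hCρ, hCκ]
        _ ≤ _ := Finset.sum_le_sum fun ρ _ => Finset.sum_le_sum fun κ _ => hc ρ κ
    linarith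
  obtain ⟨ρ, κ, hval⟩ := hex
  have hc0 := cross_nonneg A hPW ρ κ
  have hh0 : 0 ≤ (ham (BB A hP hPW ρ κ) A : ℝ) * L := by positivity
  exact ⟨BB A hP hPW ρ κ, BB_free A hP hPW ρ κ (by linarith), by linarith⟩

/-- The parameters. -/
def parQ (K : ℕ) : ℕ := 332928 * K ^ 4
def parP (K : ℕ) : ℕ := parQ K ^ 2
def parg (K : ℕ) : ℕ := 408 * K ^ 2
def pargp (K : ℕ) : ℕ := 8 * K
def parN0 (K : ℕ) : ℕ := 408 * K ^ 2 * parP K
def parD (K : ℕ) : ℕ := 32 * parg K ^ 2 * pargp K ^ 2 * parP K ^ 4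

/-- The numerical estimate on the total error. -/
lemma numeric_total {K Q P W n M1 M2 : ℝ} (hK : 1 ≤ K) (hQ : Q = 332928 * K ^ 4)
    (hP : P = Q ^ 2) (hW : 0 < W) (hn : 0 < n) (hPW : P * W ≤ n)
    (hWge : 408 * K ^ 2 ≤ W) (hM10 : 0 ≤ M1) (hM1 : M1 ≤ 2 * Q * n * W ^ 2)
    (hM2 : M2 ≤ 2 * Q * n * W ^ 2) :
    (8 * K / W * M2
      + (2 * (8 * K) + 1) * (408 * K ^ 2 / W * M1 + P * W * n / (408 * K ^ 2 + 1) + P * n)
      + P * W * n / (8 * K + 1) + P * n) * (2 * K) ≤ n ^ 2 := by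
  have hK0 : 0 < K := by linarith
  have hQpos : 0 < Q := by rw [hQ]; positivity
  have hPpos : 0 < P := by rw [hP]; positivity
  have hQQ : Q * (Q * W) * n ≤ n * n := by
    have : Q * (Q * W) = P * W := by rw [hP]; ring
    rw [this]
    gcongr
  have ha : 0 < 408 * K ^ 2 := by positivity
  have hX1a : (408 * K ^ 2 / W * M1) * (408 * K ^ 2) ≤ n ^ 2 := by
    have hle : 408 * K ^ 2 / W * M1 ≤ 2 * (408 * K ^ 2) * Q * n * W := by
      rw [div_mul_eq_mul_div, div_le_iff₀ hW]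
      calc 408 * K ^ 2 * M1 ≤ 408 * K ^ 2 * (2 * Q * n * W ^ 2) := by gcongr
        _ = _ := by ring
    calc (408 * K ^ 2 / W * M1) * (408 * K ^ 2)
        ≤ (2 * (408 * K ^ 2) * Q * n * W) * (408 * K ^ 2) := by gcongr
      _ = Q * (Q * W) * n := by rw [hQ]; ring
      _ ≤ n * n := hQQ
      _ = _ := by ring
  have hX2a : (P * W * n / (408 * K ^ 2 + 1)) * (408 * K ^ 2) ≤ n ^ 2 := by
    have hg1 : 0 < 408 * K ^ 2 + 1 := by positivity
    rw [div_mul_eq_mul_div, div_le_iff₀ hg1]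
    have h1 : P * W * n ≤ n * n := by gcongr
    calc P * W * n * (408 * K ^ 2) ≤ (n * n) * (408 * K ^ 2 + 1) := by
          gcongr
          linarith
      _ = _ := by ring
  have hPle : P * (408 * K ^ 2) ≤ n := by
    have : P * (408 * K ^ 2) ≤ P * W := by gcongr
    linarith
  have hX3a : (P * n) * (408 * K ^ 2) ≤ n ^ 2 := by
    have h0 : (P * n) * (408 * K ^ 2) = (P * (408 * K ^ 2)) * n := by ring
    have h00 : n ^ 2 = n * n := sq n
    rw [h0, h00]
    exact mul_le_mul_of_nonneg_right hPle hn.le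
  set e1 := 408 * K ^ 2 / W * M1 + P * W * n / (408 * K ^ 2 + 1) + P * n with he1
  have he1a : e1 * (408 * K ^ 2) ≤ 3 * n ^ 2 := by
    rw [he1, add_mul, add_mul]
    linarith
  have ht1a : (8 * K / W * M2) * (8 * K) ≤ n ^ 2 := by
    have hle : 8 * K / W * M2 ≤ 2 * (8 * K) * Q * n * W := by
      rw [div_mul_eq_mul_div, div_le_iff₀ hW]
      calc 8 * K * M2 ≤ 8 * K * (2 * Q * n * W ^ 2) := by gcongr
        _ = _ := by ring
    have h128 : 128 * K ^ 2 ≤ Q := by
      rw [hQ]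
      have : K ^ 2 ≤ K ^ 4 := pow_le_pow_right₀ hK (by norm_num)
      nlinarith
    calc (8 * K / W * M2) * (8 * K) ≤ (2 * (8 * K) * Q * n * W) * (8 * K) := by gcongr
      _ = (128 * K ^ 2) * (Q * W) * n := by ring
      _ ≤ Q * (Q * W) * n := by gcongr
      _ ≤ n * n := hQQ
      _ = _ := by ring
  have ht3a : (P * W * n / (8 * K + 1)) * (8 * K) ≤ n ^ 2 := by
    have hg1 : 0 < 8 * K + 1 := by positivity
    rw [div_mul_eq_mul_div, div_le_iff₀ hg1]
    have h1 : P * W * n ≤ n * n := by gcongr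
    calc P * W * n * (8 * K) ≤ (n * n) * (8 * K + 1) := by
          gcongr
          linarith
      _ = _ := by ring
  have hX3b : (P * n) * (8 * K) ≤ n ^ 2 := by
    have h2 : 8 * K ≤ 408 * K ^ 2 := by nlinarith
    calc (P * n) * (8 * K) ≤ (P * n) * (408 * K ^ 2) := by gcongr
      _ ≤ _ := hX3a
  have he10 : 0 ≤ e1 := by
    rw [he1]
    positivity
  have he1b : (2 * (8 * K) + 1) * e1 * (8 * K) ≤ n ^ 2 := by
    have h1 : 2 * (8 * K) + 1 ≤ 17 * K := by linarith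
    calc (2 * (8 * K) + 1) * e1 * (8 * K) ≤ (17 * K) * e1 * (8 * K) := by gcongr
      _ = (e1 * (408 * K ^ 2)) / 3 := by ring
      _ ≤ (3 * n ^ 2) / 3 := by gcongr
      _ = _ := by ring
  have hsum : (8 * K / W * M2 + (2 * (8 * K) + 1) * e1 + P * W * n / (8 * K + 1) + P * n) * (2 * K)
      = ((8 * K / W * M2) * (8 * K) + (2 * (8 * K) + 1) * e1 * (8 * K)
        + (P * W * n / (8 * K + 1)) * (8 * K) + (P * n) * (8 * K)) / 4 := by ring
  rw [hsum]
  linarith

/-- The numerical estimate on the copies. -/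
lemma numeric_copy {g g' P W n N : ℝ} (hP : 0 < P)
    (hD : 32 * g ^ 2 * g' ^ 2 * P ^ 4 * N < n ^ 4) (hnW : n ^ 4 ≤ 16 * P ^ 4 * W ^ 4) :
    g ^ 2 * g' ^ 2 * N < W ^ 4 / 2 := by
  have hP4 : 0 < P ^ 4 := by positivity
  have h1 := hD.trans_le hnW
  have h2 : P ^ 4 * (2 * (g ^ 2 * g' ^ 2 * N)) < P ^ 4 * W ^ 4 := by nlinarith
  have h3 := lt_of_mul_lt_mul_left h2 hP4.le
  linarith

lemma Mu_nonneg (M : Mat n) (hPW : P * W ≤ n) : 0 ≤ Mu M hPW := by
  unfold Mu
  positivity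

theorem exists_free (K : ℕ) (hK : 1 ≤ K) (A : Mat n) (hn : parN0 K ≤ n)
    (hD : parD K * Nq A < n ^ 4) :
    ∃ B : Mat n, Free B ∧ (ham B A : ℝ) * K < (n : ℝ) ^ 2 := by
  classical
  have hKR : (1 : ℝ) ≤ K := by exact_mod_cast hK
  have hQ0 : 0 < parQ K := by unfold parQ; positivity
  have hP0 : 0 < parP K := by unfold parP; positivity
  set W := n / parP K with hWdef
  have hPW : parP K * W ≤ n := Nat.mul_div_le n _
  have hnlt : n < parP K * (W + 1) := by
    have := Nat.lt_mul_div_succ n hP0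
    simpa [hWdef] using this
  have hWge : 408 * K ^ 2 ≤ W := by
    rw [hWdef]
    apply (Nat.le_div_iff_mul_le hP0).mpr
    exact hn
  have hW0 : 0 < W := by
    have : 0 < 408 * K ^ 2 := by positivity
    omega
  have hn2 : n ≤ 2 * (parP K * W) := by
    have h1 : parP K * (W + 1) = parP K * W + parP K := by ring
    have h2 : parP K ≤ parP K * W := Nat.le_mul_of_pos_right _ hW0
    omega
  have hn0 : 0 < n := by
    have := Nat.mul_pos hP0 hW0
    omega
  have hWR : (0 : ℝ) < W := by exact_mod_cast hW0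
  have hnR : (0 : ℝ) < n := by exact_mod_cast hn0
  have hN8 : 8 * parP K ^ 2 * Nq A ≤ n ^ 4 := by
    have h1 : 8 * parP K ^ 2 ≤ parD K := by
      unfold parD
      have hg1 : 1 ≤ parg K ^ 2 := by
        unfold parg; exact Nat.one_le_pow _ _ (by positivity)
      have hg2 : 1 ≤ pargp K ^ 2 := by
        unfold pargp; exact Nat.one_le_pow _ _ (by positivity)
      have hP1 : parP K ^ 2 ≤ parP K ^ 4 := Nat.pow_le_pow_right hP0 (by norm_num)
      calc 8 * parP K ^ 2 ≤ 32 * 1 * 1 * parP K ^ 4 := by omega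
        _ ≤ 32 * parg K ^ 2 * pargp K ^ 2 * parP K ^ 4 := by gcongr
    exact (Nat.mul_le_mul_right _ h1).trans hD.le
  have hMuA : Mu A hPW ≤ 2 * parQ K * n * W ^ 2 := Mu_bound A hPW hn2 (parQ K) rfl hQ0 hN8
  have hMuT : Mu (tr A) hPW ≤ 2 * parQ K * n * W ^ 2 :=
    Mu_bound (tr A) hPW hn2 (parQ K) rfl hQ0 (by rw [Nq_tr]; exact hN8)
  have hgR : (parg K : ℝ) = 408 * K ^ 2 := by unfold parg; push_cast; ring
  have hg'R : (pargp K : ℝ) = 8 * K := by unfold pargp; push_cast; ring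
  have hQR : (parQ K : ℝ) = 332928 * K ^ 4 := by unfold parQ; push_cast; ring
  have hPR : (parP K : ℝ) = (parQ K : ℝ) ^ 2 := by unfold parP; push_cast; rfl
  have hPWR : (parP K : ℝ) * W ≤ n := by exact_mod_cast hPW
  have hWgeR : 408 * (K : ℝ) ^ 2 ≤ W := by exact_mod_cast hWge
  have hnum := numeric_total hKR hQR hPR hWR hnR hPWR hWgeR (Mu_nonneg A hPW) hMuA hMuT
  rw [← hgR, ← hg'R] at hnum
  have hav := avg_total (g := parg K) (g' := pargp K) A hP0 hW0 hPW hnlt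
  have hcr := avg_cross (g := parg K) (g' := pargp K) A hPW hW0
  have hCρ0 : 0 < (Fintype.card (Fin (parP K) → Fin (parg K) → Fin W) : ℝ) := by
    have : 0 < Fintype.card (Fin (parP K) → Fin (parg K) → Fin W) := by
      simp only [Fintype.card_fun, Fintype.card_fin]
      positivity
    exact_mod_cast this
  have hCκ0 : 0 < (Fintype.card (Fin (parP K) → Fin (pargp K) → Fin W) : ℝ) := by
    have : 0 < Fintype.card (Fin (parP K) → Fin (pargp K) → Fin W) := by
      simp only [Fintype.card_fun, Fintype.card_fin]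
      positivity
    exact_mod_cast this
  have hDreal : (32 : ℝ) * (parg K : ℝ) ^ 2 * (pargp K : ℝ) ^ 2 * (parP K : ℝ) ^ 4 * (Nq A : ℝ)
      < (n : ℝ) ^ 4 := by
    have : ((parD K * Nq A : ℕ) : ℝ) < ((n ^ 4 : ℕ) : ℝ) := by exact_mod_cast hD
    unfold parD at this
    push_cast at this
    exact this
  have hnW : (n : ℝ) ^ 4 ≤ 16 * (parP K : ℝ) ^ 4 * (W : ℝ) ^ 4 := by
    have h1 : (n : ℝ) ≤ 2 * (parP K * W) := by exact_mod_cast hn2
    calc (n : ℝ) ^ 4 ≤ (2 * (parP K * W)) ^ 4 := by gcongr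
      _ = _ := by ring
  have hPpos : (0 : ℝ) < parP K := by exact_mod_cast hP0
  have hcopy := numeric_copy hPpos hDreal hnW
  have hn2pos : (0 : ℝ) < (n : ℝ) ^ 2 := by positivity
  have hW4 : (0 : ℝ) < (W : ℝ) ^ 4 := by positivity
  have hcr2 : (∑ ρ : Fin (parP K) → Fin (parg K) → Fin W,
      ∑ κ : Fin (parP K) → Fin (pargp K) → Fin W, cross A hPW ρ κ)
      < (Fintype.card (Fin (parP K) → Fin (parg K) → Fin W) : ℝ)
        * (Fintype.card (Fin (parP K) → Fin (pargp K) → Fin W) : ℝ) * (1 / 2) := by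
    have h4 : (W : ℝ) ^ 4 * (∑ ρ : Fin (parP K) → Fin (parg K) → Fin W,
        ∑ κ : Fin (parP K) → Fin (pargp K) → Fin W, cross A hPW ρ κ)
        < (W : ℝ) ^ 4 * ((Fintype.card (Fin (parP K) → Fin (parg K) → Fin W) : ℝ)
          * (Fintype.card (Fin (parP K) → Fin (pargp K) → Fin W) : ℝ) * (1 / 2)) := by
      refine hcr.trans_lt ?_
      calc _ < (Fintype.card (Fin (parP K) → Fin (parg K) → Fin W) : ℝ)
            * (Fintype.card (Fin (parP K) → Fin (pargp K) → Fin W) : ℝ) * ((W : ℝ) ^ 4 / 2) := by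
            gcongr
        _ = _ := by ring
    exact lt_of_mul_lt_mul_left h4 hW4.le
  have hK0 : (0 : ℝ) ≤ (K : ℝ) / (n : ℝ) ^ 2 := by positivity
  have hLt : ((pargp K : ℝ) / W * Mu (tr A) hPW
      + (2 * (pargp K : ℝ) + 1) * ((parg K : ℝ) / W * Mu A hPW
        + parP K * W * n / ((parg K : ℝ) + 1) + parP K * n)
      + parP K * W * n / ((pargp K : ℝ) + 1) + parP K * n) * ((K : ℝ) / (n : ℝ) ^ 2) ≤ 1 / 2 := by
    rw [mul_div_assoc', div_le_iff₀ hn2pos]
    linarith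
  obtain ⟨B, hB, hB2⟩ := exists_of_avg A hP0 hPW _ _ hK0 hav hLt hcr2 (by positivity)
  refine ⟨B, hB, ?_⟩
  rw [mul_div_assoc', div_lt_iff₀ hn2pos] at hB2
  linarith

end Vale.Agent.Lib.P037
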