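import Vale.Agent.Lib.P037.Errors

/-!
Few copies force the rows inside a window to be nearly nested.
-/

namespace Vale.Agent.Lib.P037

open Finset

variable {n P W : ℕ}

lemma sum_sum_split {m : ℕ} (h : Fin m → Fin m → ℝ) :
    ∑ a, ∑ b, h a b = ∑ a, h a a + ∑ w ∈ ipairs m, (h w.1 w.2 + h w.2 w.1) := by
  classical
  have h1 : ∀ a b : Fin m, h a b = (if a = b then h a b else 0)
      + (if a < b then h a b else 0) + (if b < a then h a b else 0) := by
    intro a b
    rcases lt_trichotomy a b with hl | he | hg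
    · simp [hl, hl.ne, hl.le.not_gt]
    · subst he; simp
    · simp [hg, hg.ne', hg.le.not_gt]
  have h2 : ∑ a : Fin m, ∑ b : Fin m, (if a = b then h a b else 0) = ∑ a, h a a := by
    refine Finset.sum_congr rfl fun a _ => ?_
    simp
  have h3 : ∑ a : Fin m, ∑ b : Fin m, (if a < b then h a b else 0)
      = ∑ w ∈ ipairs m, h w.1 w.2 := by
    unfold ipairs
    rw [Finset.sum_filter, Fintype.sum_prod_type]
  have h4 : ∑ a : Fin m, ∑ b : Fin m, (if b < a then h a b else 0)
      = ∑ w ∈ ipairs m, h w.2 w.1 := by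
    rw [Finset.sum_comm]
    unfold ipairs
    rw [Finset.sum_filter, Fintype.sum_prod_type]
  calc ∑ a, ∑ b, h a b = ∑ a, ∑ b, ((if a = b then h a b else 0)
        + (if a < b then h a b else 0) + (if b < a then h a b else 0)) :=
        Finset.sum_congr rfl fun a _ => Finset.sum_congr rfl fun b _ => h1 a b
    _ = _ := by
        simp_rw [Finset.sum_add_distrib]
        rw [h2, h3, h4]
        ring

/-- The key inequality for two sequences that are nearly sorted. -/
lemma seq_ineq {m : ℕ} (p q : Fin m → ℝ) (V : ℝ) (hV : 0 ≤ V)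
    (hp : ∀ a, 0 ≤ p a) (hq : ∀ a, 0 ≤ q a) (hpV : ∀ a, p a ≤ V) (hqV : ∀ a, q a ≤ V) :
    ∑ a, p a * q a ≤ V ^ 2 + V * Real.sqrt (2 * ∑ w ∈ ipairs m, p w.1 * q w.2) := by
  classical
  set C := ∑ w ∈ ipairs m, p w.1 * q w.2 with hC
  let r : Fin m → ℝ := fun a => min (p a) (q a)
  have hr0 : ∀ a, 0 ≤ r a := fun a => le_min (hp a) (hq a)
  have hrV : ∀ a, r a ≤ V := fun a => (min_le_left _ _).trans (hpV a)
  set X := ∑ a, r a with hX
  have hX0 : 0 ≤ X := Finset.sum_nonneg fun a _ => hr0 a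
  have hsq : X ^ 2 ≤ V * X + 2 * C := by
    have h1 : X ^ 2 = ∑ a, ∑ b, r a * r b := by
      rw [hX, sq, Finset.sum_mul_sum]
    have h2 := sum_sum_split (fun a b => r a * r b)
    have h3 : ∑ a, r a * r a ≤ V * X := by
      rw [hX, Finset.mul_sum]
      refine Finset.sum_le_sum fun a _ => ?_
      exact mul_le_mul_of_nonneg_right (hrV a) (hr0 a)
    have h4 : ∑ w ∈ ipairs m, (r w.1 * r w.2 + r w.2 * r w.1) ≤ 2 * C := by
      rw [hC, Finset.mul_sum]
      refine Finset.sum_le_sum fun w _ => ?_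
      have : r w.1 * r w.2 ≤ p w.1 * q w.2 :=
        mul_le_mul (min_le_left _ _) (min_le_right _ _) (hr0 _) (hp _)
      linarith [mul_comm (r w.1) (r w.2)]
    rw [h1, h2]
    linarith
  have hX2 : X ≤ V + Real.sqrt (2 * C) := by
    by_cases hle : X ≤ V
    · have := Real.sqrt_nonneg (2 * C)
      linarith
    · have hlt : V < X := not_le.mp hle
      have : (X - V) ^ 2 ≤ 2 * C := by nlinarith
      have h2 : X - V ≤ Real.sqrt (2 * C) := by
        apply Real.le_sqrt_of_sq_le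
        exact this
      linarith
  have hpq : ∑ a, p a * q a ≤ V * X := by
    rw [hX, Finset.mul_sum]
    refine Finset.sum_le_sum fun a _ => ?_
    show p a * q a ≤ V * min (p a) (q a)
    rcases le_total (p a) (q a) with h | h
    · rw [min_eq_left h]
      nlinarith [hp a, hqV a]
    · rw [min_eq_right h]
      nlinarith [hq a, hpV a]
  calc _ ≤ V * X := hpq
    _ ≤ V * (V + Real.sqrt (2 * C)) := by gcongr
    _ = _ := by ring

/-- Rows with a one at `c` and a zero at `d`. -/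
def pc (A : Mat n) (hPW : P * W ≤ n) (a : Fin P) (c d : Fin n) : ℕ :=
  (univ.filter fun x : Fin W => A (rowOf hPW a x) c = true ∧ A (rowOf hPW a x) d = false).card

lemma dif_mul_dif (A : Mat n) (hPW : P * W ≤ n) (a : Fin P) :
    ∑ x : Fin W, ∑ x' : Fin W,
        (dif (lineF A hPW a) x x' : ℝ) * (dif (lineF A hPW a) x' x : ℝ)
      = ∑ c : Fin n, ∑ d : Fin n, (pc A hPW a c d : ℝ) * (pc A hPW a d c : ℝ) := by
  classical
  have h1 : ∀ x x' : Fin W, (dif (lineF A hPW a) x x' : ℝ) * (dif (lineF A hPW a) x' x : ℝ)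
      = ∑ c : Fin n, ∑ d : Fin n,
        (if A (rowOf hPW a x) c = true ∧ A (rowOf hPW a x') c = false then (1 : ℝ) else 0)
        * (if A (rowOf hPW a x') d = true ∧ A (rowOf hPW a x) d = false then (1 : ℝ) else 0) := by
    intro x x'
    unfold dif lineF
    simp only [Finset.card_filter]
    push_cast
    rw [Finset.sum_mul_sum]
  have h2 : ∀ c d : Fin n, (pc A hPW a c d : ℝ) * (pc A hPW a d c : ℝ)
      = ∑ x : Fin W, ∑ x' : Fin W,
        (if A (rowOf hPW a x) c = true ∧ A (rowOf hPW a x') c = false then (1 : ℝ) else 0)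
        * (if A (rowOf hPW a x') d = true ∧ A (rowOf hPW a x) d = false then (1 : ℝ) else 0) := by
    intro c d
    unfold pc
    simp only [Finset.card_filter]
    push_cast
    rw [Finset.sum_mul_sum]
    refine Finset.sum_congr rfl fun x _ => Finset.sum_congr rfl fun x' _ => ?_
    cases A (rowOf hPW a x) c <;> cases A (rowOf hPW a x) d <;>
      cases A (rowOf hPW a x') c <;> cases A (rowOf hPW a x') d <;> simp
  simp_rw [h1, h2]
  calc _ = ∑ x : Fin W, ∑ c : Fin n, ∑ d : Fin n, ∑ x' : Fin W,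
        (if A (rowOf hPW a x) c = true ∧ A (rowOf hPW a x') c = false then (1 : ℝ) else 0)
        * (if A (rowOf hPW a x') d = true ∧ A (rowOf hPW a x) d = false then (1 : ℝ) else 0) := by
        refine Finset.sum_congr rfl fun x _ => ?_
        rw [Finset.sum_comm]
        refine Finset.sum_congr rfl fun c _ => Finset.sum_comm
    _ = ∑ c : Fin n, ∑ x : Fin W, ∑ d : Fin n, ∑ x' : Fin W,
        (if A (rowOf hPW a x) c = true ∧ A (rowOf hPW a x') c = false then (1 : ℝ) else 0)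
        * (if A (rowOf hPW a x') d = true ∧ A (rowOf hPW a x) d = false then (1 : ℝ) else 0) :=
        Finset.sum_comm
    _ = _ := Finset.sum_congr rfl fun c _ => Finset.sum_comm

/-- Copies of the pattern on the fixed columns `c`, `d`. -/
def Ncol (A : Mat n) (c d : Fin n) : ℕ :=
  ∑ r ∈ ipairs n, if Pat A r.1 r.2 c d then 1 else 0

lemma cross_le (A : Mat n) (hPW : P * W ≤ n) (c d : Fin n) :
    ∑ w ∈ ipairs P, (pc A hPW w.1 c d : ℝ) * (pc A hPW w.2 d c : ℝ) ≤ Ncol A c d := by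
  classical
  have h1 : ∀ w : Fin P × Fin P, (pc A hPW w.1 c d : ℝ) * (pc A hPW w.2 d c : ℝ)
      = ∑ x : Fin W, ∑ x' : Fin W,
        (fun r : Fin n × Fin n => if Pat A r.1 r.2 c d then (1 : ℝ) else 0)
          (rowOf hPW w.1 x, rowOf hPW w.2 x') := by
    intro w
    unfold pc
    simp only [Finset.card_filter]
    push_cast
    rw [Finset.sum_mul_sum]
    refine Finset.sum_congr rfl fun x _ => Finset.sum_congr rfl fun x' _ => ?_
    have key : ∀ a b c' d' : Bool, (if a = true ∧ b = false then (1 : ℝ) else 0)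
        * (if d' = true ∧ c' = false then (1 : ℝ) else 0)
        = if a = true ∧ b = false ∧ c' = false ∧ d' = true then (1 : ℝ) else 0 := by
      intro a b c' d'
      cases a <;> cases b <;> cases c' <;> cases d' <;> simp
    refine (key _ _ _ _).trans ?_
    exact if_congr Iff.rfl rfl rfl
  simp_rw [h1]
  have := sum_ipairs_le hPW (fun r : Fin n × Fin n => if Pat A r.1 r.2 c d then (1 : ℝ) else 0)
    (fun p => by split_ifs <;> norm_num)
  refine this.trans ?_
  unfold Ncol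
  push_cast
  exact le_refl _

lemma pc_le (A : Mat n) (hPW : P * W ≤ n) (a : Fin P) (c d : Fin n) :
    (pc A hPW a c d : ℝ) ≤ W := by
  unfold pc
  have : (univ.filter fun x : Fin W => A (rowOf hPW a x) c = true ∧
      A (rowOf hPW a x) d = false).card ≤ W := by
    calc _ ≤ (univ : Finset (Fin W)).card := Finset.card_filter_le _ _
      _ = W := by simp
  exact_mod_cast this

lemma one_pair (A : Mat n) (hPW : P * W ≤ n) (c d : Fin n) :
    ∑ a : Fin P, (pc A hPW a c d : ℝ) * (pc A hPW a d c : ℝ)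
      ≤ (W : ℝ) ^ 2 + W * Real.sqrt (2 * Ncol A c d) := by
  have h := seq_ineq (fun a : Fin P => (pc A hPW a c d : ℝ)) (fun a => (pc A hPW a d c : ℝ))
    (W : ℝ) (by positivity) (fun a => by positivity) (fun a => by positivity)
    (fun a => pc_le A hPW a c d) (fun a => pc_le A hPW a d c)
  refine h.trans ?_
  gcongr
  exact cross_le A hPW c d

lemma card_ipairs_le : ((ipairs n).card : ℝ) ≤ (n : ℝ) ^ 2 := by
  have : (ipairs n).card ≤ n ^ 2 := by
    unfold ipairs
    calc _ ≤ (univ : Finset (Fin n × Fin n)).card := Finset.card_filter_le _ _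
      _ = n ^ 2 := by simp [sq]
  exact_mod_cast this

lemma sum_Ncol (A : Mat n) :
    ∑ c ∈ ipairs n, (Ncol A c.1 c.2 : ℝ) = Nq A := by
  unfold Ncol Nq
  push_cast
  rw [Finset.sum_comm]

/-- Sum of the squares of the non-nestedness. -/
lemma sum_mu_sq (A : Mat n) (hPW : P * W ≤ n) :
    ∑ a : Fin P, ∑ x : Fin W, ∑ x' : Fin W, (mu (lineF A hPW a) x x' : ℝ) ^ 2
      ≤ 2 * ((n : ℝ) ^ 2 * W ^ 2 + W * (n * Real.sqrt (2 * Nq A))) := by
  classical
  have h1 : ∀ (a : Fin P) (x x' : Fin W), (mu (lineF A hPW a) x x' : ℝ) ^ 2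
      ≤ (dif (lineF A hPW a) x x' : ℝ) * (dif (lineF A hPW a) x' x : ℝ) := by
    intro a x x'
    have : mu (lineF A hPW a) x x' ^ 2 ≤ dif (lineF A hPW a) x x' * dif (lineF A hPW a) x' x := by
      unfold mu
      rcases le_total (dif (lineF A hPW a) x x') (dif (lineF A hPW a) x' x) with h | h
      · rw [min_eq_left h, sq]; exact Nat.mul_le_mul_left _ h
      · rw [min_eq_right h, sq]; exact Nat.mul_le_mul_right _ h
    exact_mod_cast this
  let G : Fin n → Fin n → ℝ := fun c d => ∑ a : Fin P, (pc A hPW a c d : ℝ) * (pc A hPW a d c : ℝ)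
  have hdiag : ∀ c, G c c = 0 := by
    intro c
    simp only [G]
    refine Finset.sum_eq_zero fun a _ => ?_
    have : pc A hPW a c c = 0 := by
      unfold pc
      rw [Finset.card_eq_zero, Finset.filter_eq_empty_iff]
      intro x _ h
      rw [h.1] at h
      simp at h
    simp [this]
  have hsymm : ∀ c d, G d c = G c d := by
    intro c d
    simp only [G]
    refine Finset.sum_congr rfl fun a _ => ?_
    ring
  have hG : ∀ w ∈ ipairs n, G w.1 w.2 ≤ (W : ℝ) ^ 2 + W * Real.sqrt (2 * Ncol A w.1 w.2) :=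
    fun w _ => one_pair A hPW w.1 w.2
  have hsum : (∑ w ∈ ipairs n, Real.sqrt (2 * Ncol A w.1 w.2)) ≤ n * Real.sqrt (2 * Nq A) := by
    have hcs := sq_sum_le_card_mul_sum_sq (s := ipairs n)
      (f := fun w : Fin n × Fin n => Real.sqrt (2 * Ncol A w.1 w.2))
    have hsq : ∀ w : Fin n × Fin n, Real.sqrt (2 * Ncol A w.1 w.2) ^ 2 = 2 * Ncol A w.1 w.2 := by
      intro w
      exact Real.sq_sqrt (by positivity)
    simp_rw [hsq] at hcs
    rw [← Finset.mul_sum, sum_Ncol] at hcs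
    have h2 : (∑ w ∈ ipairs n, Real.sqrt (2 * Ncol A w.1 w.2)) ^ 2
        ≤ (n * Real.sqrt (2 * Nq A)) ^ 2 := by
      rw [mul_pow, Real.sq_sqrt (by positivity)]
      refine hcs.trans ?_
      gcongr
      exact card_ipairs_le
    exact (pow_le_pow_iff_left₀ (Finset.sum_nonneg fun _ _ => Real.sqrt_nonneg _) (by positivity) (by norm_num)).mp h2
  calc ∑ a : Fin P, ∑ x : Fin W, ∑ x' : Fin W, (mu (lineF A hPW a) x x' : ℝ) ^ 2
      ≤ ∑ a : Fin P, ∑ x : Fin W, ∑ x' : Fin W,
          (dif (lineF A hPW a) x x' : ℝ) * (dif (lineF A hPW a) x' x : ℝ) := by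
        gcongr with a _ x _ x' _
        exact h1 a x x'
    _ = ∑ a : Fin P, ∑ c : Fin n, ∑ d : Fin n, (pc A hPW a c d : ℝ) * (pc A hPW a d c : ℝ) :=
        Finset.sum_congr rfl fun a _ => dif_mul_dif A hPW a
    _ = ∑ c : Fin n, ∑ d : Fin n, G c d := by
        rw [Finset.sum_comm]
        refine Finset.sum_congr rfl fun c _ => ?_
        rw [Finset.sum_comm]
    _ = 2 * ∑ w ∈ ipairs n, G w.1 w.2 := by
        rw [sum_sum_split G]
        simp only [hdiag, Finset.sum_const_zero, zero_add]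
        rw [Finset.mul_sum]
        refine Finset.sum_congr rfl fun w _ => ?_
        rw [hsymm w.1 w.2]
        ring
    _ ≤ 2 * ∑ w ∈ ipairs n, ((W : ℝ) ^ 2 + W * Real.sqrt (2 * Ncol A w.1 w.2)) := by
        gcongr with w hw
        exact hG w hw
    _ = 2 * (((ipairs n).card : ℝ) * W ^ 2
          + W * ∑ w ∈ ipairs n, Real.sqrt (2 * Ncol A w.1 w.2)) := by
        rw [Finset.sum_add_distrib, ← Finset.mul_sum]
        simp
    _ ≤ _ := by
        have := card_ipairs_le (n := n)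
        gcongr

/-- The bound on the non-nestedness from few copies. -/
lemma Mu_bound (A : Mat n) (hPW : P * W ≤ n) (hn2 : n ≤ 2 * (P * W)) (Q : ℕ) (hQ : P = Q ^ 2)
    (hQ0 : 0 < Q) (hN : 8 * P ^ 2 * Nq A ≤ n ^ 4) :
    Mu A hPW ≤ 2 * Q * n * W ^ 2 := by
  classical
  have hPR : (P : ℝ) = (Q : ℝ) ^ 2 := by exact_mod_cast hQ
  have hQR : (0 : ℝ) < Q := by exact_mod_cast hQ0
  have hPpos : (0 : ℝ) < P := by rw [hPR]; positivity
  have hn2R : (n : ℝ) ≤ 2 * (P * W) := by exact_mod_cast hn2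
  have hNR : 8 * (P : ℝ) ^ 2 * Nq A ≤ (n : ℝ) ^ 4 := by exact_mod_cast hN
  -- the square root is at most nW
  have hsqrt : Real.sqrt (2 * Nq A) ≤ n * W := by
    apply Real.sqrt_le_iff.mpr
    refine ⟨by positivity, ?_⟩
    have h1 : (n : ℝ) ^ 2 ≤ (2 * (P * W)) ^ 2 := by
      gcongr
    have h2 : 4 * (P : ℝ) ^ 2 * (2 * Nq A) ≤ 4 * (P : ℝ) ^ 2 * (n * W) ^ 2 := by
      calc 4 * (P : ℝ) ^ 2 * (2 * Nq A) = 8 * (P : ℝ) ^ 2 * Nq A := by ring
        _ ≤ (n : ℝ) ^ 4 := hNR
        _ = (n : ℝ) ^ 2 * (n : ℝ) ^ 2 := by ring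
        _ ≤ (n : ℝ) ^ 2 * (2 * (P * W)) ^ 2 := by gcongr
        _ = _ := by ring
    have h3 : (0 : ℝ) < 4 * (P : ℝ) ^ 2 := by positivity
    exact le_of_mul_le_mul_left h2 h3
  have hsq := sum_mu_sq A hPW
  have hsq2 : ∑ a : Fin P, ∑ x : Fin W, ∑ x' : Fin W, (mu (lineF A hPW a) x x' : ℝ) ^ 2
      ≤ 4 * ((n : ℝ) ^ 2 * W ^ 2) := by
    refine hsq.trans ?_
    have : (W : ℝ) * (n * Real.sqrt (2 * Nq A)) ≤ W * (n * (n * W)) := by gcongr
    nlinarith
  -- Cauchy-Schwarz
  have hcs := sq_sum_le_card_mul_sum_sq (s := (univ : Finset (Fin P × Fin W × Fin W)))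
    (f := fun p => (mu (lineF A hPW p.1) p.2.1 p.2.2 : ℝ))
  have hconv : ∀ f : Fin P → Fin W → Fin W → ℝ,
      ∑ p : Fin P × Fin W × Fin W, f p.1 p.2.1 p.2.2 = ∑ a, ∑ x, ∑ x', f a x x' := by
    intro f
    rw [Fintype.sum_prod_type]
    refine Finset.sum_congr rfl fun a _ => ?_
    rw [Fintype.sum_prod_type]
  have e1 := hconv (fun a x x' => (mu (lineF A hPW a) x x' : ℝ))
  have e2 := hconv (fun a x x' => (mu (lineF A hPW a) x x' : ℝ) ^ 2)
  rw [e1, e2] at hcs
  have hcard : ((univ : Finset (Fin P × Fin W × Fin W)).card : ℝ) = P * W * W := by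
    simp
    ring
  rw [hcard] at hcs
  have hMu0 : 0 ≤ Mu A hPW := by
    unfold Mu
    positivity
  have hsq3 : Mu A hPW ^ 2 ≤ (2 * Q * n * W ^ 2) ^ 2 := by
    calc Mu A hPW ^ 2 ≤ P * W * W * ∑ a : Fin P, ∑ x : Fin W, ∑ x' : Fin W,
          (mu (lineF A hPW a) x x' : ℝ) ^ 2 := hcs
      _ ≤ P * W * W * (4 * ((n : ℝ) ^ 2 * W ^ 2)) := by gcongr
      _ = _ := by rw [hPR]; ring
  exact (pow_le_pow_iff_left₀ hMu0 (by positivity) (by norm_num)).mp hsq3

end Vale.Agent.Lib.P037
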