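import Vale.Agent.Lib.P037.Main

/-!
Patterns given by four booleans; symmetries of the removal statement.
-/

namespace Vale.Agent.Lib.P037

open Finset

variable {n : ℕ}

/-- The pattern with the four prescribed entries occurs at the given rows and columns. -/
def QPat (h : Bool × Bool × Bool × Bool) (A : Mat n) (r1 r2 c1 c2 : Fin n) : Prop :=
  A r1 c1 = h.1 ∧ A r1 c2 = h.2.1 ∧ A r2 c1 = h.2.2.1 ∧ A r2 c2 = h.2.2.2

instance (h : Bool × Bool × Bool × Bool) (A : Mat n) (r1 r2 c1 c2 : Fin n) :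
    Decidable (QPat h A r1 r2 c1 c2) := by
  unfold QPat; infer_instance

/-- Number of ordered copies. -/
def NH (h : Bool × Bool × Bool × Bool) (A : Mat n) : ℕ :=
  ∑ r ∈ ipairs n, ∑ c ∈ ipairs n, if QPat h A r.1 r.2 c.1 c.2 then 1 else 0

/-- No ordered copy. -/
def FreeH (h : Bool × Bool × Bool × Bool) (B : Mat n) : Prop :=
  ∀ r1 r2 c1 c2, r1 < r2 → c1 < c2 → ¬ QPat h B r1 r2 c1 c2

/-- The polynomial removal statement for a pattern. -/
def RemH (h : Bool × Bool × Bool × Bool) : Prop :=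
  ∃ c C : ℝ, 0 < c ∧ 0 < C ∧ ∀ (n : ℕ), 1 ≤ n → ∀ ε : ℝ, 0 < ε → ε < 1 → ∀ A : Mat n,
    (∀ B : Mat n, FreeH h B → ε * (n : ℝ) ^ 2 ≤ ham A B) →
      c * ε ^ C * (n : ℝ) ^ 4 ≤ NH h A

lemma ham_comm (A B : Mat n) : ham A B = ham B A := by
  unfold ham
  refine Finset.sum_congr rfl fun i _ => ?_
  congr 1
  ext c
  simp [eq_comm]

lemma ham_self (A : Mat n) : ham A A = 0 := by
  unfold ham
  simp

/-- A general symmetry principle: a bijection on matrices preserving distance, freeness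
and number of copies transports the statement. -/
lemma RemH_of_sym {h h' : Bool × Bool × Bool × Bool}
    (Φ : ∀ {n : ℕ}, Mat n → Mat n)
    (hinv : ∀ {n : ℕ} (A : Mat n), Φ (Φ A) = A)
    (hham : ∀ {n : ℕ} (A B : Mat n), ham (Φ A) (Φ B) = ham A B)
    (hfree : ∀ {n : ℕ} (B : Mat n), FreeH h B → FreeH h' (Φ B))
    (hN : ∀ {n : ℕ} (A : Mat n), NH h (Φ A) = NH h' A)
    (hR : RemH h) : RemH h' := by
  obtain ⟨c, C, hc, hC, H⟩ := hR
  refine ⟨c, C, hc, hC, fun n hn ε hε hε1 A hfar => ?_⟩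
  have := H n hn ε hε hε1 (Φ A) (fun B hB => by
    have h1 := hfar (Φ B) (hfree B hB)
    rw [← hham, hinv] at h1
    exact h1)
  rwa [hN] at this

/-- Complement. -/
def compl' (A : Mat n) : Mat n := fun i j => !(A i j)

lemma RemH_compl {h : Bool × Bool × Bool × Bool} (hR : RemH h) :
    RemH (!h.1, !h.2.1, !h.2.2.1, !h.2.2.2) := by
  have key : ∀ {n : ℕ} (A : Mat n) (r1 r2 c1 c2 : Fin n),
      QPat h (compl' A) r1 r2 c1 c2 ↔ QPat (!h.1, !h.2.1, !h.2.2.1, !h.2.2.2) A r1 r2 c1 c2 := by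
    intro n A r1 r2 c1 c2
    simp only [QPat, compl', Bool.not_eq_eq_eq_not]
  refine RemH_of_sym (fun A => compl' A) ?_ ?_ ?_ ?_ hR
  · intro n A
    funext i j
    simp [compl']
  · intro n A B
    unfold ham compl'
    simp
  · intro n B hB r1 r2 c1 c2 hr hc hq
    apply hB r1 r2 c1 c2 hr hc
    have := (key (compl' B) r1 r2 c1 c2).mpr hq
    have e : compl' (compl' B) = B := by funext i j; simp [compl']
    rwa [e] at this
  · intro n A
    unfold NH
    refine Finset.sum_congr rfl fun r _ => Finset.sum_congr rfl fun c _ => ?_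
    exact if_congr (key A _ _ _ _) rfl rfl

/-- Transpose. -/
lemma RemH_tr {h : Bool × Bool × Bool × Bool} (hR : RemH h) :
    RemH (h.1, h.2.2.1, h.2.1, h.2.2.2) := by
  have key : ∀ {n : ℕ} (A : Mat n) (r1 r2 c1 c2 : Fin n),
      QPat h (tr A) c1 c2 r1 r2 ↔ QPat (h.1, h.2.2.1, h.2.1, h.2.2.2) A r1 r2 c1 c2 := by
    intro n A r1 r2 c1 c2
    simp only [QPat, tr]
    tauto
  refine RemH_of_sym (fun A => tr A) ?_ ?_ ?_ ?_ hR
  · intro n A
    rfl
  · intro n A B
    exact ham_tr A B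
  · intro n B hB r1 r2 c1 c2 hr hc hq
    have := (key (tr B) r1 r2 c1 c2).mpr hq
    exact hB c1 c2 r1 r2 hc hr this
  · intro n A
    unfold NH
    rw [Finset.sum_comm]
    refine Finset.sum_congr rfl fun r _ => Finset.sum_congr rfl fun c _ => ?_
    exact if_congr (key A _ _ _ _) rfl rfl

/-- Reversal of the columns. -/
def revC (A : Mat n) : Mat n := fun i j => A i (Fin.rev j)

lemma sum_ipairs_rev (f : Fin n × Fin n → ℕ) :
    ∑ c ∈ ipairs n, f (Fin.rev c.2, Fin.rev c.1) = ∑ c ∈ ipairs n, f c := by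
  refine Finset.sum_nbij' (fun c => (Fin.rev c.2, Fin.rev c.1)) (fun c => (Fin.rev c.2, Fin.rev c.1))
    ?_ ?_ ?_ ?_ ?_
  · intro c hc
    simp only [ipairs, mem_filter, mem_univ, true_and] at hc ⊢
    exact Fin.rev_lt_rev.mpr hc
  · intro c hc
    simp only [ipairs, mem_filter, mem_univ, true_and] at hc ⊢
    exact Fin.rev_lt_rev.mpr hc
  · intro c _
    simp
  · intro c _
    simp
  · intro c _
    rfl

lemma RemH_revC {h : Bool × Bool × Bool × Bool} (hR : RemH h) :
    RemH (h.2.1, h.1, h.2.2.2, h.2.2.1) := by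
  have key : ∀ {n : ℕ} (A : Mat n) (r1 r2 c1 c2 : Fin n),
      QPat h (revC A) r1 r2 (Fin.rev c2) (Fin.rev c1)
        ↔ QPat (h.2.1, h.1, h.2.2.2, h.2.2.1) A r1 r2 c1 c2 := by
    intro n A r1 r2 c1 c2
    simp only [QPat, revC, Fin.rev_rev]
    tauto
  refine RemH_of_sym (fun A => revC A) ?_ ?_ ?_ ?_ hR
  · intro n A
    funext i j
    simp [revC]
  · intro n A B
    unfold ham revC
    refine Finset.sum_congr rfl fun i _ => ?_
    refine Finset.card_bij' (fun c _ => Fin.rev c) (fun c _ => Fin.rev c) ?_ ?_ ?_ ?_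
    · intro c hc
      simpa using hc
    · intro c hc
      simpa using hc
    · intro c _
      simp
    · intro c _
      simp
  · intro n B hB r1 r2 c1 c2 hr hc hq
    have h2 : Fin.rev c2 < Fin.rev c1 := Fin.rev_lt_rev.mpr hc
    apply hB r1 r2 (Fin.rev c2) (Fin.rev c1) hr h2
    have := (key (revC B) r1 r2 c1 c2).mpr
    have e : revC (revC B) = B := by funext i j; simp [revC]
    rw [e] at this
    refine (this ?_)
    exact hq
  · intro n A
    unfold NH
    refine Finset.sum_congr rfl fun r _ => ?_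
    rw [← sum_ipairs_rev]
    refine Finset.sum_congr rfl fun c _ => ?_
    exact if_congr (key A _ _ _ _) rfl rfl

lemma RemH_revR {h : Bool × Bool × Bool × Bool} (hR : RemH h) :
    RemH (h.2.2.1, h.2.2.2, h.1, h.2.1) := by
  -- transpose, reverse the columns, transpose back
  have h1 := RemH_tr (RemH_revC (RemH_tr hR))
  simpa using h1

end Vale.Agent.Lib.P037
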