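import Vale.Agent.Lib.P037.Level

/-!
Windows of rows; the threshold coarse-graining of a matrix.
-/

namespace Vale.Agent.Lib.P037

open Finset

abbrev Mat (n : ℕ) := Fin n → Fin n → Bool

/-- The pattern `[[1,0],[0,1]]`. -/
def Pat {n : ℕ} (A : Mat n) (r1 r2 c1 c2 : Fin n) : Prop :=
  A r1 c1 = true ∧ A r1 c2 = false ∧ A r2 c1 = false ∧ A r2 c2 = true

instance {n : ℕ} (A : Mat n) (r1 r2 c1 c2 : Fin n) : Decidable (Pat A r1 r2 c1 c2) := by
  unfold Pat; infer_instance

/-- No ordered copy of the pattern. -/
def Free {n : ℕ} (B : Mat n) : Prop :=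
  ∀ r1 r2 c1 c2, r1 < r2 → c1 < c2 → ¬ Pat B r1 r2 c1 c2

/-- Increasing pairs. -/
def ipairs (n : ℕ) : Finset (Fin n × Fin n) := univ.filter fun p => p.1 < p.2

/-- Number of ordered copies. -/
def Nq {n : ℕ} (A : Mat n) : ℕ :=
  ∑ r ∈ ipairs n, ∑ c ∈ ipairs n, if Pat A r.1 r.2 c.1 c.2 then 1 else 0

/-- Hamming distance between matrices. -/
def ham {n : ℕ} (A B : Mat n) : ℕ :=
  ∑ i, (univ.filter fun c => A i c ≠ B i c).card

/-- The transpose. -/
def tr {n : ℕ} (A : Mat n) : Mat n := fun i j => A j i

section Core

variable {n P g g' : ℕ}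

/-- Threshold coarse-graining: the matrix attached to samples `R`, `S` and levels `l`, `m`. -/
def coarse (A : Mat n) (win : Fin n → Fin P) (R : Fin P → Fin g → Fin n)
    (S : Fin P → Fin g' → Fin n) (l m : Fin n → ℕ) : Mat n := fun i j =>
  decide (m j ≤ (univ.filter fun s => l i ≤
    (univ.filter fun t => A (R (win i) t) (S (win j) s) = true).card).card)

/-- The coarse matrix is free as soon as the sample has no copy across windows. -/
lemma coarse_free (A : Mat n) (win : Fin n → Fin P) (hwin : Monotone win)
    (R : Fin P → Fin g → Fin n) (S : Fin P → Fin g' → Fin n) (l m : Fin n → ℕ)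
    (hno : ∀ a a' b b' t t' s s', a < a' → b < b' →
      ¬ Pat A (R a t) (R a' t') (S b s) (S b' s')) :
    Free (coarse A win R S l m) := by
  classical
  intro i i' j j' hi hj hpat
  obtain ⟨h1, h2, h3, h4⟩ := hpat
  simp only [coarse, decide_eq_true_eq, decide_eq_false_iff_not, not_le] at h1 h2 h3 h4
  -- antitonicity of the counts in the level
  have anti_l : ∀ (a b : Fin P) {L L' : ℕ}, L ≤ L' →
      (univ.filter fun s => L' ≤ (univ.filter fun t => A (R a t) (S b s) = true).card).card
      ≤ (univ.filter fun s => L ≤ (univ.filter fun t => A (R a t) (S b s) = true).card).card := by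
    intro a b L L' hL
    apply Finset.card_le_card
    intro s hs
    simp only [mem_filter, mem_univ, true_and] at hs ⊢
    omega
  have hai : win i ≤ win i' := hwin hi.le
  have hbj : win j ≤ win j' := hwin hj.le
  rcases hai.eq_or_lt with hae | hal
  · -- same row window
    rw [← hae] at h3 h4
    have hlt1 : l i < l i' := by
      by_contra hc
      have := anti_l (win i) (win j) (not_lt.mp hc)
      omega
    have hlt2 : l i' < l i := by
      by_contra hc
      have := anti_l (win i) (win j') (not_lt.mp hc)
      omega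
    omega
  rcases hbj.eq_or_lt with hbe | hbl
  · -- same column window
    rw [← hbe] at h2 h4
    omega
  · -- different windows: use the pigeonhole principle twice
    have e1 : ∃ s, l i ≤ (univ.filter fun t => A (R (win i) t) (S (win j) s) = true).card
        ∧ (univ.filter fun t => A (R (win i') t) (S (win j) s) = true).card < l i' := by
      by_contra hc
      push Not at hc
      have : (univ.filter fun s => l i ≤ (univ.filter fun t =>
            A (R (win i) t) (S (win j) s) = true).card)
          ⊆ (univ.filter fun s => l i' ≤ (univ.filter fun t =>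
            A (R (win i') t) (S (win j) s) = true).card) := by
        intro s hs
        simp only [mem_filter, mem_univ, true_and] at hs ⊢
        exact hc s hs
      have := Finset.card_le_card this
      omega
    have e2 : ∃ s, l i' ≤ (univ.filter fun t => A (R (win i') t) (S (win j') s) = true).card
        ∧ (univ.filter fun t => A (R (win i) t) (S (win j') s) = true).card < l i := by
      by_contra hc
      push Not at hc
      have : (univ.filter fun s => l i' ≤ (univ.filter fun t =>
            A (R (win i') t) (S (win j') s) = true).card)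
          ⊆ (univ.filter fun s => l i ≤ (univ.filter fun t =>
            A (R (win i) t) (S (win j') s) = true).card) := by
        intro s hs
        simp only [mem_filter, mem_univ, true_and] at hs ⊢
        exact hc s hs
      have := Finset.card_le_card this
      omega
    obtain ⟨s, hs1, hs2⟩ := e1
    obtain ⟨s', hs1', hs2'⟩ := e2
    -- two sample rows
    have e3 : ∃ t, A (R (win i) t) (S (win j) s) = true
        ∧ A (R (win i) t) (S (win j') s') = false := by
      by_contra hc
      push Not at hc
      have : (univ.filter fun t => A (R (win i) t) (S (win j) s) = true)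
          ⊆ (univ.filter fun t => A (R (win i) t) (S (win j') s') = true) := by
        intro t ht
        simp only [mem_filter, mem_univ, true_and] at ht ⊢
        have := hc t ht
        cases hv : A (R (win i) t) (S (win j') s') <;> simp_all
      have := Finset.card_le_card this
      omega
    have e4 : ∃ t, A (R (win i') t) (S (win j') s') = true
        ∧ A (R (win i') t) (S (win j) s) = false := by
      by_contra hc
      push Not at hc
      have : (univ.filter fun t => A (R (win i') t) (S (win j') s') = true)
          ⊆ (univ.filter fun t => A (R (win i') t) (S (win j) s) = true) := by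
        intro t ht
        simp only [mem_filter, mem_univ, true_and] at ht ⊢
        have := hc t ht
        cases hv : A (R (win i') t) (S (win j) s) <;> simp_all
      have := Finset.card_le_card this
      omega
    obtain ⟨t, ht1, ht2⟩ := e3
    obtain ⟨t', ht1', ht2'⟩ := e4
    exact hno _ _ _ _ t t' s s' hal hbl ⟨ht1, ht2, ht2', ht1'⟩

end Core

section Win

variable {n P W : ℕ}

/-- The `x`-th row of the `a`-th window. -/
def rowOf (hPW : P * W ≤ n) (a : Fin P) (x : Fin W) : Fin n :=
  ⟨a * W + x, by
    have hx := x.2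
    have ha := a.2
    have : (a.1 + 1) * W ≤ P * W := Nat.mul_le_mul_right _ ha
    have h2 : (a.1 + 1) * W = a.1 * W + W := by ring
    omega⟩

lemma rowOf_lt (hPW : P * W ≤ n) {a a' : Fin P} (h : a < a') (x x' : Fin W) :
    rowOf hPW a x < rowOf hPW a' x' := by
  have hx := x.2
  have : (a.1 + 1) * W ≤ a'.1 * W := Nat.mul_le_mul_right _ h
  have h2 : (a.1 + 1) * W = a.1 * W + W := by ring
  simp only [rowOf, Fin.lt_def]
  omega

lemma rowOf_inj (hPW : P * W ≤ n) {a a' : Fin P} {x x' : Fin W}
    (h : rowOf hPW a x = rowOf hPW a' x') : a = a' ∧ x = x' := by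
  rcases lt_trichotomy a a' with hl | he | hg
  · exact absurd h (rowOf_lt hPW hl x x').ne
  · subst he
    refine ⟨rfl, ?_⟩
    simp only [rowOf, Fin.mk.injEq] at h
    exact Fin.ext (by omega)
  · exact absurd h.symm (rowOf_lt hPW hg x' x).ne

/-- The window of a row; the rows beyond `P * W` go to the last window. -/
def winOf (hP : 0 < P) (W : ℕ) (i : Fin n) : Fin P :=
  ⟨min (i.1 / W) (P - 1), by omega⟩

lemma winOf_mono (hP : 0 < P) (W : ℕ) : Monotone (winOf (n := n) hP W) := by
  intro i j hij
  simp only [winOf, Fin.le_def]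
  have : i.1 / W ≤ j.1 / W := Nat.div_le_div_right (Fin.le_def.mp hij)
  omega

lemma winOf_rowOf (hP : 0 < P) (hW : 0 < W) (hPW : P * W ≤ n) (a : Fin P) (x : Fin W) :
    winOf hP W (rowOf hPW a x) = a := by
  have h1 : (a.1 * W + x.1) / W = a.1 := by
    rw [Nat.add_comm, Nat.add_mul_div_right _ _ hW, Nat.div_eq_of_lt x.2]
    simp
  apply Fin.ext
  simp only [winOf, rowOf]
  rw [h1]
  have := a.2
  omega

/-- A sum over all rows is controlled by the sums over the windows plus the leftover rows. -/
lemma sum_le_windows (hPW : P * W ≤ n) (hn : n < P * (W + 1)) (e : Fin n → ℕ)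
    (he : ∀ i, e i ≤ n) :
    ∑ i, e i ≤ ∑ a : Fin P, ∑ x : Fin W, e (rowOf hPW a x) + P * n := by
  classical
  let φ : Fin P × Fin W → Fin n := fun p => rowOf hPW p.1 p.2
  have hφ : Function.Injective φ := by
    intro p q h
    obtain ⟨h1, h2⟩ := rowOf_inj hPW h
    exact Prod.ext h1 h2
  have him : (univ.image φ).card = P * W := by
    rw [Finset.card_image_of_injective _ hφ]
    simp
  have h1 : ∑ i ∈ univ.image φ, e i = ∑ a : Fin P, ∑ x : Fin W, e (rowOf hPW a x) := by
    rw [Finset.sum_image (fun p _ q _ h => hφ h), Fintype.sum_prod_type]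
  have h2 : ∑ i ∈ (univ.image φ)ᶜ, e i ≤ P * n := by
    calc ∑ i ∈ (univ.image φ)ᶜ, e i ≤ ∑ _i ∈ (univ.image φ)ᶜ, n := Finset.sum_le_sum fun i _ => he i
      _ = (univ.image φ)ᶜ.card * n := by simp
      _ ≤ P * n := by
        apply Nat.mul_le_mul_right
        rw [Finset.card_compl, him, Fintype.card_fin]
        have : P * (W + 1) = P * W + P := by ring
        omega
  rw [← Finset.sum_add_sum_compl (univ.image φ), h1]
  omega

/-- The sum over window pairs is at most the sum over increasing pairs. -/
lemma sum_ipairs_le (hPW : P * W ≤ n) (f : Fin n × Fin n → ℝ) (hf : ∀ p, 0 ≤ f p) :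
    ∑ w ∈ ipairs P, ∑ x : Fin W, ∑ x' : Fin W, f (rowOf hPW w.1 x, rowOf hPW w.2 x')
      ≤ ∑ r ∈ ipairs n, f r := by
  classical
  let I : Finset ((Fin P × Fin P) × (Fin W × Fin W)) := (ipairs P) ×ˢ univ
  let φ : (Fin P × Fin P) × (Fin W × Fin W) → Fin n × Fin n :=
    fun p => (rowOf hPW p.1.1 p.2.1, rowOf hPW p.1.2 p.2.2)
  have hφ : Set.InjOn φ I := by
    intro p _ q _ h
    simp only [φ, Prod.mk.injEq] at h
    obtain ⟨h1, h2⟩ := rowOf_inj hPW h.1
    obtain ⟨h3, h4⟩ := rowOf_inj hPW h.2
    exact Prod.ext (Prod.ext h1 h3) (Prod.ext h2 h4)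
  have hsub : I.image φ ⊆ ipairs n := by
    intro r hr
    obtain ⟨p, hp, rfl⟩ := Finset.mem_image.mp hr
    simp only [I, ipairs, mem_product, mem_filter, mem_univ, true_and, and_true] at hp ⊢
    exact rowOf_lt hPW hp _ _
  calc ∑ w ∈ ipairs P, ∑ x : Fin W, ∑ x' : Fin W, f (rowOf hPW w.1 x, rowOf hPW w.2 x')
      = ∑ p ∈ I, f (φ p) := by
        simp only [I, φ]
        rw [Finset.sum_product]
        refine Finset.sum_congr rfl fun w _ => ?_
        rw [Fintype.sum_prod_type]
    _ = ∑ r ∈ I.image φ, f r := (Finset.sum_image hφ).symm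
    _ ≤ ∑ r ∈ ipairs n, f r :=
        Finset.sum_le_sum_of_subset_of_nonneg hsub fun r _ _ => hf r

end Win

end Vale.Agent.Lib.P037
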